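import Mathlib

open MeasureTheory
open scoped ENNReal NNReal

namespace Vale.Agent.Lib.P074

/-- Euclidean space of dimension `d`. -/
abbrev Eu (d : ℕ) := EuclideanSpace ℝ (Fin d)

/-- The uniform probability measure on a set `K` of finite positive volume. -/
noncomputable def unif {d : ℕ} (K : Set (Eu d)) : Measure (Eu d) :=
  (volume K)⁻¹ • volume.restrict K

/-- `T` is a quadratic optimal transport map from `ρ` to `μ`: it is Borel, pushes `ρ` to `μ`,
and minimizes the quadratic cost among all Borel maps pushing `ρ` to `μ`. -/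
def IsOTMap {d : ℕ} (ρ μ : Measure (Eu d)) (T : Eu d → Eu d) : Prop :=
  Measurable T ∧ ρ.map T = μ ∧
    ∀ S : Eu d → Eu d, Measurable S → ρ.map S = μ →
      ∫⁻ x, ‖x - T x‖ₑ ^ 2 ∂ρ ≤ ∫⁻ x, ‖x - S x‖ₑ ^ 2 ∂ρ

/-- The quadratic Wasserstein distance: the infimum over all couplings `π` of `μ` and `ν`
of the square root of the quadratic cost of `π`. -/
noncomputable def W2 {d : ℕ} (μ ν : Measure (Eu d)) : ℝ≥0∞ :=
  ⨅ π : {π : Measure (Eu d × Eu d) // π.map Prod.fst = μ ∧ π.map Prod.snd = ν},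
    (∫⁻ p, ‖p.1 - p.2‖ₑ ^ 2 ∂π.1) ^ (1 / 2 : ℝ)

/-- The distance in `L²(ρ)` between two maps. -/
noncomputable def L2dist {d : ℕ} (ρ : Measure (Eu d)) (T S : Eu d → Eu d) : ℝ≥0∞ :=
  (∫⁻ x, ‖T x - S x‖ₑ ^ 2 ∂ρ) ^ (1 / 2 : ℝ)

/-- The exponent `α` is admissible in dimension `d`: for each compact convex `K` with nonempty
interior and each nonempty compact `Y` there is a finite `C` such that, for all Borel probability
measures `μ`, `ν` supported in `Y` and their optimal transport maps from the uniform measure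
on `K`, one has `‖T_μ - T_ν‖_{L²} ≤ C W₂(μ, ν)^α`. -/
def Admissible (d : ℕ) (α : ℝ) : Prop :=
  ∀ K : Set (Eu d), IsCompact K → Convex ℝ K → (interior K).Nonempty →
    ∀ Y : Set (Eu d), IsCompact Y → Y.Nonempty →
      ∃ C : ℝ≥0, ∀ μ ν : Measure (Eu d), IsProbabilityMeasure μ → IsProbabilityMeasure ν →
        μ Yᶜ = 0 → ν Yᶜ = 0 →
        ∀ Tμ Tν : Eu d → Eu d, IsOTMap (unif K) μ Tμ → IsOTMap (unif K) ν Tν →
          L2dist (unif K) Tμ Tν ≤ (C : ℝ≥0∞) * W2 μ ν ^ α

end Vale.Agent.Lib.P074
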