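import Vale.Agent.Lib.P074.Defs

section

open MeasureTheory Set
open scoped ENNReal NNReal RealInnerProductSpace

namespace Vale.Agent.Lib.P074

variable {d : ℕ}

/-! ### Generalities on lintegrals of squared norms -/

lemma lintegral_enorm_sq_eq {ρ : Measure (Eu d)} [IsFiniteMeasure ρ] {f : Eu d → Eu d}
    (hf : Measurable f) {M : ℝ} (hM : ∀ᵐ x ∂ρ, ‖f x‖ ≤ M) :
    ∫⁻ x, ‖f x‖ₑ ^ 2 ∂ρ = ENNReal.ofReal (∫ x, ‖f x‖ ^ 2 ∂ρ) := by
  have hint : Integrable (fun x => ‖f x‖ ^ 2) ρ := by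
    refine Integrable.of_bound (C := M ^ 2) (by fun_prop) ?_
    filter_upwards [hM] with x hx
    have h0 : 0 ≤ ‖f x‖ := norm_nonneg _
    rw [Real.norm_of_nonneg (by positivity)]
    exact pow_le_pow_left₀ h0 hx 2
  rw [ofReal_integral_eq_lintegral_ofReal hint (ae_of_all _ fun _ => by positivity)]
  refine lintegral_congr fun x => ?_
  rw [ENNReal.ofReal_pow (norm_nonneg _), ofReal_norm]

/-- Kantorovich-type sufficient condition for optimality of a map with bounded values. -/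
lemma isOTMap_of_potential {ρ : Measure (Eu d)} [IsFiniteMeasure ρ] {T : Eu d → Eu d}
    (hT : Measurable T) {A : Set (Eu d)} (hA : MeasurableSet A) {D : Eu d → ℝ}
    (hD : Measurable D) {M : ℝ}
    (hAM : ∀ y ∈ A, ‖y‖ ≤ M ∧ |D y| ≤ M) (hxM : ∀ᵐ x ∂ρ, ‖x‖ ≤ M)
    (hTA : ∀ᵐ x ∂ρ, T x ∈ A)
    (hpot : ∀ᵐ x ∂ρ, ∀ y ∈ A, ‖x - T x‖ ^ 2 - D (T x) ≤ ‖x - y‖ ^ 2 - D y) :
    IsOTMap ρ (ρ.map T) T := by
  refine ⟨hT, rfl, fun S hS hST => ?_⟩
  have hSA : ∀ᵐ x ∂ρ, S x ∈ A := by
    have h1 : (ρ.map S) Aᶜ = 0 := by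
      rw [hST, Measure.map_apply hT hA.compl]
      exact hTA
    rw [Measure.map_apply hS hA.compl] at h1
    exact h1
  have hbd : ∀ U : Eu d → Eu d, Measurable U → (∀ᵐ x ∂ρ, U x ∈ A) →
      ∀ᵐ x ∂ρ, ‖x - U x‖ ≤ M + M := by
    intro U _ hU
    filter_upwards [hU, hxM] with x hx1 hx2
    exact (norm_sub_le _ _).trans (add_le_add hx2 (hAM _ hx1).1)
  have hTm : Measurable fun x => x - T x := measurable_id.sub hT
  have hSm : Measurable fun x => x - S x := measurable_id.sub hS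
  rw [lintegral_enorm_sq_eq hTm (hbd T hT hTA), lintegral_enorm_sq_eq hSm (hbd S hS hSA)]
  refine ENNReal.ofReal_le_ofReal ?_
  have hsqint : ∀ U : Eu d → Eu d, Measurable U → (∀ᵐ x ∂ρ, U x ∈ A) →
      Integrable (fun x => ‖x - U x‖ ^ 2) ρ := by
    intro U hUm hU
    refine Integrable.of_bound (C := (M + M) ^ 2) ?_ ?_
    · exact (Measurable.pow_const (measurable_id.sub hUm).norm 2).aestronglyMeasurable
    · filter_upwards [hbd U hUm hU] with x hx
      have h0 : 0 ≤ ‖x - U x‖ := norm_nonneg _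
      rw [Real.norm_of_nonneg (by positivity)]
      exact pow_le_pow_left₀ h0 hx 2
  have hDint : ∀ U : Eu d → Eu d, Measurable U → (∀ᵐ x ∂ρ, U x ∈ A) →
      Integrable (fun x => D (U x)) ρ := by
    intro U hUm hU
    refine Integrable.of_bound (C := M) (hD.comp hUm).aestronglyMeasurable ?_
    filter_upwards [hU] with x hx
    exact (hAM _ hx).2
  have hDeq : ∫ x, D (T x) ∂ρ = ∫ x, D (S x) ∂ρ := by
    have h1 : ∫ y, D y ∂(ρ.map T) = ∫ x, D (T x) ∂ρ :=
      integral_map hT.aemeasurable hD.aestronglyMeasurable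
    have h2 : ∫ y, D y ∂(ρ.map S) = ∫ x, D (S x) ∂ρ :=
      integral_map hS.aemeasurable hD.aestronglyMeasurable
    rw [← h1, ← h2, hST]
  have hmono : ∫ x, (‖x - T x‖ ^ 2 - D (T x)) ∂ρ ≤ ∫ x, (‖x - S x‖ ^ 2 - D (S x)) ∂ρ := by
    refine integral_mono_ae ((hsqint T hT hTA).sub (hDint T hT hTA))
      ((hsqint S hS hSA).sub (hDint S hS hSA)) ?_
    filter_upwards [hpot, hSA] with x hx hx2
    exact hx _ hx2
  rw [integral_sub (hsqint T hT hTA) (hDint T hT hTA),
    integral_sub (hsqint S hS hSA) (hDint S hS hSA), hDeq] at hmono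
  linarith

/-! ### Pushforward under a three-valued map -/

/-- Pushforward of a finite measure under a three-valued map. -/
lemma map_three {ρ : Measure (Eu d)} {R L : Set (Eu d)} (hR : MeasurableSet R)
    (hL : MeasurableSet L) (a b c : Eu d) [∀ x, Decidable (x ∈ R)] [∀ x, Decidable (x ∈ L)] :
    ρ.map (fun x => if x ∈ R then a else if x ∈ L then b else c) =
      ρ R • Measure.dirac a + ρ (L \ R) • Measure.dirac b + ρ (R ∪ L)ᶜ • Measure.dirac c := by
  have hm : Measurable (fun x => if x ∈ R then a else if x ∈ L then b else c) :=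
    Measurable.ite hR measurable_const (Measurable.ite hL measurable_const measurable_const)
  ext A hA
  rw [Measure.map_apply hm hA]
  simp only [Measure.add_apply, Measure.smul_apply, smul_eq_mul, Measure.dirac_apply' _ hA]
  have hLR : MeasurableSet (L \ R) := hL.diff hR
  have hRest : MeasurableSet (R ∪ L)ᶜ := (hR.union hL).compl
  have hdecomp : (fun x => if x ∈ R then a else if x ∈ L then b else c) ⁻¹' A =
      (R ∩ {_x | a ∈ A}) ∪ ((L \ R) ∩ {_x | b ∈ A}) ∪ ((R ∪ L)ᶜ ∩ {_x | c ∈ A}) := by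
    ext x
    by_cases h1 : x ∈ R <;> by_cases h2 : x ∈ L <;> simp [h1, h2]
  rw [hdecomp]
  have hd1 : Disjoint ((R ∩ {_x | a ∈ A}) ∪ ((L \ R) ∩ {_x | b ∈ A})) ((R ∪ L)ᶜ ∩ {_x | c ∈ A}) := by
    rw [Set.disjoint_left]
    intro x hx hx2
    rcases hx with hx | hx
    · exact hx2.1 (Or.inl hx.1)
    · exact hx2.1 (Or.inr hx.1.1)
  have hd2 : Disjoint (R ∩ {_x | a ∈ A}) ((L \ R) ∩ {_x | b ∈ A}) := by
    rw [Set.disjoint_left]
    intro x hx hx2
    exact hx2.1.2 hx.1
  have hms : ∀ (S : Set (Eu d)) (P : Prop), MeasurableSet S → MeasurableSet (S ∩ {_x | P}) := by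
    intro S P hS
    exact hS.inter (MeasurableSet.const P)
  rw [measure_union hd1 (hms _ _ hRest), measure_union hd2 (hms _ _ hLR)]
  have hind : ∀ (S : Set (Eu d)) (y : Eu d),
      ρ (S ∩ {_x | y ∈ A}) = ρ S * A.indicator 1 y := by
    intro S y
    by_cases hy : y ∈ A <;> simp [hy]
  rw [hind, hind, hind]

end Vale.Agent.Lib.P074

end

section

open MeasureTheory Set Metric
open scoped ENNReal NNReal RealInnerProductSpace

namespace Vale.Agent.Lib.P074

variable {d : ℕ}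

/-- The closed unit ball. -/
noncomputable def ballK (d : ℕ) : Set (Eu d) := closedBall 0 1

lemma ballK_measurable : MeasurableSet (ballK d) := measurableSet_closedBall

lemma ballK_vol_pos : 0 < volume (ballK d) := by
  have h : (ball (0 : Eu d) 1) ⊆ ballK d := ball_subset_closedBall
  exact lt_of_lt_of_le (measure_ball_pos _ _ one_pos) (measure_mono h)

lemma ballK_vol_ne_top : volume (ballK d) ≠ ⊤ := (isCompact_closedBall _ _).measure_lt_top.ne

lemma unif_apply {K S : Set (Eu d)} (hS : MeasurableSet S) :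
    unif K S = (volume K)⁻¹ * volume (S ∩ K) := by
  simp [unif, Measure.restrict_apply hS]

instance unif_ball_prob : IsProbabilityMeasure (unif (ballK d)) := by
  constructor
  rw [unif_apply MeasurableSet.univ, univ_inter]
  exact ENNReal.inv_mul_cancel ballK_vol_pos.ne' ballK_vol_ne_top

lemma ae_unif_mem : ∀ᵐ x ∂(unif (ballK d)), x ∈ ballK d := by
  have h : (unif (ballK d)) (ballK d)ᶜ = 0 := by
    rw [unif_apply ballK_measurable.compl]
    simp
  exact h

/-- Rotation invariance: mass of a cap is independent of the direction. -/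
lemma mass_cap_eq {n n' : Eu d} (hn : ‖n‖ = ‖n'‖) (τ : ℝ) :
    unif (ballK d) {x | τ < ⟪x, n⟫} = unif (ballK d) {x | τ < ⟪x, n'⟫} := by
  have hmeas : ∀ m : Eu d, MeasurableSet {x : Eu d | τ < ⟪x, m⟫} := fun m =>
    measurableSet_lt measurable_const (by fun_prop)
  rw [unif_apply (hmeas n), unif_apply (hmeas n')]
  congr 1
  set r : Eu d ≃ₗᵢ[ℝ] Eu d := Submodule.reflection (ℝ ∙ (n - n'))ᗮ with hr
  have hrn : r n = n' := Submodule.reflection_sub hn
  have hpres : MeasurePreserving r volume volume := r.measurePreserving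
  have hpre : r ⁻¹' ({x | τ < ⟪x, n'⟫} ∩ ballK d) = {x | τ < ⟪x, n⟫} ∩ ballK d := by
    ext x
    simp only [mem_preimage, mem_inter_iff, Set.mem_ofPred_eq, ballK, mem_closedBall, dist_zero_right,
      LinearIsometryEquiv.norm_map]
    rw [← hrn, LinearIsometryEquiv.inner_map_map]
  rw [← hpre]
  exact hpres.measure_preimage ((hmeas n').inter ballK_measurable).nullMeasurableSet

/-- Coordinates are bounded by the norm. -/
lemma abs_coord_le (x : Eu d) (i : Fin d) : |x i| ≤ ‖x‖ := by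
  have := PiLp.norm_apply_le x i
  simpa using this

/-- Volume of a coordinate box. -/
lemma volume_box (I : Fin d → Set ℝ) (hI : ∀ i, MeasurableSet (I i)) :
    volume {x : Eu d | ∀ i, x i ∈ I i} = ∏ i, volume (I i) := by
  have hp : MeasurePreserving (@WithLp.ofLp 2 (Fin d → ℝ)) volume volume :=
    PiLp.volume_preserving_ofLp (Fin d)
  have hpre : {x : Eu d | ∀ i, x i ∈ I i} = (@WithLp.ofLp 2 (Fin d → ℝ)) ⁻¹' (Set.pi univ I) := by
    ext x
    simp [Set.mem_pi]
  rw [hpre, hp.measure_preimage (MeasurableSet.univ_pi hI).nullMeasurableSet, volume_pi_pi]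

end Vale.Agent.Lib.P074

end

section

open MeasureTheory Set Metric
open scoped ENNReal NNReal RealInnerProductSpace

namespace Vale.Agent.Lib.P074

variable {d : ℕ}

/-- The cell on which the map takes the value `e0`. -/
def cellR (e0 e1 : Eu d) (η c : ℝ) : Set (Eu d) := {x | η * ⟪x, e1⟫ + c < ⟪x, e0⟫}

/-- The cell on which the map takes the value `-e0`. -/
def cellL (e0 e1 : Eu d) (η c : ℝ) : Set (Eu d) := {x | η * ⟪x, e1⟫ + c < -⟪x, e0⟫}

lemma cellR_meas (e0 e1 : Eu d) (η c : ℝ) : MeasurableSet (cellR e0 e1 η c) :=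
  measurableSet_lt (by fun_prop) (by fun_prop)

lemma cellL_meas (e0 e1 : Eu d) (η c : ℝ) : MeasurableSet (cellL e0 e1 η c) :=
  measurableSet_lt (by fun_prop) (by fun_prop)

open Classical in
/-- The three-valued transport map (gradient of a maximum of three affine functions). -/
noncomputable def Tm (e0 e1 : Eu d) (η c : ℝ) (x : Eu d) : Eu d :=
  if x ∈ cellR e0 e1 η c then e0 else if x ∈ cellL e0 e1 η c then -e0 else η • e1

lemma Tm_meas (e0 e1 : Eu d) (η c : ℝ) : Measurable (Tm e0 e1 η c) :=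
  Measurable.ite (cellR_meas e0 e1 η c) measurable_const
    (Measurable.ite (cellL_meas e0 e1 η c) measurable_const measurable_const)

section orthonormal

variable {e0 e1 : Eu d} (he0 : ‖e0‖ = 1) (he1 : ‖e1‖ = 1) (h01 : ⟪e0, e1⟫ = 0)

include he1 in
lemma abs_inner_e1_le {x : Eu d} (hx : x ∈ ballK d) : |⟪x, e1⟫| ≤ 1 := by
  have h1 : |⟪x, e1⟫| ≤ ‖x‖ * ‖e1‖ := abs_real_inner_le_norm _ _
  have h2 : ‖x‖ ≤ 1 := by simpa [ballK] using hx
  rw [he1, mul_one] at h1
  exact h1.trans h2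

include he1 in
/-- The two outer cells do not meet inside the ball. -/
lemma not_both_cells {η c : ℝ} (hη : 0 ≤ η) (hc : η ≤ c) {x : Eu d} (hx : x ∈ ballK d)
    (hR : x ∈ cellR e0 e1 η c) (hL : x ∈ cellL e0 e1 η c) : False := by
  have h1 := abs_le.mp (abs_inner_e1_le he1 hx)
  simp only [cellR, cellL, Set.mem_ofPred_eq] at hR hL
  nlinarith [h1.1, h1.2]

include he0 he1 h01 in
/-- Optimality of the three-valued map. -/
lemma Tm_isOT {η c : ℝ} (hη : 0 ≤ η) (hc : η ≤ c) :
    IsOTMap (unif (ballK d)) ((unif (ballK d)).map (Tm e0 e1 η c)) (Tm e0 e1 η c) := by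
  classical
  have hne1 : e0 ≠ η • e1 := by
    intro h
    have h2 : ⟪e0, e0⟫ = 1 := by rw [real_inner_self_eq_norm_sq, he0]; norm_num
    rw [show ⟪e0, e0⟫ = ⟪e0, η • e1⟫ from congrArg _ h, inner_smul_right, h01] at h2
    norm_num at h2
  have hne2 : -e0 ≠ η • e1 := by
    intro h
    have h2 : ⟪e0, e0⟫ = 1 := by rw [real_inner_self_eq_norm_sq, he0]; norm_num
    have h3 : ⟪e0, -e0⟫ = ⟪e0, η • e1⟫ := congrArg _ h
    rw [inner_neg_right, inner_smul_right, h01, h2] at h3
    norm_num at h3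
  set A : Set (Eu d) := {e0, -e0, η • e1} with hAdef
  set D : Eu d → ℝ := fun y => if y = η • e1 then η ^ 2 else 1 - 2 * c with hDdef
  have hDe : D e0 = 1 - 2 * c := by simp [hDdef, hne1]
  have hDn : D (-e0) = 1 - 2 * c := by simp [hDdef, hne2]
  have hDs : D (η • e1) = η ^ 2 := by simp [hDdef]
  have hAm : MeasurableSet A :=
    (Set.toFinite A).measurableSet
  have hDm : Measurable D := by
    refine Measurable.ite (measurableSet_singleton _) measurable_const measurable_const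
  have hnorm_smul : ‖η • e1‖ = η := by
    rw [norm_smul, he1, mul_one, Real.norm_eq_abs, abs_of_nonneg hη]
  have hval_e : ∀ x : Eu d, ‖x - e0‖ ^ 2 - D e0 = ‖x‖ ^ 2 - 2 * ⟪x, e0⟫ + 2 * c := by
    intro x
    rw [hDe, norm_sub_sq_real, he0]
    ring
  have hval_n : ∀ x : Eu d, ‖x - (-e0)‖ ^ 2 - D (-e0) = ‖x‖ ^ 2 + 2 * ⟪x, e0⟫ + 2 * c := by
    intro x
    rw [hDn, norm_sub_sq_real, inner_neg_right, norm_neg, he0]
    ring
  have hval_s : ∀ x : Eu d, ‖x - η • e1‖ ^ 2 - D (η • e1) = ‖x‖ ^ 2 - 2 * (η * ⟪x, e1⟫) := by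
    intro x
    rw [hDs, norm_sub_sq_real, inner_smul_right, hnorm_smul]
    ring
  refine isOTMap_of_potential (A := A) (D := D) (M := 2 + 2 * |c| + η ^ 2 + η) (Tm_meas _ _ _ _)
    hAm hDm ?_ ?_ ?_ ?_
  · have hc0 : 0 ≤ |c| := abs_nonneg c
    have hη2 : 0 ≤ η ^ 2 := by positivity
    have hc' : |1 - 2 * c| ≤ 1 + 2 * |c| := by
      refine (abs_sub _ _).trans ?_
      rw [abs_one, abs_mul]
      norm_num
    intro y hy
    simp only [hAdef, mem_insert_iff, mem_singleton_iff] at hy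
    rcases hy with rfl | rfl | rfl
    · rw [he0, hDe]
      constructor <;> linarith
    · rw [norm_neg, he0, hDn]
      constructor <;> linarith
    · rw [hnorm_smul, hDs, abs_of_nonneg hη2]
      constructor <;> linarith
  · filter_upwards [ae_unif_mem] with x hx
    have h2 : ‖x‖ ≤ 1 := by simpa [ballK] using hx
    have hc0 : 0 ≤ |c| := abs_nonneg c
    have hη2 : 0 ≤ η ^ 2 := by positivity
    linarith
  · refine ae_of_all _ fun x => ?_
    simp only [Tm, hAdef]
    split_ifs <;> simp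
  · filter_upwards [ae_unif_mem] with x hx y hy
    have hx1 := abs_le.mp (abs_inner_e1_le he1 hx)
    have hprod : -η ≤ η * ⟪x, e1⟫ := by nlinarith [hx1.1, hx1.2]
    have hkey : ‖x - Tm e0 e1 η c x‖ ^ 2 - D (Tm e0 e1 η c x) ≤ ‖x - y‖ ^ 2 - D y := by
      simp only [hAdef, mem_insert_iff, mem_singleton_iff] at hy
      by_cases hR : x ∈ cellR e0 e1 η c
      · have hT : Tm e0 e1 η c x = e0 := by simp [Tm, hR]
        have hR' : η * ⟪x, e1⟫ + c < ⟪x, e0⟫ := hR
        rw [hT]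
        rcases hy with rfl | rfl | rfl
        · exact le_rfl
        · rw [hval_e, hval_n]; linarith
        · rw [hval_e, hval_s]; linarith
      · by_cases hL : x ∈ cellL e0 e1 η c
        · have hT : Tm e0 e1 η c x = -e0 := by simp [Tm, hR, hL]
          have hL' : η * ⟪x, e1⟫ + c < -⟪x, e0⟫ := hL
          rw [hT]
          rcases hy with rfl | rfl | rfl
          · rw [hval_e, hval_n]; linarith
          · exact le_rfl
          · rw [hval_n, hval_s]; linarith
        · have hT : Tm e0 e1 η c x = η • e1 := by simp [Tm, hR, hL]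
          have hR' : ¬ η * ⟪x, e1⟫ + c < ⟪x, e0⟫ := hR
          have hL' : ¬ η * ⟪x, e1⟫ + c < -⟪x, e0⟫ := hL
          push Not at hR' hL'
          rw [hT]
          rcases hy with rfl | rfl | rfl
          · rw [hval_e, hval_s]; linarith
          · rw [hval_n, hval_s]; linarith
          · exact le_rfl
    exact hkey

/-- The scale factor `√(1+η²)`. -/
noncomputable def sc (η : ℝ) : ℝ := Real.sqrt (1 + η ^ 2)

lemma sc_pos (η : ℝ) : 0 < sc η := Real.sqrt_pos.mpr (by positivity)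

lemma sc_sq (η : ℝ) : sc η ^ 2 = 1 + η ^ 2 := Real.sq_sqrt (by positivity)

lemma one_le_sc (η : ℝ) : 1 ≤ sc η := by
  rw [sc]
  exact Real.one_le_sqrt.mpr (by nlinarith [sq_nonneg η])

include he0 he1 h01 in
/-- Mass of the right cell is unchanged under the tilt by rotation invariance. -/
lemma mass_R (η τ : ℝ) :
    unif (ballK d) (cellR e0 e1 η (sc η * τ)) = unif (ballK d) (cellR e0 e1 0 τ) := by
  set n : Eu d := (sc η)⁻¹ • (e0 - η • e1) with hn
  have hs := sc_pos η
  have hnorm : ‖n‖ = ‖e0‖ := by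
    have h1 : ‖e0 - η • e1‖ ^ 2 = sc η ^ 2 := by
      rw [norm_sub_sq_real, he0, inner_smul_right, h01, norm_smul, he1, sc_sq,
        Real.norm_eq_abs]
      rw [mul_one, sq_abs]
      ring
    have h2 : ‖e0 - η • e1‖ = sc η := by
      have h3 : 0 ≤ ‖e0 - η • e1‖ := norm_nonneg _
      nlinarith [sq_nonneg (‖e0 - η • e1‖ - sc η), sq_nonneg (‖e0 - η • e1‖ + sc η)]
    rw [hn, norm_smul, h2, he0, Real.norm_eq_abs, abs_of_pos (inv_pos.mpr hs)]
    exact inv_mul_cancel₀ hs.ne'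
  have h1 : cellR e0 e1 η (sc η * τ) = {x | τ < ⟪x, n⟫} := by
    ext x
    simp only [cellR, Set.mem_ofPred_eq, hn, inner_smul_right, inner_sub_right]
    rw [lt_inv_mul_iff₀ hs]
    constructor <;> intro h <;> nlinarith
  have h2 : cellR e0 e1 0 τ = {x | τ < ⟪x, e0⟫} := by
    ext x
    simp [cellR]
  rw [h1, h2]
  exact mass_cap_eq hnorm τ

include he0 he1 h01 in
/-- Mass of the left cell is unchanged under the tilt by rotation invariance. -/
lemma mass_L (η τ : ℝ) :
    unif (ballK d) (cellL e0 e1 η (sc η * τ)) = unif (ballK d) (cellL e0 e1 0 τ) := by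
  set n : Eu d := (sc η)⁻¹ • (-e0 - η • e1) with hn
  have hs := sc_pos η
  have hnorm : ‖n‖ = ‖-e0‖ := by
    have h1 : ‖-e0 - η • e1‖ ^ 2 = sc η ^ 2 := by
      rw [norm_sub_sq_real, norm_neg, he0, inner_smul_right, inner_neg_left, h01, norm_smul, he1,
        sc_sq, Real.norm_eq_abs]
      rw [mul_one, sq_abs]
      ring
    have h2 : ‖-e0 - η • e1‖ = sc η := by
      have h3 : 0 ≤ ‖-e0 - η • e1‖ := norm_nonneg _
      nlinarith [sq_nonneg (‖-e0 - η • e1‖ - sc η), sq_nonneg (‖-e0 - η • e1‖ + sc η)]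
    rw [hn, norm_smul, h2, norm_neg, he0, Real.norm_eq_abs, abs_of_pos (inv_pos.mpr hs)]
    exact inv_mul_cancel₀ hs.ne'
  have h1 : cellL e0 e1 η (sc η * τ) = {x | τ < ⟪x, n⟫} := by
    ext x
    simp only [cellL, Set.mem_ofPred_eq, hn, inner_smul_right, inner_sub_right, inner_neg_right]
    rw [lt_inv_mul_iff₀ hs]
    constructor <;> intro h <;> nlinarith
  have h2 : cellL e0 e1 0 τ = {x | τ < ⟪x, -e0⟫} := by
    ext x
    simp [cellL]
  rw [h1, h2]
  exact mass_cap_eq hnorm τ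

end orthonormal

end Vale.Agent.Lib.P074

end

section

open MeasureTheory Set Metric
open scoped ENNReal NNReal RealInnerProductSpace

namespace Vale.Agent.Lib.P074

variable {d : ℕ}

section orthonormal

variable {e0 e1 : Eu d} (he0 : ‖e0‖ = 1) (he1 : ‖e1‖ = 1) (h01 : ⟪e0, e1⟫ = 0)

/-- Pushforward of the uniform measure under `Tm`, written as a sum of three atoms. -/
lemma map_Tm (η c : ℝ) :
    (unif (ballK d)).map (Tm e0 e1 η c) =
      unif (ballK d) (cellR e0 e1 η c) • Measure.dirac e0 +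
      unif (ballK d) (cellL e0 e1 η c \ cellR e0 e1 η c) • Measure.dirac (-e0) +
      unif (ballK d) (cellR e0 e1 η c ∪ cellL e0 e1 η c)ᶜ • Measure.dirac (η • e1) := by
  classical
  have := map_three (ρ := unif (ballK d)) (cellR_meas e0 e1 η c) (cellL_meas e0 e1 η c)
    e0 (-e0) (η • e1)
  rw [← this]
  rfl

include he1 in
lemma mass_L_diff {η c : ℝ} (hη : 0 ≤ η) (hc : η ≤ c) :
    unif (ballK d) (cellL e0 e1 η c \ cellR e0 e1 η c) = unif (ballK d) (cellL e0 e1 η c) := by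
  rw [unif_apply ((cellL_meas _ _ _ _).diff (cellR_meas _ _ _ _)), unif_apply (cellL_meas _ _ _ _)]
  congr 2
  ext x
  simp only [mem_inter_iff, Set.mem_sdiff]
  constructor
  · rintro ⟨⟨h1, _⟩, h3⟩
    exact ⟨h1, h3⟩
  · rintro ⟨h1, h3⟩
    exact ⟨⟨h1, fun h2 => not_both_cells he1 hη hc h3 h2 h1⟩, h3⟩

lemma mass_rest (η c : ℝ) :
    unif (ballK d) (cellR e0 e1 η c ∪ cellL e0 e1 η c)ᶜ =
      1 - (unif (ballK d) (cellR e0 e1 η c) +
        unif (ballK d) (cellL e0 e1 η c \ cellR e0 e1 η c)) := by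
  rw [prob_compl_eq_one_sub ((cellR_meas _ _ _ _).union (cellL_meas _ _ _ _))]
  rw [← measure_union Set.disjoint_sdiff_right ((cellL_meas _ _ _ _).diff (cellR_meas _ _ _ _))]
  rw [Set.union_sdiff_self]

include he0 he1 h01 in
/-- Key coupling lemma: composition of the straight map with the atom move has the same
law as the tilted map. -/
lemma map_tilt {η τ : ℝ} (hη : 0 ≤ η) (hτ : η ≤ τ) :
    (unif (ballK d)).map (Tm e0 e1 η (sc η * τ)) =
      unif (ballK d) (cellR e0 e1 0 τ) • Measure.dirac e0 +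
      unif (ballK d) (cellL e0 e1 0 τ) • Measure.dirac (-e0) +
      (1 - (unif (ballK d) (cellR e0 e1 0 τ) + unif (ballK d) (cellL e0 e1 0 τ))) •
        Measure.dirac (η • e1) := by
  have hc : η ≤ sc η * τ := by nlinarith [one_le_sc η]
  rw [map_Tm, mass_rest, mass_L_diff he1 hη hc, mass_R he0 he1 h01, mass_L he0 he1 h01]

include he1 in
/-- The same three-atom measure arises from the untilted map followed by moving the origin. -/
lemma map_move {η τ : ℝ} (h0 : 0 ≤ τ) (he0ne : e0 ≠ 0) :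
    (unif (ballK d)).map (fun x => (fun y : Eu d => if y = 0 then η • e1 else y) (Tm e0 e1 0 τ x)) =
      unif (ballK d) (cellR e0 e1 0 τ) • Measure.dirac e0 +
      unif (ballK d) (cellL e0 e1 0 τ) • Measure.dirac (-e0) +
      (1 - (unif (ballK d) (cellR e0 e1 0 τ) + unif (ballK d) (cellL e0 e1 0 τ))) •
        Measure.dirac (η • e1) := by
  classical
  have hne : -e0 ≠ 0 := neg_ne_zero.mpr he0ne
  have hfun : (fun x => (fun y : Eu d => if y = 0 then η • e1 else y) (Tm e0 e1 0 τ x)) =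
      fun x => if x ∈ cellR e0 e1 0 τ then e0 else if x ∈ cellL e0 e1 0 τ then -e0 else η • e1 := by
    ext1 x
    by_cases hR : x ∈ cellR e0 e1 0 τ
    · simp [Tm, hR, he0ne]
    · by_cases hL : x ∈ cellL e0 e1 0 τ
      · simp [Tm, hR, hL, hne]
      · simp [Tm, hR, hL]
  rw [hfun, map_three (cellR_meas _ _ _ _) (cellL_meas _ _ _ _), mass_rest,
    mass_L_diff he1 le_rfl h0]

end orthonormal

/-- Upper bound for `W2` from a transport map. -/
lemma W2_le_of_map {μ ν : Measure (Eu d)} {G : Eu d → Eu d} (hG : Measurable G)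
    (hν : μ.map G = ν) :
    W2 μ ν ≤ (∫⁻ y, ‖y - G y‖ₑ ^ 2 ∂μ) ^ (1 / 2 : ℝ) := by
  have hpair : Measurable (fun y : Eu d => (y, G y)) := measurable_id.prodMk hG
  set π : Measure (Eu d × Eu d) := μ.map (fun y => (y, G y)) with hπ
  have h1 : π.map Prod.fst = μ := by
    rw [hπ, Measure.map_map measurable_fst hpair]
    exact Measure.map_id
  have h2 : π.map Prod.snd = ν := by
    rw [hπ, Measure.map_map measurable_snd hpair]
    exact hν
  have hcost : ∫⁻ p, ‖p.1 - p.2‖ₑ ^ 2 ∂π = ∫⁻ y, ‖y - G y‖ₑ ^ 2 ∂μ := by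
    rw [hπ, lintegral_map _ hpair]
    exact (measurable_fst.sub measurable_snd).enorm.pow_const 2
  rw [← hcost]
  exact iInf_le (fun π' : {π : Measure (Eu d × Eu d) // π.map Prod.fst = μ ∧ π.map Prod.snd = ν} =>
    (∫⁻ p, ‖p.1 - p.2‖ₑ ^ 2 ∂π'.1) ^ (1 / 2 : ℝ)) ⟨π, h1, h2⟩

section orthonormal2

variable {e0 e1 : Eu d} (he0 : ‖e0‖ = 1) (he1 : ‖e1‖ = 1) (h01 : ⟪e0, e1⟫ = 0)

include he0 he1 h01 in
/-- Upper bound for `W2` between the straight and the tilted target. -/
lemma W2_tilt_le {η τ : ℝ} (hη : 0 ≤ η) (hτ : η ≤ τ) (h0 : 0 ≤ τ) :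
    W2 ((unif (ballK d)).map (Tm e0 e1 0 τ)) ((unif (ballK d)).map (Tm e0 e1 η (sc η * τ))) ≤
      (ENNReal.ofReal (η ^ 2) * unif (ballK d) (cellR e0 e1 0 τ ∪ cellL e0 e1 0 τ)ᶜ) ^ (1 / 2 : ℝ) := by
  classical
  have he0ne : e0 ≠ 0 := by
    intro h
    rw [h, norm_zero] at he0
    exact zero_ne_one he0
  have hne : -e0 ≠ 0 := neg_ne_zero.mpr he0ne
  set G : Eu d → Eu d := fun y => if y = 0 then η • e1 else y with hGdef
  have hG : Measurable G :=
    Measurable.ite (measurableSet_singleton _) measurable_const measurable_id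
  have hmap : ((unif (ballK d)).map (Tm e0 e1 0 τ)).map G =
      (unif (ballK d)).map (Tm e0 e1 η (sc η * τ)) := by
    rw [Measure.map_map hG (Tm_meas _ _ _ _), map_tilt he0 he1 h01 hη hτ,
      ← map_move he1 h0 he0ne]
    rfl
  refine (W2_le_of_map hG hmap).trans ?_
  refine ENNReal.rpow_le_rpow ?_ (by norm_num)
  rw [lintegral_map (by
    exact ((measurable_id.sub hG).enorm.pow_const 2)) (Tm_meas _ _ _ _)]
  have hS : MeasurableSet (cellR e0 e1 0 τ ∪ cellL e0 e1 0 τ)ᶜ :=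
    ((cellR_meas _ _ _ _).union (cellL_meas _ _ _ _)).compl
  rw [← lintegral_indicator_const hS]
  refine lintegral_mono fun x => ?_
  by_cases hR : x ∈ cellR e0 e1 0 τ
  · have hT : Tm e0 e1 0 τ x = e0 := by simp [Tm, hR]
    have hG' : G e0 = e0 := by simp [hGdef, he0ne]
    simp [hT, hG']
  · by_cases hL : x ∈ cellL e0 e1 0 τ
    · have hT : Tm e0 e1 0 τ x = -e0 := by simp [Tm, hR, hL]
      have hG' : G (-e0) = -e0 := by simp [hGdef, he0ne]
      simp [hT, hG']
    · have hT : Tm e0 e1 0 τ x = 0 := by simp [Tm, hR, hL]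
      have hG' : G 0 = η • e1 := by simp [hGdef]
      have hmem : x ∈ (cellR e0 e1 0 τ ∪ cellL e0 e1 0 τ)ᶜ := by
        simp [hR, hL]
      rw [Set.indicator_of_mem hmem, hT, hG', zero_sub, enorm_neg]
      rw [← ofReal_norm, ← ENNReal.ofReal_pow (norm_nonneg _), norm_smul, he1, mul_one,
        Real.norm_eq_abs, sq_abs]

end orthonormal2

end Vale.Agent.Lib.P074

end

section

open MeasureTheory Set Metric Filter Topology
open scoped ENNReal NNReal RealInnerProductSpace

namespace Vale.Agent.Lib.P074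

variable {d : ℕ}

/-- The basis vector with coordinate `i`. -/
noncomputable def bv (i : Fin d) : Eu d := EuclideanSpace.single i (1 : ℝ)

lemma bv_norm (i : Fin d) : ‖bv i‖ = 1 := by
  simp [bv]

lemma bv_inner (x : Eu d) (i : Fin d) : ⟪x, bv i⟫ = x i := by
  simp [bv, EuclideanSpace.inner_single_right]

lemma bv_orth {i j : Fin d} (h : i ≠ j) : ⟪bv i, bv j⟫ = 0 := by
  rw [bv_inner]
  simp [bv, h.symm]

/-- Upper bound on the mass of the strip. -/
lemma strip_mass_le (i0 : Fin d) (e1 : Eu d) : ∃ C1 : ℝ, 0 < C1 ∧ ∀ τ : ℝ, 0 < τ →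
    unif (ballK d) (cellR (bv i0) e1 0 τ ∪ cellL (bv i0) e1 0 τ)ᶜ ≤
      ENNReal.ofReal (C1 * τ) := by
  classical
  set A1 : ℝ≥0∞ := ∏ i ∈ Finset.univ.erase i0, volume (Icc (-1 : ℝ) 1) with hA1
  have hA1top : A1 ≠ ⊤ := by
    refine ENNReal.prod_ne_top fun i _ => ?_
    simp
  set V : ℝ≥0∞ := (volume (ballK d))⁻¹ with hV
  have hVtop : V ≠ ⊤ := ENNReal.inv_ne_top.mpr ballK_vol_pos.ne'
  set C0 : ℝ := (V * ENNReal.ofReal 2 * A1).toReal + 1 with hC0
  have hC0pos : 0 < C0 := by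
    have : 0 ≤ (V * ENNReal.ofReal 2 * A1).toReal := ENNReal.toReal_nonneg
    linarith
  refine ⟨C0, hC0pos, fun τ hτ => ?_⟩
  have hS : MeasurableSet (cellR (bv i0) e1 (0 : ℝ) τ ∪ cellL (bv i0) e1 (0 : ℝ) τ)ᶜ :=
    ((cellR_meas _ _ _ _).union (cellL_meas _ _ _ _)).compl
  rw [unif_apply hS]
  set I : Fin d → Set ℝ := fun i => if i = i0 then Icc (-τ) τ else Icc (-1 : ℝ) 1 with hI
  have hImeas : ∀ i, MeasurableSet (I i) := by
    intro i
    simp only [hI]
    split_ifs <;> exact measurableSet_Icc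
  have hsub : (cellR (bv i0) e1 (0 : ℝ) τ ∪ cellL (bv i0) e1 (0 : ℝ) τ)ᶜ ∩ ballK d ⊆
      {x : Eu d | ∀ i, x i ∈ I i} := by
    rintro x ⟨hx1, hx2⟩ i
    have hnorm : ‖x‖ ≤ 1 := by simpa [ballK] using hx2
    simp only [mem_compl_iff, mem_union, not_or, cellR, cellL, Set.mem_ofPred_eq, zero_mul,
      zero_add, not_lt, bv_inner] at hx1
    simp only [hI]
    split_ifs with h
    · subst h
      exact ⟨by linarith [hx1.2], hx1.1⟩
    · have := (abs_coord_le x i).trans hnorm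
      exact abs_le.mp this
  have hvol : volume {x : Eu d | ∀ i, x i ∈ I i} = ENNReal.ofReal (2 * τ) * A1 := by
    rw [volume_box I hImeas, ← Finset.mul_prod_erase Finset.univ _ (Finset.mem_univ i0)]
    congr 1
    · simp only [hI, if_true, Real.volume_Icc]
      congr 1
      ring
    · refine Finset.prod_congr rfl fun i hi => ?_
      simp only [hI, if_neg (Finset.ne_of_mem_erase hi)]
  calc V * volume ((cellR (bv i0) e1 (0 : ℝ) τ ∪ cellL (bv i0) e1 (0 : ℝ) τ)ᶜ ∩ ballK d)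
      ≤ V * (ENNReal.ofReal (2 * τ) * A1) := by
        gcongr
        exact (measure_mono hsub).trans hvol.le
    _ = ENNReal.ofReal ((V * ENNReal.ofReal 2 * A1).toReal * τ) := by
        rw [ENNReal.ofReal_mul (by norm_num : (0 : ℝ) ≤ 2), ENNReal.ofReal_mul ENNReal.toReal_nonneg,
          ENNReal.ofReal_toReal (ENNReal.mul_ne_top (ENNReal.mul_ne_top hVtop ENNReal.ofReal_ne_top) hA1top)]
        ring
    _ ≤ ENNReal.ofReal (C0 * τ) := by
        refine ENNReal.ofReal_le_ofReal ?_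
        rw [hC0]
        nlinarith

/-- Lower bound on the mass of the region where the two maps differ by at least one. -/
lemma region_mass_ge {i0 i1 : Fin d} (h : i0 ≠ i1) : ∃ c2 η0 : ℝ, 0 < c2 ∧ 0 < η0 ∧ η0 ≤ 1 ∧
    ∀ η : ℝ, 0 < η → η ≤ η0 →
      ENNReal.ofReal (c2 * η) ≤
        ∫⁻ x, ‖Tm (bv i0) (bv i1) 0 η x - Tm (bv i0) (bv i1) η (sc η * η) x‖ₑ ^ 2
          ∂(unif (ballK d)) := by
  classical
  have hdpos : 0 < d := Fin.pos i0
  set β : ℝ := 1 / (d : ℝ) with hβ
  have hdR : (0 : ℝ) < d := by exact_mod_cast hdpos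
  have hd1 : (1 : ℝ) ≤ d := by exact_mod_cast hdpos
  have hβpos : 0 < β := by positivity
  have hβ1 : β ≤ 1 := by
    rw [hβ, div_le_one hdR]
    exact hd1
  set J : Fin d → Set ℝ := fun i => if i = i1 then Icc (β / 2) β else Icc 0 β with hJ
  set A2 : ℝ≥0∞ := ∏ i ∈ Finset.univ.erase i0, volume (J i) with hA2
  have hJpos : ∀ i, 0 < volume (J i) := by
    intro i
    simp only [hJ]
    split_ifs <;> simp [Real.volume_Icc] <;> positivity
  have hJtop : ∀ i, volume (J i) ≠ ⊤ := by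
    intro i
    simp only [hJ]
    split_ifs <;> simp [Real.volume_Icc]
  have hA2pos : A2 ≠ 0 := by
    rw [hA2, Finset.prod_ne_zero_iff]
    exact fun i _ => (hJpos i).ne'
  have hA2top : A2 ≠ ⊤ := ENNReal.prod_ne_top fun i _ => hJtop i
  set V : ℝ≥0∞ := (volume (ballK d))⁻¹ with hV
  have hVtop : V ≠ ⊤ := ENNReal.inv_ne_top.mpr ballK_vol_pos.ne'
  have hV0 : V ≠ 0 := ENNReal.inv_ne_zero.mpr ballK_vol_ne_top
  set c2 : ℝ := (V * ENNReal.ofReal (β / 2) * A2).toReal with hc2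
  have hc2pos : 0 < c2 := by
    refine ENNReal.toReal_pos ?_ ?_
    · refine mul_ne_zero (mul_ne_zero hV0 ?_) hA2pos
      simp only [ne_eq, ENNReal.ofReal_eq_zero, not_le]
      positivity
    · exact ENNReal.mul_ne_top (ENNReal.mul_ne_top hVtop ENNReal.ofReal_ne_top) hA2top
  refine ⟨c2, β / 3, hc2pos, by positivity, by linarith, fun η hη hη0 => ?_⟩
  have hsc1 := one_le_sc η
  have hsc2 : sc η ≤ 2 := by
    have : sc η ^ 2 ≤ 4 := by
      rw [sc_sq]
      have : η ≤ 1 := by linarith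
      nlinarith
    nlinarith [sc_pos η]
  set c : ℝ := sc η * η with hc
  have hcη : η ≤ c := by nlinarith
  have hc2η : c ≤ 2 * η := by nlinarith
  have hηc : η < c ∨ η = c := lt_or_eq_of_le hcη
  set I : Fin d → Set ℝ := fun i => if i = i0 then Icc c (c + η * β / 2) else J i with hI
  have hImeas : ∀ i, MeasurableSet (I i) := by
    intro i
    simp only [hI, hJ]
    split_ifs <;> exact measurableSet_Icc
  set D : Set (Eu d) := {x : Eu d | ∀ i, x i ∈ I i} with hD
  have hDmeas : MeasurableSet D := by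
    have : D = ⋂ i, (fun x : Eu d => x i) ⁻¹' (I i) := by
      ext x
      simp [hD]
    rw [this]
    refine MeasurableSet.iInter fun i => ?_
    exact (by fun_prop : Measurable (fun x : Eu d => x i)) (hImeas i)
  have hcoord : ∀ x ∈ D, ∀ i, 0 ≤ x i ∧ x i ≤ β := by
    intro x hx i
    have hxi := hx i
    simp only [hI, hJ] at hxi
    split_ifs at hxi with h1 h2
    · exact ⟨by nlinarith [hxi.1], by nlinarith [hxi.2]⟩
    · exact ⟨by nlinarith [hxi.1], hxi.2⟩
    · exact ⟨hxi.1, hxi.2⟩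
  have hDK : D ⊆ ballK d := by
    intro x hx
    have hsq : ‖x‖ ^ 2 ≤ 1 := by
      rw [EuclideanSpace.real_norm_sq_eq]
      calc ∑ i, x i ^ 2 ≤ ∑ _i : Fin d, β ^ 2 := by
            refine Finset.sum_le_sum fun i _ => ?_
            have := hcoord x hx i
            exact pow_le_pow_left₀ this.1 this.2 2
        _ = (d : ℝ) * β ^ 2 := by simp
        _ = β := by rw [hβ]; field_simp
        _ ≤ 1 := hβ1
    have hn : ‖x‖ ≤ 1 := by nlinarith [norm_nonneg x]
    simpa [ballK] using hn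
  have hvolD : volume D = ENNReal.ofReal (η * β / 2) * A2 := by
    rw [hD, volume_box I hImeas, ← Finset.mul_prod_erase Finset.univ _ (Finset.mem_univ i0)]
    congr 1
    · simp only [hI, if_true, Real.volume_Icc]
      congr 1
      ring
    · refine Finset.prod_congr rfl fun i hi => ?_
      simp only [hI, if_neg (Finset.ne_of_mem_erase hi)]
  have hmass : unif (ballK d) D = ENNReal.ofReal (c2 * η) := by
    rw [unif_apply hDmeas, Set.inter_eq_left.mpr hDK, hvolD, hc2,
      ENNReal.ofReal_mul ENNReal.toReal_nonneg,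
      ENNReal.ofReal_toReal (ENNReal.mul_ne_top (ENNReal.mul_ne_top hVtop ENNReal.ofReal_ne_top) hA2top)]
    rw [show η * β / 2 = β / 2 * η by ring, ENNReal.ofReal_mul (by positivity)]
    ring
  rw [← hmass, ← lintegral_indicator_one hDmeas]
  refine lintegral_mono fun x => ?_
  by_cases hx : x ∈ D
  · rw [Set.indicator_of_mem hx]
    have hx0 : x i0 ∈ Icc c (c + η * β / 2) := by
      have := hx i0
      simpa [hI] using this
    have hx1 : β / 2 ≤ x i1 := by
      have := hx i1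
      simp only [hI, if_neg h.symm, hJ, if_true] at this
      exact this.1
    have hsc3 : 1 < sc η := by
      have h3 : 1 < sc η ^ 2 := by
        rw [sc_sq]
        nlinarith
      nlinarith [sc_pos η]
    have hηlt : η < c := by nlinarith
    have hR0 : x ∈ cellR (bv i0) (bv i1) 0 η := by
      simp only [cellR, Set.mem_ofPred_eq, zero_mul, zero_add, bv_inner]
      exact lt_of_lt_of_le hηlt hx0.1
    have hR1 : x ∉ cellR (bv i0) (bv i1) η c := by
      simp only [cellR, Set.mem_ofPred_eq, bv_inner, not_lt]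
      have : η * β / 2 ≤ η * x i1 := by nlinarith
      linarith [hx0.2]
    have hL1 : x ∉ cellL (bv i0) (bv i1) η c := by
      simp only [cellL, Set.mem_ofPred_eq, bv_inner, not_lt]
      have h0 : 0 ≤ η * x i1 := by
        have : 0 ≤ x i1 := by linarith
        positivity
      have h1 : 0 ≤ x i0 := by linarith [hx0.1]
      linarith
    have hT0 : Tm (bv i0) (bv i1) 0 η x = bv i0 := by simp [Tm, hR0]
    have hT1 : Tm (bv i0) (bv i1) η c x = η • bv i1 := by simp [Tm, hR1, hL1]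
    rw [hT0, hT1]
    have hsq : 1 ≤ ‖bv i0 - η • bv i1‖ ^ 2 := by
      rw [norm_sub_sq_real, bv_norm, inner_smul_right, bv_orth h, norm_smul, bv_norm,
        Real.norm_eq_abs, mul_one, sq_abs]
      nlinarith [sq_nonneg η]
    rw [← ofReal_norm, ← ENNReal.ofReal_pow (norm_nonneg _)]
    simpa using ENNReal.ofReal_le_ofReal hsq
  · rw [Set.indicator_of_notMem hx]
    exact zero_le

lemma Tm_norm_le {e0 e1 : Eu d} (he0 : ‖e0‖ = 1) (he1 : ‖e1‖ = 1) {η : ℝ} (h0 : 0 ≤ η) (h1 : η ≤ 1)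
    (c : ℝ) (x : Eu d) : ‖Tm e0 e1 η c x‖ ≤ 1 := by
  classical
  simp only [Tm]
  split_ifs
  · exact he0.le
  · rw [norm_neg]; exact he0.le
  · rw [norm_smul, he1, mul_one, Real.norm_eq_abs, abs_of_nonneg h0]; exact h1

lemma map_Tm_support {e0 e1 : Eu d} (he0 : ‖e0‖ = 1) (he1 : ‖e1‖ = 1) {η : ℝ} (h0 : 0 ≤ η)
    (h1 : η ≤ 1) (c : ℝ) : ((unif (ballK d)).map (Tm e0 e1 η c)) (closedBall 0 1)ᶜ = 0 := by
  rw [Measure.map_apply (Tm_meas _ _ _ _) measurableSet_closedBall.compl]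
  have : Tm e0 e1 η c ⁻¹' (closedBall 0 1)ᶜ = ∅ := by
    ext x
    simp only [mem_preimage, mem_compl_iff, mem_closedBall, dist_zero_right, mem_empty_iff_false,
      iff_false, not_not]
    exact Tm_norm_le he0 he1 h0 h1 c x
  rw [this, measure_empty]

/-- Real form of the family of counterexamples. -/
theorem not_admissible (hd : 2 ≤ d) {α : ℝ} (hα : 1 / 3 < α) : ¬ Admissible d α := by
  intro hadm
  set i0 : Fin d := ⟨0, by omega⟩ with hi0
  set i1 : Fin d := ⟨1, by omega⟩ with hi1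
  have h01 : i0 ≠ i1 := by
    intro h
    have := congrArg Fin.val h
    simp [hi0, hi1] at this
  have hαpos : 0 < α := by linarith
  obtain ⟨C, hC⟩ := hadm (ballK d) (isCompact_closedBall _ _) (convex_closedBall _ _)
    ⟨0, mem_interior.mpr ⟨ball 0 1, ball_subset_closedBall, isOpen_ball, mem_ball_self one_pos⟩⟩
    (closedBall 0 1) (isCompact_closedBall _ _) ⟨0, by simp⟩
  obtain ⟨C1, hC1, hstrip⟩ := strip_mass_le i0 (bv i1)
  obtain ⟨c2, η0, hc2, hη0, hη01, hreg⟩ := region_mass_ge (d := d) h01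
  set A : ℝ := c2 ^ (1 / 2 : ℝ) with hA
  have hApos : 0 < A := Real.rpow_pos_of_pos hc2 _
  set κ : ℝ := 3 * α / 2 - 1 / 2 with hκ
  have hκpos : 0 < κ := by rw [hκ]; linarith
  set B : ℝ := (C : ℝ) * C1 ^ (α / 2) with hB
  have hkey : ∀ η : ℝ, 0 < η → η ≤ η0 → A ≤ B * η ^ κ := by
    intro η hη hηle
    have hη1 : η ≤ 1 := hηle.trans hη01
    have he0 : ‖bv i0‖ = 1 := bv_norm i0
    have he1 : ‖bv i1‖ = 1 := bv_norm i1
    have horth : ⟪bv i0, bv i1⟫ = 0 := bv_orth h01
    have hsc : η ≤ sc η * η := by nlinarith [one_le_sc η]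
    have hbound := hC ((unif (ballK d)).map (Tm (bv i0) (bv i1) 0 η))
      ((unif (ballK d)).map (Tm (bv i0) (bv i1) η (sc η * η)))
      (Measure.isProbabilityMeasure_map (Tm_meas _ _ _ _).aemeasurable)
      (Measure.isProbabilityMeasure_map (Tm_meas _ _ _ _).aemeasurable)
      (map_Tm_support he0 he1 le_rfl zero_le_one _)
      (map_Tm_support he0 he1 hη.le hη1 _)
      (Tm (bv i0) (bv i1) 0 η) (Tm (bv i0) (bv i1) η (sc η * η))
      (Tm_isOT he0 he1 horth le_rfl hη.le)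
      (Tm_isOT he0 he1 horth hη.le hsc)
    have hW := W2_tilt_le he0 he1 horth hη.le le_rfl hη.le
    have hs := hstrip η hη
    have hL := hreg η hη hηle
    -- lower bound for the left side
    have hleft : ENNReal.ofReal ((c2 * η) ^ (1 / 2 : ℝ)) ≤
        L2dist (unif (ballK d)) (Tm (bv i0) (bv i1) 0 η) (Tm (bv i0) (bv i1) η (sc η * η)) := by
      rw [← ENNReal.ofReal_rpow_of_pos (by positivity)]
      exact ENNReal.rpow_le_rpow hL (by norm_num)
    -- upper bound for the Wasserstein distance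
    have hright : W2 ((unif (ballK d)).map (Tm (bv i0) (bv i1) 0 η))
        ((unif (ballK d)).map (Tm (bv i0) (bv i1) η (sc η * η))) ≤
        ENNReal.ofReal ((η ^ 2 * (C1 * η)) ^ (1 / 2 : ℝ)) := by
      refine hW.trans ?_
      rw [← ENNReal.ofReal_rpow_of_pos (by positivity), ENNReal.ofReal_mul (by positivity)]
      exact ENNReal.rpow_le_rpow (by gcongr) (by norm_num)
    have hfinal : ENNReal.ofReal ((c2 * η) ^ (1 / 2 : ℝ)) ≤
        ENNReal.ofReal ((C : ℝ) * ((η ^ 2 * (C1 * η)) ^ (1 / 2 : ℝ)) ^ α) := by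
      refine hleft.trans (hbound.trans ?_)
      rw [ENNReal.ofReal_mul NNReal.zero_le_coe, ENNReal.ofReal_coe_nnreal,
        ← ENNReal.ofReal_rpow_of_pos (by positivity)]
      gcongr
    have hreal := (ENNReal.ofReal_le_ofReal_iff (by positivity)).mp hfinal
    have hetaR : 0 < η ^ (1 / 2 : ℝ) := Real.rpow_pos_of_pos hη _
    have e1 : (c2 * η) ^ (1 / 2 : ℝ) = A * η ^ (1 / 2 : ℝ) := by
      rw [Real.mul_rpow hc2.le hη.le]
    have e2 : ((η ^ 2 * (C1 * η)) ^ (1 / 2 : ℝ)) ^ α =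
        C1 ^ (α / 2) * (η ^ κ * η ^ (1 / 2 : ℝ)) := by
      have h3 : η ^ 2 * (C1 * η) = C1 * η ^ (3 : ℝ) := by
        rw [show (3 : ℝ) = ((3 : ℕ) : ℝ) by norm_num, Real.rpow_natCast]
        ring
      rw [h3, ← Real.rpow_mul (by positivity), ← Real.rpow_add hη,
        Real.mul_rpow hC1.le (by positivity), ← Real.rpow_mul hη.le]
      congr 2
      · ring
      · rw [hκ]
        ring
    rw [e1, e2] at hreal
    have h4 : A * η ^ (1 / 2 : ℝ) ≤ (B * η ^ κ) * η ^ (1 / 2 : ℝ) := by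
      rw [hB]
      calc A * η ^ (1 / 2 : ℝ) ≤ (C : ℝ) * (C1 ^ (α / 2) * (η ^ κ * η ^ (1 / 2 : ℝ))) := hreal
        _ = (C : ℝ) * C1 ^ (α / 2) * η ^ κ * η ^ (1 / 2 : ℝ) := by ring
    exact le_of_mul_le_mul_right h4 hetaR
  -- let η tend to zero
  have htend : Tendsto (fun η : ℝ => B * η ^ κ) (𝓝 0) (𝓝 (B * (0 : ℝ) ^ κ)) :=
    tendsto_const_nhds.mul ((Real.continuous_rpow_const hκpos.le).tendsto 0)
  rw [Real.zero_rpow hκpos.ne', mul_zero] at htend
  have hev : ∀ᶠ η : ℝ in 𝓝 0, B * η ^ κ < A := htend.eventually_lt_const hApos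
  obtain ⟨δ, hδ, hδ2⟩ := Metric.eventually_nhds_iff.mp hev
  set η : ℝ := min η0 (δ / 2) with hηdef
  have hηpos : 0 < η := lt_min hη0 (by linarith)
  have hηle : η ≤ η0 := min_le_left _ _
  have hηδ : dist η 0 < δ := by
    rw [Real.dist_eq, sub_zero, abs_of_pos hηpos]
    exact lt_of_le_of_lt (min_le_right _ _) (by linarith)
  exact absurd (hkey η hηpos hηle) (not_le.mpr (hδ2 hηδ))

end Vale.Agent.Lib.P074

end
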