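import Mathlib

section

open MeasureTheory Set Filter Topology
open scoped ENNReal

namespace Vale.Agent.Lib.P074

/-- `a` is a bounded continuous positive density on the open interval `(α, β)`. -/
structure IsDens (a : ℝ → ℝ) (α β : ℝ) : Prop where
  lt : α < β
  pos : ∀ t ∈ Ioo α β, 0 < a t
  cont : ContinuousOn a (Ioo α β)
  bdd : ∃ C, ∀ t ∈ Ioo α β, a t ≤ C

namespace IsDens

variable {a : ℝ → ℝ} {α β : ℝ}

lemma integrableOn_Ioo (h : IsDens a α β) : IntegrableOn a (Ioo α β) := by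
  obtain ⟨C, hC⟩ := h.bdd
  refine Integrable.of_bound (h.cont.aestronglyMeasurable measurableSet_Ioo) C ?_
  refine (ae_restrict_iff' measurableSet_Ioo).2 (ae_of_all _ fun t ht => ?_)
  rw [Real.norm_of_nonneg (h.pos t ht).le]
  exact hC t ht

lemma integrableOn_Icc (h : IsDens a α β) : IntegrableOn a (Icc α β) :=
  (integrableOn_Icc_iff_integrableOn_Ioo enorm_ne_top enorm_ne_top).2 h.integrableOn_Ioo

lemma intervalIntegrable (h : IsDens a α β) {s t : ℝ} (hs : s ∈ Icc α β) (ht : t ∈ Icc α β) :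
    IntervalIntegrable a volume s t := by
  rw [intervalIntegrable_iff]
  refine h.integrableOn_Icc.mono_set ?_
  exact Ioc_subset_Icc_self.trans (uIcc_subset_Icc hs ht)

/-- The primitive of a density. -/
noncomputable def prim (a : ℝ → ℝ) (α t : ℝ) : ℝ := ∫ u in α..t, a u

lemma prim_left : prim a α α = 0 := by simp [prim]

lemma prim_sub (h : IsDens a α β) {s t : ℝ} (hs : s ∈ Icc α β) (ht : t ∈ Icc α β) :
    prim a α t - prim a α s = ∫ u in s..t, a u := by
  have hα : α ∈ Icc α β := ⟨le_rfl, h.lt.le⟩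
  rw [prim, prim, intervalIntegral.integral_interval_sub_left (h.intervalIntegrable hα ht)
    (h.intervalIntegrable hα hs)]

lemma prim_strictMonoOn (h : IsDens a α β) : StrictMonoOn (prim a α) (Icc α β) := by
  intro s hs t ht hst
  have h1 := prim_sub h hs ht
  have h2 : 0 < ∫ u in s..t, a u := by
    refine intervalIntegral.intervalIntegral_pos_of_pos_on (h.intervalIntegrable hs ht) ?_ hst
    intro x hx
    exact h.pos x ⟨lt_of_le_of_lt hs.1 hx.1, lt_of_lt_of_le hx.2 ht.2⟩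
  linarith

lemma prim_continuousOn (h : IsDens a α β) : ContinuousOn (prim a α) (Icc α β) := by
  have : IntegrableOn a (uIcc α β) := by
    rw [uIcc_of_le h.lt.le]
    exact h.integrableOn_Icc
  have h2 := intervalIntegral.continuousOn_primitive_interval (μ := volume) this
  rw [uIcc_of_le h.lt.le] at h2
  exact h2

lemma prim_hasDerivAt (h : IsDens a α β) {t : ℝ} (ht : t ∈ Ioo α β) :
    HasDerivAt (prim a α) (a t) t := by
  have hα : α ∈ Icc α β := ⟨le_rfl, h.lt.le⟩
  refine intervalIntegral.integral_hasDerivAt_right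
    (h.intervalIntegrable hα (Ioo_subset_Icc_self ht)) ?_ ?_
  · exact h.cont.stronglyMeasurableAtFilter isOpen_Ioo t ht
  · exact h.cont.continuousAt (Ioo_mem_nhds ht.1 ht.2)

/-- The total mass. -/
noncomputable def mass (a : ℝ → ℝ) (α β : ℝ) : ℝ := ∫ u in α..β, a u

lemma prim_right : prim a α β = mass a α β := rfl

lemma mass_pos (h : IsDens a α β) : 0 < mass a α β := by
  have := h.prim_strictMonoOn (left_mem_Icc.2 h.lt.le) (right_mem_Icc.2 h.lt.le) h.lt
  rwa [prim_left, prim_right] at this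

lemma prim_image (h : IsDens a α β) : prim a α '' Ioo α β = Ioo 0 (mass a α β) := by
  have hm := h.prim_strictMonoOn
  have hc := h.prim_continuousOn
  apply Subset.antisymm
  · rintro _ ⟨t, ht, rfl⟩
    have h1 := hm (left_mem_Icc.2 h.lt.le) (Ioo_subset_Icc_self ht) ht.1
    have h2 := hm (Ioo_subset_Icc_self ht) (right_mem_Icc.2 h.lt.le) ht.2
    rw [prim_left] at h1
    rw [prim_right] at h2
    exact ⟨h1, h2⟩
  · have := intermediate_value_Ioo h.lt.le hc
    rwa [prim_left, prim_right] at this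

end IsDens

open IsDens

/-- Existence of the monotone transport map between two densities of equal mass, with its
derivative given by the ratio of the densities. -/
theorem exists_transport {a b : ℝ → ℝ} {α β α' β' : ℝ} (ha : IsDens a α β) (hb : IsDens b α' β')
    (hmass : mass a α β = mass b α' β') :
    ∃ T : ℝ → ℝ, StrictMonoOn T (Ioo α β) ∧ T '' Ioo α β = Ioo α' β' ∧
      ∀ t ∈ Ioo α β, HasDerivAt T (a t / b (T t)) t := by
  classical
  set Gb := prim b α' with hGb
  set Ga := prim a α with hGa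
  set g : ℝ → ℝ := Function.invFunOn Gb (Ioo α' β') with hg
  set M := mass a α β with hM
  have himb : Gb '' Ioo α' β' = Ioo 0 M := by rw [hmass]; exact hb.prim_image
  have hima : Ga '' Ioo α β = Ioo 0 M := ha.prim_image
  have hgmem : ∀ q ∈ Ioo 0 M, g q ∈ Ioo α' β' ∧ Gb (g q) = q := by
    intro q hq
    have : q ∈ Gb '' Ioo α' β' := by rw [himb]; exact hq
    exact ⟨Function.invFunOn_mem this, Function.invFunOn_eq this⟩
  have hGbmono : StrictMonoOn Gb (Ioo α' β') :=
    hb.prim_strictMonoOn.mono Ioo_subset_Icc_self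
  have hgmono : StrictMonoOn g (Ioo 0 M) := by
    intro p hp q hq hpq
    have h1 := hgmem p hp
    have h2 := hgmem q hq
    rw [← hGbmono.lt_iff_lt h1.1 h2.1, h1.2, h2.2]
    exact hpq
  have hgim : g '' Ioo 0 M = Ioo α' β' := by
    apply Subset.antisymm
    · rintro _ ⟨q, hq, rfl⟩
      exact (hgmem q hq).1
    · intro u hu
      have : Gb u ∈ Ioo 0 M := by rw [← himb]; exact mem_image_of_mem _ hu
      refine ⟨Gb u, this, ?_⟩
      have h1 := hgmem _ this
      exact hGbmono.injOn h1.1 hu h1.2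
  have hGaIoo : ∀ t ∈ Ioo α β, Ga t ∈ Ioo 0 M := by
    intro t ht
    rw [← hima]
    exact mem_image_of_mem _ ht
  have hGamono : StrictMonoOn Ga (Ioo α β) :=
    ha.prim_strictMonoOn.mono Ioo_subset_Icc_self
  refine ⟨g ∘ Ga, ?_, ?_, ?_⟩
  · intro s hs t ht hst
    exact hgmono (hGaIoo s hs) (hGaIoo t ht) (hGamono hs ht hst)
  · rw [image_comp, hima, hgim]
  · intro t ht
    have hq := hGaIoo t ht
    have hq' := hgmem _ hq
    have hcont : ContinuousAt g (Ga t) := by
      refine hgmono.continuousAt_of_image_mem_nhds (Ioo_mem_nhds hq.1 hq.2) ?_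
      rw [hgim]
      exact Ioo_mem_nhds hq'.1.1 hq'.1.2
    have hderivb : HasDerivAt Gb (b (g (Ga t))) (g (Ga t)) := hb.prim_hasDerivAt hq'.1
    have hne : b (g (Ga t)) ≠ 0 := (hb.pos _ hq'.1).ne'
    have hev : ∀ᶠ y in 𝓝 (Ga t), Gb (g y) = y := by
      filter_upwards [Ioo_mem_nhds hq.1 hq.2] with y hy
      exact (hgmem y hy).2
    have hderivg : HasDerivAt g (b (g (Ga t)))⁻¹ (Ga t) :=
      hderivb.of_local_left_inverse hcont hne hev
    have := hderivg.comp t (ha.prim_hasDerivAt ht)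
    have h5 : a t / b ((g ∘ Ga) t) = (b (g (Ga t)))⁻¹ * a t := by
      rw [div_eq_inv_mul]
      rfl
    rw [h5]
    exact this

/-- Pushforward property of a map with the transport derivative relation, in lintegral form. -/
lemma lintegral_transport {a b : ℝ → ℝ} {α β α' β' : ℝ} (ha : IsDens a α β) (hb : IsDens b α' β')
    {T : ℝ → ℝ} (hmono : StrictMonoOn T (Ioo α β)) (him : T '' Ioo α β = Ioo α' β')
    (hd : ∀ t ∈ Ioo α β, HasDerivAt T (a t / b (T t)) t) (φ : ℝ → ℝ≥0∞) :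
    ∫⁻ u in Ioo α' β', φ u * ENNReal.ofReal (b u) =
      ∫⁻ t in Ioo α β, φ (T t) * ENNReal.ofReal (a t) := by
  rw [← him, lintegral_image_eq_lintegral_abs_deriv_mul measurableSet_Ioo
    (fun t ht => (hd t ht).hasDerivWithinAt) hmono.injOn]
  refine setLIntegral_congr_fun measurableSet_Ioo fun t ht => ?_
  have hbt : T t ∈ Ioo α' β' := by rw [← him]; exact mem_image_of_mem _ ht
  have hpos : 0 < b (T t) := hb.pos _ hbt
  have hpa : 0 < a t := ha.pos _ ht
  have h1 : |a t / b (T t)| = a t / b (T t) := abs_of_pos (div_pos hpa hpos)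
  have h2 : a t / b (T t) * b (T t) = a t := by field_simp
  rw [h1, mul_left_comm, ← ENNReal.ofReal_mul (div_pos hpa hpos).le, h2]

/-- The interpolated change of variables inequality. -/
lemma lintegral_interp_le {a b : ℝ → ℝ} {α β : ℝ} (ha : IsDens a α β)
    {T : ℝ → ℝ} (hmono : StrictMonoOn T (Ioo α β)) (hb : ∀ t ∈ Ioo α β, 0 < b (T t))
    (hd : ∀ t ∈ Ioo α β, HasDerivAt T (a t / b (T t)) t) {ε : ℝ} (h0 : 0 < ε) (h1 : ε < 1)
    (H : ℝ → ℝ≥0∞) :
    ∫⁻ t in Ioo α β, ENNReal.ofReal ((1 - ε) + ε * (a t / b (T t))) * H ((1 - ε) * t + ε * T t)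
      ≤ ∫⁻ u, H u := by
  set z : ℝ → ℝ := fun t => (1 - ε) * t + ε * T t with hz
  have hzd : ∀ t ∈ Ioo α β, HasDerivWithinAt z ((1 - ε) + ε * (a t / b (T t))) (Ioo α β) t := by
    intro t ht
    have h2 : HasDerivAt z ((1 - ε) * 1 + ε * (a t / b (T t))) t :=
      ((hasDerivAt_id t).const_mul (1 - ε)).add ((hd t ht).const_mul ε)
    rw [mul_one] at h2
    exact h2.hasDerivWithinAt
  have hzinj : InjOn z (Ioo α β) := by
    have : StrictMonoOn z (Ioo α β) := by
      intro s hs t ht hst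
      have h2 := hmono hs ht hst
      have h3 : 0 < 1 - ε := by linarith
      simp only [hz]
      nlinarith
    exact this.injOn
  have := lintegral_image_eq_lintegral_abs_deriv_mul measurableSet_Ioo hzd hzinj H
  have hge : ∫⁻ t in Ioo α β, ENNReal.ofReal ((1 - ε) + ε * (a t / b (T t))) * H (z t) =
      ∫⁻ t in z '' Ioo α β, H t := by
    rw [this]
    refine setLIntegral_congr_fun measurableSet_Ioo fun t ht => ?_
    have h3 : 0 ≤ (1 - ε) + ε * (a t / b (T t)) := by
      have := div_pos (ha.pos t ht) (hb t ht)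
      have h4 : 0 < 1 - ε := by linarith
      positivity
    simp only [abs_of_nonneg h3]
  rw [hge]
  exact setLIntegral_le_lintegral _ _

end Vale.Agent.Lib.P074

end

section

open MeasureTheory Set Filter Topology
open scoped ENNReal

namespace Vale.Agent.Lib.P074

open IsDens

/-- The main pointwise-integrated inequality: the interpolation between a density `a` and the
rescaled density `r * u`. -/
lemma interp_main {a u T : ℝ → ℝ} {α β α' β' r ε : ℝ} (ha : IsDens a α β)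
    (hu : IsDens u α' β') (hr : 0 < r) (h0 : 0 < ε) (h1 : ε < 1)
    (hmono : StrictMonoOn T (Ioo α β)) (him : T '' Ioo α β = Ioo α' β')
    (hd : ∀ t ∈ Ioo α β, HasDerivAt T (a t / (r * u (T t))) t)
    (v χ : ℝ → ℝ≥0∞)
    (hv : ∀ s ∈ Ioo α β, ∀ t ∈ Ioo α' β',
      ENNReal.ofReal (a s ^ (1 - ε) * u t ^ ε) ≤ v ((1 - ε) * s + ε * t)) :
    ENNReal.ofReal (r ^ (-ε)) *
        ∫⁻ t in Ioo α β, χ ((1 - ε) * t + ε * T t) * ENNReal.ofReal (a t)
      ≤ ∫⁻ w, χ w * v w := by
  have hTmem : ∀ t ∈ Ioo α β, T t ∈ Ioo α' β' := fun t ht => by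
    rw [← him]; exact mem_image_of_mem _ ht
  have hpos : ∀ t ∈ Ioo α β, 0 < r * u (T t) := fun t ht =>
    mul_pos hr (hu.pos _ (hTmem t ht))
  have key := lintegral_interp_le (b := fun w => r * u w) ha hmono hpos hd h0 h1
    (fun w => χ w * v w)
  refine le_trans ?_ key
  rw [← lintegral_const_mul' _ _ ENNReal.ofReal_ne_top]
  refine setLIntegral_mono' measurableSet_Ioo fun t ht => ?_
  set A := a t with hA
  set U := u (T t) with hU
  have hA0 : 0 < A := ha.pos t ht
  have hU0 : 0 < U := hu.pos _ (hTmem t ht)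
  set w := A / (r * U) with hw
  have hw0 : 0 < w := div_pos hA0 (mul_pos hr hU0)
  set J := (1 - ε) + ε * w with hJ
  have h1e : 0 < 1 - ε := by linarith
  have hJ0 : 0 < J := by positivity
  have hJge : w ^ ε ≤ J := by
    have := Real.geom_mean_le_arith_mean2_weighted h1e.le h0.le (zero_le_one) hw0.le
      (by ring : (1 - ε) + ε = 1)
    simpa [hJ] using this
  have hcalc : r ^ (-ε) * A ≤ J * (A ^ (1 - ε) * U ^ ε) := by
    have h3 : r ^ (-ε) * A = w ^ ε * (A ^ (1 - ε) * U ^ ε) := by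
      have hw' : w = A * r⁻¹ * U⁻¹ := by rw [hw]; field_simp
      rw [hw', Real.mul_rpow (by positivity) (by positivity), Real.mul_rpow hA0.le (by positivity),
        Real.inv_rpow hr.le, Real.inv_rpow hU0.le, Real.rpow_neg hr.le]
      have h4 : A ^ (1 - ε) = A * A ^ (-ε) := by
        rw [sub_eq_add_neg, Real.rpow_add hA0, Real.rpow_one]
      have h5 : A ^ ε * A ^ (-ε) = 1 := by
        rw [← Real.rpow_add hA0]; simp
      have h6 : U ^ ε ≠ 0 := (Real.rpow_pos_of_pos hU0 _).ne'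
      rw [h4]
      field_simp
      nlinarith [h5]
    rw [h3]
    exact mul_le_mul_of_nonneg_right hJge (by positivity)
  have h2 := hv t ht (T t) (hTmem t ht)
  calc ENNReal.ofReal (r ^ (-ε)) * (χ ((1 - ε) * t + ε * T t) * ENNReal.ofReal A)
      = χ ((1 - ε) * t + ε * T t) * ENNReal.ofReal (r ^ (-ε) * A) := by
        rw [ENNReal.ofReal_mul (by positivity)]; ring
    _ ≤ χ ((1 - ε) * t + ε * T t) * ENNReal.ofReal (J * (A ^ (1 - ε) * U ^ ε)) := by
        gcongr
    _ = ENNReal.ofReal J * (χ ((1 - ε) * t + ε * T t) * ENNReal.ofReal (A ^ (1 - ε) * U ^ ε)) := by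
        rw [ENNReal.ofReal_mul hJ0.le]; ring
    _ ≤ ENNReal.ofReal J * (χ ((1 - ε) * t + ε * T t) * v ((1 - ε) * t + ε * T t)) := by
        gcongr

/-- Log-concavity of a nonnegative real function on the line. -/
structure LogConc (f : ℝ → ℝ) : Prop where
  nonneg : ∀ t, 0 ≤ f t
  le : ∀ s t l : ℝ, 0 < l → l < 1 → f s ^ (1 - l) * f t ^ l ≤ f ((1 - l) * s + l * t)

/-- A bounded log-concave function with bounded support and positive integral is a density on
an interval and vanishes outside the closed interval. -/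
theorem LogConc.exists_dens {f : ℝ → ℝ} (hf : LogConc f) {C R : ℝ} (hC : ∀ t, f t ≤ C)
    (hR : ∀ t, f t ≠ 0 → |t| ≤ R) (hpos : ∫⁻ t, ENNReal.ofReal (f t) ≠ 0) :
    ∃ α β : ℝ, IsDens f α β ∧ ∀ t, t ∉ Icc α β → f t = 0 := by
  set S := {t | 0 < f t} with hS
  have hSbdd : ∀ t ∈ S, |t| ≤ R := fun t ht => hR t (ne_of_gt ht)
  have hSconv : ∀ s ∈ S, ∀ t ∈ S, ∀ l : ℝ, 0 < l → l < 1 → (1 - l) * s + l * t ∈ S := by
    intro s hs t ht l h0 h1
    have h2 := hf.le s t l h0 h1
    have h3 : 0 < f s ^ (1 - l) * f t ^ l :=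
      mul_pos (Real.rpow_pos_of_pos hs _) (Real.rpow_pos_of_pos ht _)
    exact lt_of_lt_of_le h3 h2
  -- two distinct points
  have hnull : ¬ S.Subsingleton := by
    intro hsub
    apply hpos
    have hS0 : volume S = 0 := hsub.measure_zero _
    have hae : ∀ᵐ t, t ∉ S := measure_eq_zero_iff_ae_notMem.1 hS0
    have : (fun t => ENNReal.ofReal (f t)) =ᵐ[volume] fun _ => 0 := by
      filter_upwards [hae] with t ht
      have h2 : f t ≤ 0 := not_lt.1 ht
      exact ENNReal.ofReal_eq_zero.2 h2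
    rw [lintegral_congr_ae this]
    simp
  rw [Set.not_subsingleton_iff] at hnull
  obtain ⟨s₁, hs₁, s₂, hs₂, hne⟩ := hnull
  have hbddbelow : BddBelow S := ⟨-R, fun t ht => (abs_le.1 (hSbdd t ht)).1⟩
  have hbddabove : BddAbove S := ⟨R, fun t ht => (abs_le.1 (hSbdd t ht)).2⟩
  set α := sInf S with hα
  set β := sSup S with hβ
  have hαle : ∀ t ∈ S, α ≤ t := fun t ht => csInf_le hbddbelow ht
  have hleβ : ∀ t ∈ S, t ≤ β := fun t ht => le_csSup hbddabove ht
  have hαβ : α < β := by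
    rcases lt_or_gt_of_ne hne with h | h
    · exact lt_of_le_of_lt (hαle _ hs₁) (lt_of_lt_of_le h (hleβ _ hs₂))
    · exact lt_of_le_of_lt (hαle _ hs₂) (lt_of_lt_of_le h (hleβ _ hs₁))
  have hIoo : Ioo α β ⊆ S := by
    intro t ht
    obtain ⟨p, hp, hpt⟩ := exists_lt_of_csInf_lt ⟨s₁, hs₁⟩ ht.1
    obtain ⟨q, hq, htq⟩ := exists_lt_of_lt_csSup ⟨s₁, hs₁⟩ ht.2
    have hpq : p < q := hpt.trans htq
    set l := (t - p) / (q - p) with hl
    have hqp : 0 < q - p := by linarith
    have hl0 : 0 < l := div_pos (by linarith) hqp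
    have hl1 : l < 1 := by rw [hl, div_lt_one hqp]; linarith
    have h2 := hSconv p hp q hq l hl0 hl1
    have h3 : (1 - l) * p + l * q = t := by
      rw [hl]; field_simp; ring
    rwa [h3] at h2
  refine ⟨α, β, ⟨hαβ, fun t ht => hIoo ht, ?_, ⟨C, fun t _ => hC t⟩⟩, ?_⟩
  · -- continuity through the logarithm
    have hconc : ConcaveOn ℝ (Ioo α β) (fun t => Real.log (f t)) := by
      refine ⟨convex_Ioo α β, ?_⟩
      intro s hs t ht p q hp hq hpq
      simp only [smul_eq_mul]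
      rcases hp.eq_or_lt with hp0 | hp0
      · subst hp0
        have : q = 1 := by linarith
        simp [this]
      rcases hq.eq_or_lt with hq0 | hq0
      · subst hq0
        have : p = 1 := by linarith
        simp [this]
      have hq1 : q < 1 := by linarith
      have hps : 0 < f s := hIoo hs
      have hpt : 0 < f t := hIoo ht
      have h2 := hf.le s t q hq0 hq1
      have hp' : 1 - q = p := by linarith
      rw [hp'] at h2
      have h3 : 0 < f s ^ p * f t ^ q :=
        mul_pos (Real.rpow_pos_of_pos hps _) (Real.rpow_pos_of_pos hpt _)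
      have h4 := Real.log_le_log h3 h2
      rwa [Real.log_mul (Real.rpow_pos_of_pos hps _).ne' (Real.rpow_pos_of_pos hpt _).ne',
        Real.log_rpow hps, Real.log_rpow hpt] at h4
    have hcont := hconc.continuousOn isOpen_Ioo
    have h5 : ContinuousOn (fun t => Real.exp (Real.log (f t))) (Ioo α β) :=
      Real.continuous_exp.comp_continuousOn hcont
    refine h5.congr fun t ht => ?_
    exact (Real.exp_log (hIoo ht)).symm
  · intro t ht
    by_contra hne0
    have h2 : 0 < f t := lt_of_le_of_ne (hf.nonneg t) (Ne.symm hne0)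
    exact ht ⟨hαle t h2, hleβ t h2⟩

/-- For a density vanishing outside the closed interval, the integral against any weight reduces
to the open interval. -/
lemma IsDens.lintegral_eq_Ioo {a : ℝ → ℝ} {α β : ℝ} (ha : ∀ t, t ∉ Icc α β → a t = 0)
    (χ : ℝ → ℝ≥0∞) :
    ∫⁻ t, χ t * ENNReal.ofReal (a t) = ∫⁻ t in Ioo α β, χ t * ENNReal.ofReal (a t) := by
  have h1 : ∫⁻ t in Ioo α β, χ t * ENNReal.ofReal (a t) =
      ∫⁻ t in Icc α β, χ t * ENNReal.ofReal (a t) :=
    setLIntegral_congr Ioo_ae_eq_Icc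
  rw [h1, ← lintegral_indicator measurableSet_Icc]
  refine lintegral_congr fun t => ?_
  by_cases ht : t ∈ Icc α β
  · simp [ht]
  · simp [ht, ha t ht]

lemma IsDens.mass_eq_integral {a : ℝ → ℝ} {α β : ℝ} (h : IsDens a α β) :
    mass a α β = ∫ t in Ioo α β, a t := by
  rw [mass, intervalIntegral.integral_of_le h.lt.le, integral_Ioc_eq_integral_Ioo]

lemma IsDens.ofReal_integral_mul {a : ℝ → ℝ} {α β : ℝ} (h : IsDens a α β) {χ : ℝ → ℝ}
    (hχ : IntegrableOn (fun t => χ t * a t) (Ioo α β)) (hχ0 : ∀ t ∈ Ioo α β, 0 ≤ χ t) :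
    ∫⁻ t in Ioo α β, ENNReal.ofReal (χ t) * ENNReal.ofReal (a t) =
      ENNReal.ofReal (∫ t in Ioo α β, χ t * a t) := by
  rw [ofReal_integral_eq_lintegral_ofReal hχ]
  · refine setLIntegral_congr_fun measurableSet_Ioo fun t ht => ?_
    rw [ENNReal.ofReal_mul (hχ0 t ht)]
  · refine (ae_restrict_iff' measurableSet_Ioo).2 (ae_of_all _ fun t ht => ?_)
    exact mul_nonneg (hχ0 t ht) (h.pos t ht).le

lemma IsDens.lintegral_ofReal_eq_mass {a : ℝ → ℝ} {α β : ℝ} (h : IsDens a α β)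
    (ha : ∀ t, t ∉ Icc α β → a t = 0) :
    ∫⁻ t, ENNReal.ofReal (a t) = ENNReal.ofReal (mass a α β) := by
  have h1 := IsDens.lintegral_eq_Ioo ha (fun _ => 1)
  simp only [one_mul] at h1
  rw [h1, h.mass_eq_integral, ofReal_integral_eq_lintegral_ofReal h.integrableOn_Ioo]
  exact (ae_restrict_iff' measurableSet_Ioo).2 (ae_of_all _ fun t ht => (h.pos t ht).le)

/-- The one-dimensional Prekopa-Leindler inequality for log-concave functions. -/
theorem pl_one_dim {a u : ℝ → ℝ} (ha : LogConc a) (hu : LogConc u) {C R : ℝ}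
    (haC : ∀ t, a t ≤ C) (haR : ∀ t, a t ≠ 0 → |t| ≤ R)
    (huC : ∀ t, u t ≤ C) (huR : ∀ t, u t ≠ 0 → |t| ≤ R)
    {ε : ℝ} (h0 : 0 < ε) (h1 : ε < 1) (v : ℝ → ℝ≥0∞)
    (hv : ∀ s t, ENNReal.ofReal (a s ^ (1 - ε) * u t ^ ε) ≤ v ((1 - ε) * s + ε * t)) :
    (∫⁻ t, ENNReal.ofReal (a t)) ^ (1 - ε) * (∫⁻ t, ENNReal.ofReal (u t)) ^ ε ≤ ∫⁻ w, v w := by
  have h1e : 0 < 1 - ε := by linarith
  by_cases hA : ∫⁻ t, ENNReal.ofReal (a t) = 0
  · rw [hA, ENNReal.zero_rpow_of_pos h1e, zero_mul]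
    exact zero_le
  by_cases hU : ∫⁻ t, ENNReal.ofReal (u t) = 0
  · rw [hU, ENNReal.zero_rpow_of_pos h0, mul_zero]
    exact zero_le
  obtain ⟨α, β, hda, h0a⟩ := ha.exists_dens haC haR hA
  obtain ⟨α', β', hdu, h0u⟩ := hu.exists_dens huC huR hU
  set m := mass a α β with hm
  set m' := mass u α' β' with hm'
  have hm0 : 0 < m := hda.mass_pos
  have hm'0 : 0 < m' := hdu.mass_pos
  set r := m / m' with hr
  have hr0 : 0 < r := div_pos hm0 hm'0
  have hdb : IsDens (fun t => r * u t) α' β' := by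
    refine ⟨hdu.lt, fun t ht => mul_pos hr0 (hdu.pos t ht), continuousOn_const.mul hdu.cont, ?_⟩
    obtain ⟨D, hD⟩ := hdu.bdd
    exact ⟨r * D, fun t ht => mul_le_mul_of_nonneg_left (hD t ht) hr0.le⟩
  have hmassb : mass a α β = mass (fun t => r * u t) α' β' := by
    rw [mass, mass, intervalIntegral.integral_const_mul]
    change m = r * m'
    rw [hr]; field_simp
  obtain ⟨T, hmono, him, hd⟩ := exists_transport hda hdb hmassb
  have key := interp_main hda hdu hr0 h0 h1 hmono him hd v (fun _ => 1)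
    (fun s _ t _ => hv s t)
  simp only [one_mul] at key
  have hIoo : ∫⁻ t in Ioo α β, ENNReal.ofReal (a t) = ENNReal.ofReal m := by
    have h1 := IsDens.lintegral_eq_Ioo h0a (fun _ => 1)
    simp only [one_mul] at h1
    rw [← h1, hda.lintegral_ofReal_eq_mass h0a]
  rw [hIoo] at key
  rw [hda.lintegral_ofReal_eq_mass h0a, hdu.lintegral_ofReal_eq_mass h0u]
  refine le_trans (le_of_eq ?_) key
  rw [← hm, ← hm', ENNReal.ofReal_rpow_of_pos hm0, ENNReal.ofReal_rpow_of_pos hm'0,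
    ← ENNReal.ofReal_mul (by positivity), ← ENNReal.ofReal_mul (by positivity)]
  congr 1
  rw [hr, Real.rpow_neg hr0.le, Real.div_rpow hm0.le hm'0.le, sub_eq_add_neg,
    Real.rpow_add hm0, Real.rpow_one, Real.rpow_neg hm0.le]
  have h3 : m ^ ε ≠ 0 := (Real.rpow_pos_of_pos hm0 _).ne'
  have h4 : m' ^ ε ≠ 0 := (Real.rpow_pos_of_pos hm'0 _).ne'
  field_simp

end Vale.Agent.Lib.P074

end

section

open MeasureTheory Set Filter Topology
open scoped ENNReal

namespace Vale.Agent.Lib.P074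

/-- Coordinate space with its product structure. -/
abbrev Vec (n : ℕ) := Fin n → ℝ

variable {n : ℕ}

/-- Insert the value `t` at the coordinate `k`. -/
noncomputable def ins (k : Fin (n + 1)) (t : ℝ) (x : Vec n) : Vec (n + 1) :=
  Fin.insertNth (α := fun _ => ℝ) k t x

@[simp] lemma ins_same (k : Fin (n + 1)) (t : ℝ) (x : Vec n) : ins k t x k = t := by
  simp [ins]

@[simp] lemma ins_succAbove (k : Fin (n + 1)) (t : ℝ) (x : Vec n) (j : Fin n) :
    ins k t x (k.succAbove j) = x j := by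
  simp [ins]

lemma measurable_ins_pair (k : Fin (n + 1)) : Measurable fun p : ℝ × Vec n => ins k p.1 p.2 :=
  (MeasurableEquiv.piFinSuccAbove (fun _ : Fin (n + 1) => ℝ) k).symm.measurable

lemma measurable_ins (k : Fin (n + 1)) (t : ℝ) : Measurable (ins k t) :=
  (measurable_ins_pair k).comp (measurable_const.prodMk measurable_id)

lemma continuous_ins_left (k : Fin (n + 1)) (x : Vec n) : Continuous fun t => ins k t x := by
  refine continuous_pi fun j => ?_
  rcases Fin.eq_self_or_eq_succAbove k j with rfl | ⟨i, rfl⟩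
  · simpa using continuous_id'
  · simpa using continuous_const

lemma ins_combo (k : Fin (n + 1)) (a b s t : ℝ) (x z : Vec n) :
    a • ins k s x + b • ins k t z = ins k (a * s + b * t) (a • x + b • z) := by
  ext j
  rcases Fin.eq_self_or_eq_succAbove k j with rfl | ⟨i, rfl⟩
  · simp
  · simp

/-- Reconstruct a vector from a coordinate and the rest. -/
noncomputable def rem (k : Fin (n + 1)) (y : Vec (n + 1)) : Vec n := fun j => y (k.succAbove j)

lemma ins_rem (k : Fin (n + 1)) (y : Vec (n + 1)) : ins k (y k) (rem k y) = y := by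
  ext j
  rcases Fin.eq_self_or_eq_succAbove k j with rfl | ⟨i, rfl⟩
  · simp
  · simp [rem]

/-- Slicing formula for the volume. -/
lemma lintegral_slice (k : Fin (n + 1)) {F : Vec (n + 1) → ℝ≥0∞} (hF : Measurable F) :
    ∫⁻ x, F x = ∫⁻ t : ℝ, ∫⁻ x : Vec n, F (ins k t x) := by
  have mp := (volume_preserving_piFinSuccAbove (fun _ : Fin (n + 1) => ℝ) k).symm
  have h1 := mp.lintegral_comp hF
  rw [← h1]
  have h2 : Measurable fun p : ℝ × Vec n => F (ins k p.1 p.2) := hF.comp (measurable_ins_pair k)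
  exact lintegral_prod _ h2.aemeasurable

/-- Section of a set orthogonally to the coordinate `k`. -/
def sec (k : Fin (n + 1)) (A : Set (Vec (n + 1))) (t : ℝ) : Set (Vec n) :=
  {x | ins k t x ∈ A}

lemma measurableSet_sec (k : Fin (n + 1)) {A : Set (Vec (n + 1))} (hA : MeasurableSet A) (t : ℝ) :
    MeasurableSet (sec k A t) :=
  (measurable_ins k t) hA

/-- The volume through sections. -/
lemma volume_eq_lintegral_sec (k : Fin (n + 1)) {A : Set (Vec (n + 1))} (hA : MeasurableSet A) :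
    volume A = ∫⁻ t : ℝ, volume (sec k A t) := by
  rw [← lintegral_indicator_one hA, lintegral_slice k (measurable_one.indicator hA)]
  refine lintegral_congr fun t => ?_
  rw [← lintegral_indicator_one (measurableSet_sec k hA t)]
  rfl

/-- Integration of a function of one coordinate over a set. -/
lemma setLIntegral_coord (k : Fin (n + 1)) {A : Set (Vec (n + 1))} (hA : MeasurableSet A)
    {χ : ℝ → ℝ≥0∞} (hχ : Measurable χ) :
    ∫⁻ x in A, χ (x k) = ∫⁻ t : ℝ, χ t * volume (sec k A t) := by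
  have hm : Measurable fun x : Vec (n + 1) => χ (x k) := hχ.comp (measurable_pi_apply k)
  rw [← lintegral_indicator hA, lintegral_slice k (hm.indicator hA)]
  refine lintegral_congr fun t => ?_
  have : (fun x : Vec n => A.indicator (fun x : Vec (n + 1) => χ (x k)) (ins k t x)) =
      (sec k A t).indicator (fun _ => χ t) := by
    ext x
    by_cases hx : ins k t x ∈ A
    · have : x ∈ sec k A t := hx
      simp [hx, this]
    · have : x ∉ sec k A t := hx
      simp [hx, this]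
  rw [this, lintegral_indicator_const (measurableSet_sec k hA t)]

lemma Convex.sec {k : Fin (n + 1)} {A : Set (Vec (n + 1))} (hA : Convex ℝ A) (t : ℝ) :
    Convex ℝ (sec k A t) := by
  intro x hx z hz a b ha hb hab
  have h := hA hx hz ha hb hab
  rw [ins_combo] at h
  have h2 : a * t + b * t = t := by
    rw [← add_mul, hab, one_mul]
  rw [h2] at h
  exact h

lemma sec_combo {k : Fin (n + 1)} {A B C : Set (Vec (n + 1))} {p q s t : ℝ}
    (h : ∀ a ∈ A, ∀ b ∈ B, p • a + q • b ∈ C) :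
    ∀ a ∈ sec k A s, ∀ b ∈ sec k B t, p • a + q • b ∈ sec k C (p * s + q * t) := by
  intro a ha b hb
  have := h _ ha _ hb
  rw [ins_combo] at this
  exact this

lemma IsBounded.sec {k : Fin (n + 1)} {A : Set (Vec (n + 1))} (hA : Bornology.IsBounded A)
    (t : ℝ) : Bornology.IsBounded (sec k A t) := by
  obtain ⟨C, hC⟩ := hA.subset_closedBall (0 : Vec (n + 1))
  refine (Metric.isBounded_closedBall (x := (0 : Vec n)) (r := C)).subset ?_
  intro x hx
  have h1 := hC hx
  rw [mem_closedBall_zero_iff] at h1 ⊢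
  refine (pi_norm_le_iff_of_nonneg ((norm_nonneg _).trans h1)).2 fun j => ?_
  have h2 := norm_le_pi_norm (ins k t x) (k.succAbove j)
  simp only [ins_succAbove] at h2
  exact h2.trans h1

end Vale.Agent.Lib.P074

end

section

open MeasureTheory Set Filter Topology
open scoped ENNReal

namespace Vale.Agent.Lib.P074

variable {n : ℕ}

lemma toReal_rpow_mul_le {x y z : ℝ≥0∞} {p q : ℝ} (hz : z ≠ ∞)
    (h : x ^ p * y ^ q ≤ z) : x.toReal ^ p * y.toReal ^ q ≤ z.toReal := by
  have := ENNReal.toReal_mono hz h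
  rwa [ENNReal.toReal_mul, ← ENNReal.toReal_rpow, ← ENNReal.toReal_rpow] at this

lemma ofReal_rpow_mul {x y : ℝ≥0∞} {p q : ℝ} (hx : x ≠ ∞) (hy : y ≠ ∞) (hp : 0 < p) (hq : 0 < q) :
    ENNReal.ofReal (x.toReal ^ p * y.toReal ^ q) = x ^ p * y ^ q := by
  rw [ENNReal.ofReal_mul (by positivity),
    ← ENNReal.ofReal_rpow_of_nonneg ENNReal.toReal_nonneg hp.le,
    ← ENNReal.ofReal_rpow_of_nonneg ENNReal.toReal_nonneg hq.le, ENNReal.ofReal_toReal hx,
    ENNReal.ofReal_toReal hy]

lemma volume_sec_le {k : Fin (n + 1)} {A : Set (Vec (n + 1))} {ρ : ℝ}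
    (hρ : A ⊆ Metric.closedBall 0 ρ) (t : ℝ) :
    volume (sec k A t) ≤ volume (Metric.closedBall (0 : Vec n) ρ) := by
  refine measure_mono fun x hx => ?_
  have h1 := hρ hx
  rw [mem_closedBall_zero_iff] at h1 ⊢
  refine (pi_norm_le_iff_of_nonneg ((norm_nonneg _).trans h1)).2 fun j => ?_
  have h2 := norm_le_pi_norm (ins k t x) (k.succAbove j)
  simp only [ins_succAbove] at h2
  exact h2.trans h1

lemma volume_sec_eq_zero {k : Fin (n + 1)} {A : Set (Vec (n + 1))} {ρ : ℝ}
    (hρ : A ⊆ Metric.closedBall 0 ρ) {t : ℝ} (ht : volume (sec k A t) ≠ 0) : |t| ≤ ρ := by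
  have : (sec k A t).Nonempty := by
    by_contra h
    rw [not_nonempty_iff_eq_empty] at h
    simp [h] at ht
  obtain ⟨x, hx⟩ := this
  have h1 := hρ hx
  rw [mem_closedBall_zero_iff] at h1
  have h2 := norm_le_pi_norm (ins k t x) k
  simp only [ins_same, Real.norm_eq_abs] at h2
  exact h2.trans h1

/-- Brunn-Minkowski inequality in multiplicative form for bounded convex sets. -/
theorem brunn_minkowski : ∀ (n : ℕ) {A B C : Set (Vec n)}, Convex ℝ A → Convex ℝ B →
    Bornology.IsBounded A → Bornology.IsBounded B →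
    MeasurableSet A → MeasurableSet B → MeasurableSet C → ∀ {ε : ℝ}, 0 < ε → ε < 1 →
    (∀ a ∈ A, ∀ b ∈ B, (1 - ε) • a + ε • b ∈ C) →
    volume A ^ (1 - ε) * volume B ^ ε ≤ volume C := by
  intro n
  induction n with
  | zero =>
    intro A B C _ _ _ _ _ _ _ ε h0 h1 hsub
    have h1e : 0 < 1 - ε := by linarith
    rcases A.eq_empty_or_nonempty with rfl | ⟨a, ha⟩
    · simp [ENNReal.zero_rpow_of_pos h1e]
    rcases B.eq_empty_or_nonempty with rfl | ⟨b, hb⟩
    · simp [ENNReal.zero_rpow_of_pos h0]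
    have hCu : C = univ := by
      apply eq_univ_of_forall
      intro x
      have : x = (1 - ε) • a + ε • b := Subsingleton.elim _ _
      rw [this]
      exact hsub a ha b hb
    have hAu : A = univ := eq_univ_of_forall fun x => by
      rwa [Subsingleton.elim x a]
    have hBu : B = univ := eq_univ_of_forall fun x => by
      rwa [Subsingleton.elim x b]
    subst hCu hAu hBu
    have hone : volume (univ : Set (Vec 0)) = 1 := by
      rw [volume_pi, Measure.pi_univ]
      simp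
    simp [hone]
  | succ n ih =>
    intro A B C hAc hBc hAb hBb hAm hBm hCm ε h0 h1 hsub
    have h1e : 0 < 1 - ε := by linarith
    set k : Fin (n + 1) := 0
    obtain ⟨ρ₁, hρ₁⟩ := hAb.subset_closedBall (0 : Vec (n + 1))
    obtain ⟨ρ₂, hρ₂⟩ := hBb.subset_closedBall (0 : Vec (n + 1))
    set ρ := max ρ₁ ρ₂ with hρ
    have hρA : A ⊆ Metric.closedBall 0 ρ :=
      hρ₁.trans (Metric.closedBall_subset_closedBall (le_max_left _ _))
    have hρB : B ⊆ Metric.closedBall 0 ρ :=
      hρ₂.trans (Metric.closedBall_subset_closedBall (le_max_right _ _))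
    set D := volume (Metric.closedBall (0 : Vec n) ρ) with hD
    have hDtop : D ≠ ∞ := measure_closedBall_lt_top.ne
    have hfA : ∀ t, volume (sec k A t) ≠ ∞ := fun t =>
      ne_top_of_le_ne_top hDtop (volume_sec_le hρA t)
    have hfB : ∀ t, volume (sec k B t) ≠ ∞ := fun t =>
      ne_top_of_le_ne_top hDtop (volume_sec_le hρB t)
    set a : ℝ → ℝ := fun t => (volume (sec k A t)).toReal with ha
    set u : ℝ → ℝ := fun t => (volume (sec k B t)).toReal with hu
    have hloga : ∀ {E : Set (Vec (n + 1))}, Convex ℝ E → Bornology.IsBounded E →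
        MeasurableSet E → (∀ t, volume (sec k E t) ≠ ∞) →
        LogConc (fun t => (volume (sec k E t)).toReal) := by
      intro E hEc hEb hEm hEf
      refine ⟨fun t => ENNReal.toReal_nonneg, fun s t l hl0 hl1 => ?_⟩
      have hsub' : ∀ x ∈ E, ∀ z ∈ E, (1 - l) • x + l • z ∈ E := fun x hx z hz =>
        hEc hx hz (by linarith) hl0.le (by ring)
      have h2 := ih (Convex.sec hEc s) (Convex.sec hEc t) (IsBounded.sec hEb s) (IsBounded.sec hEb t)
        (measurableSet_sec k hEm s) (measurableSet_sec k hEm t)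
        (measurableSet_sec k hEm ((1 - l) * s + l * t)) hl0 hl1 (sec_combo hsub')
      exact toReal_rpow_mul_le (hEf _) h2
    have hla := hloga hAc hAb hAm hfA
    have hlu := hloga hBc hBb hBm hfB
    have hDr : ∀ {E : Set (Vec (n + 1))}, E ⊆ Metric.closedBall 0 ρ →
        ∀ t, (volume (sec k E t)).toReal ≤ D.toReal := fun hE t =>
      ENNReal.toReal_mono hDtop (volume_sec_le hE t)
    have hsup : ∀ {E : Set (Vec (n + 1))}, E ⊆ Metric.closedBall 0 ρ →
        ∀ t, (volume (sec k E t)).toReal ≠ 0 → |t| ≤ ρ := by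
      intro E hE t ht
      refine volume_sec_eq_zero (k := k) hE ?_
      intro h
      exact ht (by simp [h])
    have hv : ∀ s t, ENNReal.ofReal (a s ^ (1 - ε) * u t ^ ε) ≤
        volume (sec k C ((1 - ε) * s + ε * t)) := by
      intro s t
      rw [ofReal_rpow_mul (hfA s) (hfB t) h1e h0]
      exact ih (Convex.sec hAc s) (Convex.sec hBc t) (IsBounded.sec hAb s) (IsBounded.sec hBb t)
        (measurableSet_sec k hAm s) (measurableSet_sec k hBm t)
        (measurableSet_sec k hCm _) h0 h1 (sec_combo hsub)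
    have key := pl_one_dim hla hlu (hDr hρA) (hsup hρA) (hDr hρB) (hsup hρB) h0 h1
      (fun w => volume (sec k C w)) hv
    have hIa : ∫⁻ t, ENNReal.ofReal (a t) = volume A := by
      rw [volume_eq_lintegral_sec k hAm]
      exact lintegral_congr fun t => ENNReal.ofReal_toReal (hfA t)
    have hIu : ∫⁻ t, ENNReal.ofReal (u t) = volume B := by
      rw [volume_eq_lintegral_sec k hBm]
      exact lintegral_congr fun t => ENNReal.ofReal_toReal (hfB t)
    rw [hIa, hIu, ← volume_eq_lintegral_sec k hCm] at key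
    exact key

end Vale.Agent.Lib.P074

end

section

open MeasureTheory Set Filter Topology
open scoped ENNReal

namespace Vale.Agent.Lib.P074

variable {n : ℕ}

lemma volume_sec_ne_top {k : Fin (n + 1)} {E : Set (Vec (n + 1))} (hE : Bornology.IsBounded E)
    (t : ℝ) : volume (sec k E t) ≠ ∞ :=
  (IsBounded.sec hE t).measure_lt_top.ne

lemma logConc_sec (k : Fin (n + 1)) {E : Set (Vec (n + 1))} (hEc : Convex ℝ E)
    (hEb : Bornology.IsBounded E) (hEm : MeasurableSet E) :
    LogConc (fun t => (volume (sec k E t)).toReal) := by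
  refine ⟨fun t => ENNReal.toReal_nonneg, fun s t l hl0 hl1 => ?_⟩
  have hsub' : ∀ x ∈ E, ∀ z ∈ E, (1 - l) • x + l • z ∈ E := fun x hx z hz =>
    hEc hx hz (by linarith) hl0.le (by ring)
  have h2 := brunn_minkowski n (Convex.sec hEc s) (Convex.sec hEc t) (IsBounded.sec hEb s)
    (IsBounded.sec hEb t) (measurableSet_sec k hEm s) (measurableSet_sec k hEm t)
    (measurableSet_sec k hEm ((1 - l) * s + l * t)) hl0 hl1 (sec_combo hsub')
  exact toReal_rpow_mul_le (volume_sec_ne_top hEb _) h2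

lemma dens_of_cell (k : Fin (n + 1)) {E : Set (Vec (n + 1))} (hEc : Convex ℝ E)
    (hEb : Bornology.IsBounded E) (hEm : MeasurableSet E) (hEp : volume E ≠ 0) :
    ∃ α β : ℝ, IsDens (fun t => (volume (sec k E t)).toReal) α β ∧
      (∀ t, t ∉ Icc α β → (volume (sec k E t)).toReal = 0) ∧
      (volume E).toReal = IsDens.mass (fun t => (volume (sec k E t)).toReal) α β := by
  obtain ⟨ρ, hρ⟩ := hEb.subset_closedBall (0 : Vec (n + 1))
  have hInt : ∫⁻ t, ENNReal.ofReal ((volume (sec k E t)).toReal) = volume E := by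
    rw [volume_eq_lintegral_sec k hEm]
    exact lintegral_congr fun t => ENNReal.ofReal_toReal (volume_sec_ne_top hEb t)
  have hC : ∀ t, (volume (sec k E t)).toReal ≤ (volume (Metric.closedBall (0 : Vec n) ρ)).toReal :=
    fun t => ENNReal.toReal_mono measure_closedBall_lt_top.ne (volume_sec_le hρ t)
  have hsup : ∀ t, (volume (sec k E t)).toReal ≠ 0 → |t| ≤ ρ := by
    intro t ht
    refine volume_sec_eq_zero (k := k) hρ ?_
    intro h
    exact ht (by simp [h])
  obtain ⟨α, β, hd, h0⟩ := (logConc_sec k hEc hEb hEm).exists_dens hC hsup (by rw [hInt]; exact hEp)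
  refine ⟨α, β, hd, h0, ?_⟩
  have h1 := hd.lintegral_ofReal_eq_mass h0
  rw [hInt] at h1
  rw [h1, ENNReal.toReal_ofReal hd.mass_pos.le]

lemma integral_slice (k : Fin (n + 1)) {F : Vec (n + 1) → ℝ} (hF : Integrable F) :
    ∫ x, F x = ∫ t : ℝ, ∫ x : Vec n, F (ins k t x) := by
  have mp := (volume_preserving_piFinSuccAbove (fun _ : Fin (n + 1) => ℝ) k).symm
  have h1 := mp.integral_comp' F
  rw [← h1]
  have h2 : Integrable (fun p : ℝ × Vec n => F (ins k p.1 p.2)) (volume.prod volume) :=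
    mp.integrable_comp_emb (MeasurableEquiv.measurableEmbedding _) |>.2 hF
  exact integral_prod _ h2

lemma integrableOn_coord (k : Fin (n + 1)) {E : Set (Vec (n + 1))}
    (hEb : Bornology.IsBounded E) {φ : ℝ → ℝ} (hφ : Continuous φ) :
    IntegrableOn (fun x : Vec (n + 1) => φ (x k)) E := by
  obtain ⟨ρ, hρ⟩ := hEb.subset_closedBall (0 : Vec (n + 1))
  have hc : Continuous fun x : Vec (n + 1) => φ (x k) := hφ.comp (continuous_apply k)
  exact (hc.continuousOn.integrableOn_compact (isCompact_closedBall _ _)).mono_set hρ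

lemma setIntegral_coord (k : Fin (n + 1)) {E : Set (Vec (n + 1))} (hEm : MeasurableSet E)
    (hEb : Bornology.IsBounded E) {φ : ℝ → ℝ} (hφ : Continuous φ) :
    ∫ x in E, φ (x k) = ∫ t : ℝ, φ t * (volume (sec k E t)).toReal := by
  have hint : Integrable (E.indicator fun x : Vec (n + 1) => φ (x k)) :=
    (integrable_indicator_iff hEm).2 (integrableOn_coord k hEb hφ)
  rw [← integral_indicator hEm, integral_slice k hint]
  refine integral_congr_ae (ae_of_all _ fun t => ?_)
  have : (fun x : Vec n => E.indicator (fun x : Vec (n + 1) => φ (x k)) (ins k t x)) =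
      (sec k E t).indicator (fun _ => φ t) := by
    ext x
    by_cases hx : ins k t x ∈ E
    · have : x ∈ sec k E t := hx
      simp [hx, this]
    · have : x ∉ sec k E t := hx
      simp [hx, this]
  simp only [this]
  rw [integral_indicator_const _ (measurableSet_sec k hEm t), smul_eq_mul, mul_comm,
    Measure.real]

lemma IsDens.integral_eq_Ioo {a : ℝ → ℝ} {α β : ℝ} (ha : ∀ t, t ∉ Icc α β → a t = 0)
    (φ : ℝ → ℝ) : ∫ t, φ t * a t = ∫ t in Ioo α β, φ t * a t := by
  rw [← integral_Icc_eq_integral_Ioo]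
  symm
  refine setIntegral_eq_integral_of_forall_compl_eq_zero ?_
  intro t ht
  rw [ha t ht, mul_zero]

/-- A continuous bounded function on a set. -/
def Good (I : Set ℝ) (ψ : ℝ → ℝ) : Prop := ContinuousOn ψ I ∧ ∃ C, ∀ t ∈ I, |ψ t| ≤ C

lemma Good.add {I : Set ℝ} {f g : ℝ → ℝ} (hf : Good I f) (hg : Good I g) :
    Good I (fun t => f t + g t) := by
  obtain ⟨h1, C₁, h2⟩ := hf
  obtain ⟨h3, C₂, h4⟩ := hg
  exact ⟨h1.add h3, C₁ + C₂, fun t ht => (abs_add_le _ _).trans (add_le_add (h2 t ht) (h4 t ht))⟩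

lemma Good.mul {I : Set ℝ} {f g : ℝ → ℝ} (hf : Good I f) (hg : Good I g) :
    Good I (fun t => f t * g t) := by
  obtain ⟨h1, C₁, h2⟩ := hf
  obtain ⟨h3, C₂, h4⟩ := hg
  refine ⟨h1.mul h3, |C₁| * |C₂|, fun t ht => ?_⟩
  rw [abs_mul]
  exact mul_le_mul ((h2 t ht).trans (le_abs_self _)) ((h4 t ht).trans (le_abs_self _))
    (abs_nonneg _) (abs_nonneg _)

lemma Good.const (I : Set ℝ) (c : ℝ) : Good I (fun _ => c) :=
  ⟨continuousOn_const, |c|, fun _ _ => le_rfl⟩

lemma Good.const_mul {I : Set ℝ} {f : ℝ → ℝ} (c : ℝ) (hf : Good I f) :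
    Good I (fun t => c * f t) := (Good.const I c).mul hf

lemma Good.congr {I : Set ℝ} {f g : ℝ → ℝ} (hf : Good I f) (h : ∀ t ∈ I, g t = f t) : Good I g := by
  obtain ⟨h1, C, h2⟩ := hf
  exact ⟨h1.congr h, C, fun t ht => by rw [h t ht]; exact h2 t ht⟩

lemma Good.sq {I : Set ℝ} {f : ℝ → ℝ} (hf : Good I f) : Good I (fun t => (f t) ^ 2) := by
  have := hf.mul hf
  simpa only [pow_two] using this

/-- The weighted integral. -/
noncomputable def wint (I : Set ℝ) (a ψ : ℝ → ℝ) : ℝ := ∫ t in I, ψ t * a t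

section wint

variable {I : Set ℝ} {a : ℝ → ℝ}

/-- Standing assumptions on the weight. -/
structure Wgt (I : Set ℝ) (a : ℝ → ℝ) : Prop where
  meas : MeasurableSet I
  fin : volume I ≠ ∞
  pos : ∀ t ∈ I, 0 < a t
  good : Good I a

lemma Wgt.integrableOn (h : Wgt I a) {ψ : ℝ → ℝ} (hψ : Good I ψ) :
    IntegrableOn (fun t => ψ t * a t) I := by
  have : IsFiniteMeasure (volume.restrict I) := ⟨by
    rw [Measure.restrict_apply_univ]; exact lt_top_iff_ne_top.2 h.fin⟩
  obtain ⟨h1, C, h2⟩ := hψ.mul h.good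
  refine Integrable.of_bound (h1.aestronglyMeasurable h.meas) C ?_
  refine (ae_restrict_iff' h.meas).2 (ae_of_all _ fun t ht => ?_)
  rw [Real.norm_eq_abs]
  exact h2 t ht

lemma Wgt.lin2 (h : Wgt I a) {f g : ℝ → ℝ} (hf : Good I f) (hg : Good I g) (c₁ c₂ : ℝ) :
    wint I a (fun t => c₁ * f t + c₂ * g t) = c₁ * wint I a f + c₂ * wint I a g := by
  simp only [wint, add_mul, mul_assoc]
  rw [integral_add ((h.integrableOn hf).const_mul c₁) ((h.integrableOn hg).const_mul c₂),
    integral_const_mul, integral_const_mul]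

lemma Wgt.lin3 (h : Wgt I a) {f g k : ℝ → ℝ} (hf : Good I f) (hg : Good I g) (hk : Good I k)
    (c₁ c₂ c₃ : ℝ) :
    wint I a (fun t => c₁ * f t + c₂ * g t + c₃ * k t) =
      c₁ * wint I a f + c₂ * wint I a g + c₃ * wint I a k := by
  have h1 := h.lin2 (f := fun t => c₁ * f t + c₂ * g t) (g := k)
    ((hf.const_mul c₁).add (hg.const_mul c₂)) hk 1 c₃
  simp only [one_mul] at h1
  rw [h1, h.lin2 hf hg]

lemma Wgt.lin4 (h : Wgt I a) {f g k l : ℝ → ℝ} (hf : Good I f) (hg : Good I g) (hk : Good I k)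
    (hl : Good I l) (c₁ c₂ c₃ c₄ : ℝ) :
    wint I a (fun t => c₁ * f t + c₂ * g t + c₃ * k t + c₄ * l t) =
      c₁ * wint I a f + c₂ * wint I a g + c₃ * wint I a k + c₄ * wint I a l := by
  have h1 := h.lin2 (f := fun t => c₁ * f t + c₂ * g t + c₃ * k t) (g := l)
    (((hf.const_mul c₁).add (hg.const_mul c₂)).add (hk.const_mul c₃)) hl 1 c₄
  simp only [one_mul] at h1
  rw [h1, h.lin3 hf hg hk]

lemma wint_congr (hI : MeasurableSet I) {f g : ℝ → ℝ} (h : ∀ t ∈ I, f t = g t) :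
    wint I a f = wint I a g := by
  refine setIntegral_congr_fun hI fun t ht => ?_
  simp only [h t ht]

lemma Wgt.nonneg (h : Wgt I a) {f : ℝ → ℝ} (hf : ∀ t ∈ I, 0 ≤ f t) : 0 ≤ wint I a f :=
  setIntegral_nonneg h.meas fun t ht => mul_nonneg (hf t ht) (h.pos t ht).le

lemma Wgt.mono (h : Wgt I a) {f g : ℝ → ℝ} (hf : Good I f) (hg : Good I g)
    (hfg : ∀ t ∈ I, f t ≤ g t) : wint I a f ≤ wint I a g :=
  setIntegral_mono_on (h.integrableOn hf) (h.integrableOn hg) h.meas fun t ht =>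
    mul_le_mul_of_nonneg_right (hfg t ht) (h.pos t ht).le

lemma Wgt.cs (h : Wgt I a) {f g : ℝ → ℝ} (hf : Good I f) (hg : Good I g) :
    (wint I a (fun t => f t * g t)) ^ 2 ≤
      wint I a (fun t => (f t) ^ 2) * wint I a (fun t => (g t) ^ 2) := by
  have hq : ∀ c : ℝ, 0 ≤ wint I a (fun t => (g t) ^ 2) * (c * c) +
      (2 * wint I a (fun t => f t * g t)) * c + wint I a (fun t => (f t) ^ 2) := by
    intro c
    have h0 : 0 ≤ wint I a (fun t => (f t + c * g t) ^ 2) := h.nonneg fun t _ => sq_nonneg _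
    have h1 : wint I a (fun t => (f t + c * g t) ^ 2) =
        wint I a (fun t => 1 * (f t) ^ 2 + (2 * c) * (f t * g t) + (c * c) * (g t) ^ 2) :=
      wint_congr h.meas fun t _ => by ring
    rw [h1, h.lin3 hf.sq (hf.mul hg) hg.sq] at h0
    nlinarith
  have hd := discrim_le_zero hq
  rw [discrim] at hd
  nlinarith

end wint

/-- One cell estimate: the monotone rearrangement of the marginals in the direction `k` of two
convex sets, its moments and the interpolation inequality. -/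
theorem one_cell (k : Fin (n + 1)) {L0 L1 : Set (Vec (n + 1))} (h0c : Convex ℝ L0)
    (h1c : Convex ℝ L1) (h0b : Bornology.IsBounded L0) (h1b : Bornology.IsBounded L1)
    (h0m : MeasurableSet L0) (h1m : MeasurableSet L1) (h0p : volume L0 ≠ 0) (h1p : volume L1 ≠ 0)
    {R : ℝ} (hR0 : ∀ x ∈ L0, |x k| ≤ R) (hR1 : ∀ x ∈ L1, |x k| ≤ R)
    {M M' Q Q' B B' : ℝ} (hM : M = (volume L0).toReal) (hM' : M' = (volume L1).toReal)
    (hQ : Q = ∫ x in L0, (x k) ^ 2) (hQ' : Q' = ∫ x in L1, (x k) ^ 2)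
    (hB : B = ∫ x in L0, x k) (hB' : B' = ∫ x in L1, x k) :
    ∃ X γ : ℝ, 0 ≤ γ ∧ γ = M / M' * Q' - 2 * X + Q ∧ (M / M' * B' - B) ^ 2 ≤ M * γ ∧
      (M / M' * Q' - Q) ^ 2 ≤ 4 * R ^ 2 * M * γ ∧
      ∀ ε : ℝ, 0 < ε → ε < 1 → ∀ Lε : Set (Vec (n + 1)), MeasurableSet Lε →
        (∀ x ∈ L0, ∀ z ∈ L1, (1 - ε) • x + ε • z ∈ Lε) →
        0 ≤ (R ^ 2 * M - Q) / 2 - ε * (X - Q) - ε ^ 2 / 2 * γ ∧
        ENNReal.ofReal ((M / M') ^ (-ε) * ((R ^ 2 * M - Q) / 2 - ε * (X - Q) - ε ^ 2 / 2 * γ)) ≤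
          ∫⁻ x in Lε, ENNReal.ofReal ((R ^ 2 - (x k) ^ 2) / 2) := by
  obtain ⟨α, β, hda, h0a, hma⟩ := dens_of_cell k h0c h0b h0m h0p
  obtain ⟨α', β', hdu, h0u, hmu⟩ := dens_of_cell k h1c h1b h1m h1p
  set a : ℝ → ℝ := fun t => (volume (sec k L0 t)).toReal with ha
  set u : ℝ → ℝ := fun t => (volume (sec k L1 t)).toReal with hu
  have hM0 : 0 < M := by rw [hM, hma]; exact hda.mass_pos
  have hM'0 : 0 < M' := by rw [hM', hmu]; exact hdu.mass_pos
  set r := M / M' with hr
  have hr0 : 0 < r := div_pos hM0 hM'0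
  have hdb : IsDens (fun t => r * u t) α' β' := by
    refine ⟨hdu.lt, fun t ht => mul_pos hr0 (hdu.pos t ht), continuousOn_const.mul hdu.cont, ?_⟩
    obtain ⟨D, hD⟩ := hdu.bdd
    exact ⟨r * D, fun t ht => mul_le_mul_of_nonneg_left (hD t ht) hr0.le⟩
  have hmassb : IsDens.mass a α β = IsDens.mass (fun t => r * u t) α' β' := by
    rw [IsDens.mass, IsDens.mass, intervalIntegral.integral_const_mul]
    have h1 : (∫ t in α..β, a t) = M := by rw [hM, hma]; rfl
    have h2 : (∫ t in α'..β', u t) = M' := by rw [hM', hmu]; rfl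
    rw [h1, h2, hr]; field_simp
  obtain ⟨T, hmono, him, hd⟩ := exists_transport hda hdb hmassb
  set I := Ioo α β with hI
  set I' := Ioo α' β' with hI'
  have hTmem : ∀ t ∈ I, T t ∈ I' := fun t ht => by
    rw [← him]; exact mem_image_of_mem _ ht
  -- ranges
  have hrange : ∀ {E : Set (Vec (n + 1))}, (∀ x ∈ E, |x k| ≤ R) → ∀ t,
      0 < (volume (sec k E t)).toReal → |t| ≤ R := by
    intro E hE t ht
    have h1 : volume (sec k E t) ≠ 0 := by
      intro h
      simp [h] at ht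
    have : (sec k E t).Nonempty := by
      by_contra h
      rw [not_nonempty_iff_eq_empty] at h
      simp [h] at h1
    obtain ⟨x, hx⟩ := this
    have := hE _ hx
    simpa using this
  have htR : ∀ t ∈ I, |t| ≤ R := fun t ht => hrange hR0 t (hda.pos t ht)
  have hwR : ∀ t ∈ I', |t| ≤ R := fun t ht => hrange hR1 t (hdu.pos t ht)
  have hTR : ∀ t ∈ I, |T t| ≤ R := fun t ht => hwR _ (hTmem t ht)
  have hTc : ContinuousOn T I := fun t ht => (hd t ht).continuousAt.continuousWithinAt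
  have hW : Wgt I a := by
    refine ⟨measurableSet_Ioo, by simp [hI], hda.pos, hda.cont, ?_⟩
    obtain ⟨Da, hDa⟩ := hda.bdd
    exact ⟨Da, fun t ht => by rw [abs_of_pos (hda.pos t ht)]; exact hDa t ht⟩
  set J : (ℝ → ℝ) → ℝ := wint I a with hJ
  -- moments
  have hcoord : ∀ φ : ℝ → ℝ, Continuous φ → ∫ x in L0, φ (x k) = J φ := by
    intro φ hφ
    rw [setIntegral_coord k h0m h0b hφ]
    exact IsDens.integral_eq_Ioo h0a φ
  have hcoord' : ∀ φ : ℝ → ℝ, Continuous φ →
      ∫ x in L1, φ (x k) = ∫ t in I', φ t * u t := by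
    intro φ hφ
    rw [setIntegral_coord k h1m h1b hφ]
    exact IsDens.integral_eq_Ioo h0u φ
  have hpush : ∀ φ : ℝ → ℝ, J (fun t => φ (T t)) = r * ∫ t in I', φ t * u t := by
    intro φ
    have h1 := integral_image_eq_integral_abs_deriv_smul measurableSet_Ioo
      (fun t ht => (hd t ht).hasDerivWithinAt) hmono.injOn (fun w => φ w * (r * u w))
    rw [him] at h1
    have h2 : ∫ t in I', φ t * (r * u t) = r * ∫ t in I', φ t * u t := by
      rw [← integral_const_mul]
      refine integral_congr_ae (ae_of_all _ fun t => ?_)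
      simp only
      ring
    rw [← h2, h1]
    refine setIntegral_congr_fun measurableSet_Ioo fun t ht => ?_
    have hp : 0 < r * u (T t) := mul_pos hr0 (hdu.pos _ (hTmem t ht))
    have hp2 := hda.pos t ht
    simp only [smul_eq_mul]
    rw [abs_of_pos (div_pos hp2 hp)]
    have hu0 : u (T t) ≠ 0 := (hdu.pos _ (hTmem t ht)).ne'
    field_simp
  have hJM : J (fun _ => 1) = M := by
    have h1 := hcoord (fun _ => 1) continuous_const
    rw [← h1]
    simp [Measure.real, hM]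
  have hJB : J (fun t => t) = B := by rw [hB]; exact (hcoord (fun t => t) continuous_id).symm
  have hJQ : J (fun t => t ^ 2) = Q := by
    rw [hQ]; exact (hcoord (fun t => t ^ 2) (continuous_pow 2)).symm
  have hJTB : J T = r * B' := by
    have h1 := hpush (fun t => t)
    have h2 := hcoord' (fun t => t) continuous_id
    rw [hB', h2]
    exact h1
  have hJTQ : J (fun t => (T t) ^ 2) = r * Q' := by
    have h1 := hpush (fun t => t ^ 2)
    have h2 := hcoord' (fun t => t ^ 2) (continuous_pow 2)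
    rw [hQ', h2]
    exact h1
  -- the quantities
  have hRnn : 0 ≤ R := (abs_nonneg _).trans (htR ((α + β) / 2) ⟨by
    linarith [hda.lt], by linarith [hda.lt]⟩)
  have gid : Good I (fun t => t) := ⟨continuousOn_id, R, htR⟩
  have gT : Good I T := ⟨hTc, R, hTR⟩
  have gone : Good I (fun _ => (1 : ℝ)) := Good.const I 1
  have gt2 := gid.sq
  have gT2 := gT.sq
  have gtT := gid.mul gT
  have gF : Good I (fun t => T t - t) :=
    (gT.add (gid.const_mul (-1))).congr fun t _ => by ring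
  have gS : Good I (fun t => T t + t) := gT.add gid
  set X := J (fun t => t * T t) with hX
  set γ := J (fun t => (T t - t) ^ 2) with hγ
  have hγ_eq : γ = r * Q' - 2 * X + Q := by
    have h1 : γ = wint I a (fun t => 1 * (T t) ^ 2 + (-2) * (t * T t) + 1 * t ^ 2) :=
      wint_congr hW.meas fun t _ => by ring
    rw [h1, hW.lin3 gT2 gtT gt2]
    change 1 * J _ + -2 * J _ + 1 * J _ = _
    rw [hJTQ, hJQ]
    ring
  have hbary : (r * B' - B) ^ 2 ≤ M * γ := by
    have h1 := hW.cs gF gone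
    have h2 : wint I a (fun t => (T t - t) * 1) = r * B' - B := by
      have h3 : wint I a (fun t => (T t - t) * 1) = wint I a (fun t => 1 * T t + (-1) * t) :=
        wint_congr hW.meas fun t _ => by ring
      rw [h3, hW.lin2 gT gid]
      change 1 * J _ + -1 * J _ = _
      rw [hJTB, hJB]
      ring
    have h4 : wint I a (fun _ => (1 : ℝ) ^ 2) = M := by simpa using hJM
    rw [h2, h4] at h1
    change _ ≤ γ * M at h1
    linarith
  have hγ0 : 0 ≤ γ := hW.nonneg fun t _ => sq_nonneg _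
  have hsecond : (r * Q' - Q) ^ 2 ≤ 4 * R ^ 2 * M * γ := by
    have h1 := hW.cs gF gS
    have h2 : wint I a (fun t => (T t - t) * (T t + t)) = r * Q' - Q := by
      have h3 : wint I a (fun t => (T t - t) * (T t + t)) =
          wint I a (fun t => 1 * (T t) ^ 2 + (-1) * t ^ 2) :=
        wint_congr hW.meas fun t _ => by ring
      rw [h3, hW.lin2 gT2 gt2]
      change 1 * J _ + -1 * J _ = _
      rw [hJTQ, hJQ]
      ring
    have h5 : wint I a (fun t => (T t + t) ^ 2) ≤ 4 * R ^ 2 * M := by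
      have h6 : wint I a (fun t => (4 * R ^ 2) * 1) = 4 * R ^ 2 * M := by
        have := hW.lin2 gone gone (4 * R ^ 2) 0
        simp only [zero_mul, add_zero] at this
        rw [this]
        change _ * J _ = _
        rw [hJM]
      rw [← h6]
      refine hW.mono gS.sq (gone.const_mul _) fun t ht => ?_
      have h7 := (abs_add_le (T t) t).trans (add_le_add (hTR t ht) (htR t ht))
      have h8 : (T t + t) ^ 2 ≤ (R + R) ^ 2 := by
        rw [← sq_abs]; exact pow_le_pow_left₀ (abs_nonneg _) h7 2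
      nlinarith
    rw [h2] at h1
    calc (r * Q' - Q) ^ 2 ≤ γ * wint I a (fun t => (T t + t) ^ 2) := h1
      _ ≤ γ * (4 * R ^ 2 * M) := mul_le_mul_of_nonneg_left h5 hγ0
      _ = 4 * R ^ 2 * M * γ := by ring
  refine ⟨X, γ, hγ0, hγ_eq, hbary, hsecond, ?_⟩
  intro ε h0 h1 Lε hLm hsub
  have h1e : 0 < 1 - ε := by linarith
  set z : ℝ → ℝ := fun t => (1 - ε) * t + ε * T t with hz
  have hzR : ∀ t ∈ I, |z t| ≤ R := by
    intro t ht
    have h2 := abs_le.1 (htR t ht)
    have h3 := abs_le.1 (hTR t ht)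
    rw [abs_le]
    constructor <;> simp only [hz] <;> nlinarith [h2.1, h2.2, h3.1, h3.2]
  have hζ : ∀ t ∈ I, 0 ≤ (R ^ 2 - (z t) ^ 2) / 2 := by
    intro t ht
    have h2 : (z t) ^ 2 ≤ R ^ 2 := by
      rw [← sq_abs]; exact pow_le_pow_left₀ (abs_nonneg _) (hzR t ht) 2
    linarith
  have hζeq : wint I a (fun t => (R ^ 2 - (z t) ^ 2) / 2) =
      (R ^ 2 * M - Q) / 2 - ε * (X - Q) - ε ^ 2 / 2 * γ := by
    have h2 : wint I a (fun t => (R ^ 2 - (z t) ^ 2) / 2) =
        wint I a (fun t => (R ^ 2 / 2) * 1 + (ε - 1 / 2) * t ^ 2 + (-ε) * (t * T t) +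
          (-(ε ^ 2 / 2)) * (T t - t) ^ 2) := by
      refine wint_congr hW.meas fun t _ => ?_
      simp only [hz]
      ring
    rw [h2, hW.lin4 gone gt2 gtT gF.sq]
    change _ * J _ + _ * J _ + _ * X + _ * γ = _
    rw [hJM, hJQ]
    ring
  have hnonneg : 0 ≤ (R ^ 2 * M - Q) / 2 - ε * (X - Q) - ε ^ 2 / 2 * γ := by
    rw [← hζeq]
    exact hW.nonneg hζ
  refine ⟨hnonneg, ?_⟩
  set χ : ℝ → ℝ≥0∞ := fun w => ENNReal.ofReal ((R ^ 2 - w ^ 2) / 2) with hχ
  have hχm : Measurable χ := by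
    refine ENNReal.measurable_ofReal.comp ?_
    fun_prop
  have hv : ∀ s ∈ Ioo α β, ∀ t ∈ Ioo α' β', ENNReal.ofReal (a s ^ (1 - ε) * u t ^ ε) ≤
      (fun w => volume (sec k Lε w)) ((1 - ε) * s + ε * t) := by
    intro s _ t _
    rw [ofReal_rpow_mul (volume_sec_ne_top h0b s) (volume_sec_ne_top h1b t) h1e h0]
    exact brunn_minkowski n (Convex.sec h0c s) (Convex.sec h1c t) (IsBounded.sec h0b s)
      (IsBounded.sec h1b t) (measurableSet_sec k h0m s) (measurableSet_sec k h1m t)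
      (measurableSet_sec k hLm _) h0 h1 (sec_combo hsub)
  have key := interp_main hda hdu hr0 h0 h1 hmono him hd (fun w => volume (sec k Lε w)) χ hv
  have hright : ∫⁻ w, χ w * volume (sec k Lε w) =
      ∫⁻ x in Lε, ENNReal.ofReal ((R ^ 2 - (x k) ^ 2) / 2) :=
    (setLIntegral_coord k hLm hχm).symm
  rw [hright] at key
  refine le_trans (le_of_eq ?_) key
  have gz : Good I (fun t => (1 - ε) * t + ε * T t) := (gid.const_mul _).add (gT.const_mul _)
  have gzζ : Good I (fun t => (R ^ 2 - (z t) ^ 2) / 2) :=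
    (((Good.const I (R ^ 2)).add (gz.sq.const_mul (-1))).const_mul (1 / 2)).congr fun t _ => by
      simp only [hz]; ring
  have h3 := hda.ofReal_integral_mul (hW.integrableOn gzζ) hζ
  have h4 : ∫⁻ t in Ioo α β, χ ((1 - ε) * t + ε * T t) * ENNReal.ofReal (a t) =
      ENNReal.ofReal (wint I a (fun t => (R ^ 2 - (z t) ^ 2) / 2)) := h3
  rw [h4, hζeq, ENNReal.ofReal_mul (Real.rpow_nonneg hr0.le _)]

end Vale.Agent.Lib.P074

end

section

open MeasureTheory Set Filter Topology Function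
open scoped ENNReal

namespace Vale.Agent.Lib.P074

variable {n : ℕ}

/-- The final algebra of the core lemma. -/
lemma core_algebra {ι : Type*} [Fintype ι] {M M' Q Q' B B' X γ : ι → ℝ} {R : ℝ}
    (hM : ∀ i, 0 < M i) (hM' : ∀ i, 0 < M' i) (hMs : ∑ i, M i = ∑ i, M' i)
    (hQs : ∑ i, Q i = ∑ i, Q' i) (hγ0 : ∀ i, 0 ≤ γ i)
    (hγ : ∀ i, γ i = M i / M' i * Q' i - 2 * X i + Q i)
    (hB : ∀ i, (M i / M' i * B' i - B i) ^ 2 ≤ M i * γ i)
    (hS : ∀ i, (M i / M' i * Q' i - Q i) ^ 2 ≤ 4 * R ^ 2 * M i * γ i)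
    (hQ0 : ∀ i, 0 ≤ Q i) (hQM : ∀ i, Q i ≤ R ^ 2 * M i)
    (hdia : 0 ≤ ∑ i, ((X i - Q i) + Real.log (M i / M' i) * ((R ^ 2 * M i - Q i) / 2))) :
    ∑ i, (M i / M' i * B' i - B i) ^ 2 / M i ≤
      R ^ 2 * (4 * ∑ i, (M i - M' i) ^ 2 / M i + 2 * ∑ i, (M i - M' i) ^ 2 / M' i) := by
  have hkey : ∀ i, γ i / 2 + 2 * ((X i - Q i) + Real.log (M i / M' i) * ((R ^ 2 * M i - Q i) / 2)) ≤
      2 * R ^ 2 * ((M i - M' i) ^ 2 / M i) + R ^ 2 * ((M i - M' i) ^ 2 / M' i) + (Q' i - Q i) +
        R ^ 2 * (M i - M' i) := by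
    intro i
    have hMi := hM i
    have hMi' := hM' i
    set r := M i / M' i with hr
    have hr0 : 0 < r := div_pos hMi hMi'
    have hMr : M i = r * M' i := by rw [hr]; field_simp
    have hlog : Real.log r ≤ r - 1 := Real.log_le_sub_one_of_pos hr0
    have h1 : Real.log r * ((R ^ 2 * M i - Q i) / 2) ≤ (r - 1) * ((R ^ 2 * M i - Q i) / 2) :=
      mul_le_mul_of_nonneg_right hlog (by linarith [hQM i])
    -- Young inequality
    set c := (r - 1) / r with hc
    set D := r * Q' i - Q i with hD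
    have hp : 0 ≤ γ i / 2 := by linarith [hγ0 i]
    have hq : 0 ≤ 2 * R ^ 2 * (c ^ 2 * M i) := by positivity
    have hY : c * D ≤ γ i / 2 + 2 * R ^ 2 * (c ^ 2 * M i) := by
      have h2 : (c * D) ^ 2 ≤ (γ i / 2 + 2 * R ^ 2 * (c ^ 2 * M i)) ^ 2 := by
        have h3 := hS i
        have h4 : (c * D) ^ 2 = c ^ 2 * D ^ 2 := by ring
        have h5 : c ^ 2 * D ^ 2 ≤ c ^ 2 * (4 * R ^ 2 * M i * γ i) :=
          mul_le_mul_of_nonneg_left h3 (sq_nonneg _)
        nlinarith [sq_nonneg (γ i / 2 - 2 * R ^ 2 * (c ^ 2 * M i))]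
      exact abs_le_of_sq_le_sq' h2 (by positivity) |>.2
    have hc2 : c ^ 2 * M i = (M i - M' i) ^ 2 / M i := by
      rw [hc, hr]
      field_simp
    have hidentity : (r - 1) * (Q' i - Q i) = c * D - (r - 1) ^ 2 / r * Q i := by
      rw [hc, hD]
      field_simp
      ring
    have hneg : 0 ≤ (r - 1) ^ 2 / r * Q i := by
      have := hQ0 i
      positivity
    have hrM : (r - 1) * M i = (M i - M' i) ^ 2 / M' i + (M i - M' i) := by
      rw [hr]
      field_simp
      ring
    have hγi := hγ i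
    rw [← hr] at hγi
    rw [← hc2]
    have h6 : R ^ 2 * ((r - 1) * M i) = R ^ 2 * ((M i - M' i) ^ 2 / M' i) + R ^ 2 * (M i - M' i) := by
      rw [hrM]; ring
    have h7 : γ i = D - 2 * (X i - Q i) := by rw [hγi, hD]; ring
    have h8 : D = (r - 1) * Q' i + Q' i - Q i := by rw [hD]; ring
    nlinarith
  have hsum := Finset.sum_le_sum (s := Finset.univ) fun i _ => hkey i
  have hl : ∑ i, (γ i / 2 + 2 * ((X i - Q i) + Real.log (M i / M' i) * ((R ^ 2 * M i - Q i) / 2))) =
      ∑ i, (γ i / 2) +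
        2 * ∑ i, ((X i - Q i) + Real.log (M i / M' i) * ((R ^ 2 * M i - Q i) / 2)) := by
    rw [Finset.sum_add_distrib, Finset.mul_sum]
  have hr : ∑ i, (2 * R ^ 2 * ((M i - M' i) ^ 2 / M i) + R ^ 2 * ((M i - M' i) ^ 2 / M' i) +
        (Q' i - Q i) + R ^ 2 * (M i - M' i)) =
      2 * R ^ 2 * ∑ i, (M i - M' i) ^ 2 / M i + R ^ 2 * ∑ i, (M i - M' i) ^ 2 / M' i +
        (∑ i, Q' i - ∑ i, Q i) + R ^ 2 * (∑ i, M i - ∑ i, M' i) := by
    simp only [Finset.sum_add_distrib, Finset.sum_sub_distrib, ← Finset.mul_sum]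
  rw [hl, hr, hQs, hMs] at hsum
  have hsum2 : ∑ i, (γ i / 2) ≤ 2 * R ^ 2 * ∑ i, (M i - M' i) ^ 2 / M i +
      R ^ 2 * ∑ i, (M i - M' i) ^ 2 / M' i := by
    simp only [sub_self, mul_zero, add_zero] at hsum
    linarith
  have hB2 : ∀ i, (M i / M' i * B' i - B i) ^ 2 / M i ≤ γ i := fun i => by
    rw [div_le_iff₀ (hM i)]
    linarith [hB i]
  calc ∑ i, (M i / M' i * B' i - B i) ^ 2 / M i ≤ ∑ i, γ i := Finset.sum_le_sum fun i _ => hB2 i
    _ = 2 * ∑ i, (γ i / 2) := by
        rw [Finset.mul_sum]; exact Finset.sum_congr rfl fun i _ => by ring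
    _ ≤ _ := by nlinarith

/-- Additivity of the integral over an almost disjoint finite cover. -/
lemma sum_setIntegral_coord {ι : Type*} [Fintype ι] (k : Fin (n + 1)) {K : Set (Vec (n + 1))}
    (hKb : Bornology.IsBounded K) {L : ι → Set (Vec (n + 1))} (hm : ∀ i, MeasurableSet (L i))
    (hU : ⋃ i, L i = K) (hd : Pairwise (AEDisjoint volume on L)) {φ : ℝ → ℝ} (hφ : Continuous φ) :
    ∑ i, ∫ x in L i, φ (x k) = ∫ x in K, φ (x k) := by
  have h := integral_iUnion_ae (f := fun x : Vec (n + 1) => φ (x k)) (s := L) (μ := volume)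
    (fun i => (hm i).nullMeasurableSet) hd (by rw [hU]; exact integrableOn_coord k hKb hφ)
  rw [hU, tsum_fintype] at h
  exact h.symm

/-- **Core lemma.** Two almost partitions `L0`, `L1` of `K` into convex cells, which can be
interpolated by almost disjoint sets `Lε`, have first moments in the direction `k` controlled
by the discrepancy of their masses. -/
theorem core_lemma {ι : Type*} [Fintype ι] (k : Fin (n + 1)) {K : Set (Vec (n + 1))}
    (hKm : MeasurableSet K) (hKb : Bornology.IsBounded K) {R : ℝ} (hR : ∀ x ∈ K, |x k| ≤ R)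
    {L0 L1 : ι → Set (Vec (n + 1))} {Lε : ℝ → ι → Set (Vec (n + 1))}
    (h0c : ∀ i, Convex ℝ (L0 i)) (h1c : ∀ i, Convex ℝ (L1 i))
    (h0m : ∀ i, MeasurableSet (L0 i)) (h1m : ∀ i, MeasurableSet (L1 i))
    (h0U : ⋃ i, L0 i = K) (h1U : ⋃ i, L1 i = K)
    (h0d : Pairwise (AEDisjoint volume on L0)) (h1d : Pairwise (AEDisjoint volume on L1))
    (h0p : ∀ i, volume (L0 i) ≠ 0) (h1p : ∀ i, volume (L1 i) ≠ 0)
    (hεm : ∀ ε i, MeasurableSet (Lε ε i)) (hεK : ∀ ε i, Lε ε i ⊆ K)
    (hεd : ∀ ε, 0 < ε → ε < 1 → Pairwise (AEDisjoint volume on Lε ε))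
    (hinterp : ∀ ε, 0 < ε → ε < 1 → ∀ i, ∀ x ∈ L0 i, ∀ z ∈ L1 i, (1 - ε) • x + ε • z ∈ Lε ε i)
    {M M' B B' : ι → ℝ} (hM : ∀ i, M i = (volume (L0 i)).toReal)
    (hM' : ∀ i, M' i = (volume (L1 i)).toReal)
    (hB : ∀ i, B i = ∫ x in L0 i, x k) (hB' : ∀ i, B' i = ∫ x in L1 i, x k) :
    ∑ i, (M i / M' i * B' i - B i) ^ 2 / M i ≤
      R ^ 2 * (4 * ∑ i, (M i - M' i) ^ 2 / M i + 2 * ∑ i, (M i - M' i) ^ 2 / M' i) := by
  have h0sub : ∀ i, L0 i ⊆ K := fun i => by rw [← h0U]; exact subset_iUnion L0 i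
  have h1sub : ∀ i, L1 i ⊆ K := fun i => by rw [← h1U]; exact subset_iUnion L1 i
  have h0b : ∀ i, Bornology.IsBounded (L0 i) := fun i => hKb.subset (h0sub i)
  have h1b : ∀ i, Bornology.IsBounded (L1 i) := fun i => hKb.subset (h1sub i)
  set Q : ι → ℝ := fun i => ∫ x in L0 i, (x k) ^ 2 with hQ
  set Q' : ι → ℝ := fun i => ∫ x in L1 i, (x k) ^ 2 with hQ'
  choose X γ hγ0 hγ hBi hSi hint using fun i =>
    one_cell k (h0c i) (h1c i) (h0b i) (h1b i) (h0m i) (h1m i) (h0p i) (h1p i)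
      (fun x hx => hR x (h0sub i hx)) (fun x hx => hR x (h1sub i hx))
      (hM i) (hM' i) (Q := Q i) (Q' := Q' i) rfl rfl (hB i) (hB' i)
  have hMpos : ∀ i, 0 < M i := fun i => by
    rw [hM]; exact ENNReal.toReal_pos (h0p i) (h0b i).measure_lt_top.ne
  have hM'pos : ∀ i, 0 < M' i := fun i => by
    rw [hM']; exact ENNReal.toReal_pos (h1p i) (h1b i).measure_lt_top.ne
  -- sums of moments
  have hone : ∀ {E : Set (Vec (n + 1))}, ∫ x in E, (fun _ : ℝ => (1 : ℝ)) (x k) = (volume E).toReal := by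
    intro E
    simp [Measure.real]
  have hMs : ∑ i, M i = ∑ i, M' i := by
    have h1 := sum_setIntegral_coord k hKb h0m h0U h0d (φ := fun _ => (1 : ℝ)) continuous_const
    have h2 := sum_setIntegral_coord k hKb h1m h1U h1d (φ := fun _ => (1 : ℝ)) continuous_const
    simp only [hone] at h1 h2
    simp only [hM, hM']
    rw [h1, h2]
  have hQsK : ∑ i, Q i = ∫ x in K, (x k) ^ 2 :=
    sum_setIntegral_coord k hKb h0m h0U h0d (φ := fun t => t ^ 2) (continuous_pow 2)
  have hQs : ∑ i, Q i = ∑ i, Q' i := by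
    rw [hQsK]
    exact (sum_setIntegral_coord k hKb h1m h1U h1d (φ := fun t => t ^ 2) (continuous_pow 2)).symm
  have hQ0 : ∀ i, 0 ≤ Q i := fun i => setIntegral_nonneg (h0m i) fun x _ => sq_nonneg _
  have hsqK : ∀ x ∈ K, (x k) ^ 2 ≤ R ^ 2 := fun x hx => by
    rw [← sq_abs]; exact pow_le_pow_left₀ (abs_nonneg _) (hR x hx) 2
  have hζint : ∀ i, ∫ x in L0 i, (fun t => (R ^ 2 - t ^ 2) / 2) (x k) = (R ^ 2 * M i - Q i) / 2 := by
    intro i
    have h1 : IntegrableOn (fun x : Vec (n + 1) => (fun t : ℝ => t ^ 2) (x k)) (L0 i) :=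
      integrableOn_coord k (h0b i) (continuous_pow 2)
    have h2 : IntegrableOn (fun x : Vec (n + 1) => (fun _ : ℝ => R ^ 2) (x k)) (L0 i) :=
      integrableOn_coord k (h0b i) continuous_const
    have h3 : ∫ x in L0 i, (fun _ : ℝ => R ^ 2) (x k) = R ^ 2 * M i := by
      simp [Measure.real, hM, mul_comm]
    simp only at h3
    simp only [integral_div]
    rw [integral_sub h2 h1, h3]
  have hQM : ∀ i, Q i ≤ R ^ 2 * M i := fun i => by
    have h1 : 0 ≤ ∫ x in L0 i, (fun t => (R ^ 2 - t ^ 2) / 2) (x k) :=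
      setIntegral_nonneg (h0m i) fun x hx => by
        have := hsqK x (h0sub i hx)
        simp only
        linarith
    rw [hζint] at h1
    linarith
  have hαsum : ∑ i, ((R ^ 2 * M i - Q i) / 2) = ∫ x in K, (fun t => (R ^ 2 - t ^ 2) / 2) (x k) := by
    rw [← sum_setIntegral_coord k hKb h0m h0U h0d (φ := fun t => (R ^ 2 - t ^ 2) / 2) (by fun_prop)]
    exact Finset.sum_congr rfl fun i _ => (hζint i).symm
  -- the interpolation inequality
  have hε : ∀ ε : ℝ, 0 < ε → ε < 1 → ∑ i, ((M i / M' i) ^ (-ε) *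
      ((R ^ 2 * M i - Q i) / 2 - ε * (X i - Q i) - ε ^ 2 / 2 * γ i)) ≤
      ∑ i, ((R ^ 2 * M i - Q i) / 2) := by
    intro ε h0 h1
    have hnn : ∀ i, 0 ≤ (R ^ 2 * M i - Q i) / 2 - ε * (X i - Q i) - ε ^ 2 / 2 * γ i := fun i =>
      (hint i ε h0 h1 (Lε ε i) (hεm ε i) (hinterp ε h0 h1 i)).1
    have hle := fun i => (hint i ε h0 h1 (Lε ε i) (hεm ε i) (hinterp ε h0 h1 i)).2
    have hnn2 : ∀ i ∈ Finset.univ, 0 ≤ (M i / M' i) ^ (-ε) *
        ((R ^ 2 * M i - Q i) / 2 - ε * (X i - Q i) - ε ^ 2 / 2 * γ i) := fun i _ =>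
      mul_nonneg (Real.rpow_nonneg (div_pos (hMpos i) (hM'pos i)).le _) (hnn i)
    have hKint : ∫⁻ x in K, ENNReal.ofReal ((R ^ 2 - (x k) ^ 2) / 2) =
        ENNReal.ofReal (∫ x in K, (fun t => (R ^ 2 - t ^ 2) / 2) (x k)) := by
      rw [ofReal_integral_eq_lintegral_ofReal
        (integrableOn_coord k hKb (φ := fun t => (R ^ 2 - t ^ 2) / 2) (by fun_prop))]
      refine (ae_restrict_iff' hKm).2 (ae_of_all _ fun x hx => ?_)
      have := hsqK x hx
      simp only [Pi.zero_apply]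
      linarith
    have hchain : ENNReal.ofReal (∑ i, ((M i / M' i) ^ (-ε) *
        ((R ^ 2 * M i - Q i) / 2 - ε * (X i - Q i) - ε ^ 2 / 2 * γ i))) ≤
        ENNReal.ofReal (∫ x in K, (fun t => (R ^ 2 - t ^ 2) / 2) (x k)) := by
      rw [ENNReal.ofReal_sum_of_nonneg hnn2, ← hKint]
      calc _ ≤ ∑ i, ∫⁻ x in Lε ε i, ENNReal.ofReal ((R ^ 2 - (x k) ^ 2) / 2) :=
            Finset.sum_le_sum fun i _ => hle i
        _ = ∫⁻ x in ⋃ i, Lε ε i, ENNReal.ofReal ((R ^ 2 - (x k) ^ 2) / 2) := by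
            rw [lintegral_iUnion₀ (fun i => (hεm ε i).nullMeasurableSet) (hεd ε h0 h1),
              tsum_fintype]
        _ ≤ _ := lintegral_mono_set (iUnion_subset fun i => hεK ε i)
    rw [hαsum]
    refine (ENNReal.ofReal_le_ofReal_iff ?_).1 hchain
    rw [← hαsum]
    exact Finset.sum_nonneg fun i _ => by linarith [hQM i]
  -- the limit as the parameter tends to zero
  set l : ι → ℝ := fun i => Real.log (M i / M' i) with hl
  set A := ∑ i, ((X i - Q i) + l i * ((R ^ 2 * M i - Q i) / 2)) with hA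
  set Bc := ∑ i, (l i * (X i - Q i) - γ i / 2) with hBc
  set Cc := ∑ i, (l i * γ i / 2) with hCc
  have hpoly : ∀ ε : ℝ, 0 < ε → ε < 1 → ε * Bc + ε ^ 2 * Cc ≤ A := by
    intro ε h0 h1
    have h2 := hε ε h0 h1
    have h3 : ∑ i, ((1 - ε * l i) * ((R ^ 2 * M i - Q i) / 2 - ε * (X i - Q i) - ε ^ 2 / 2 * γ i)) ≤
        ∑ i, ((M i / M' i) ^ (-ε) *
          ((R ^ 2 * M i - Q i) / 2 - ε * (X i - Q i) - ε ^ 2 / 2 * γ i)) := by
      refine Finset.sum_le_sum fun i _ => mul_le_mul_of_nonneg_right ?_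
        (hint i ε h0 h1 (Lε ε i) (hεm ε i) (hinterp ε h0 h1 i)).1
      have hr : 0 < M i / M' i := div_pos (hMpos i) (hM'pos i)
      rw [Real.rpow_def_of_pos hr]
      have := Real.add_one_le_exp (Real.log (M i / M' i) * -ε)
      simp only [hl]
      linarith
    have h4 : ∑ i, ((1 - ε * l i) * ((R ^ 2 * M i - Q i) / 2 - ε * (X i - Q i) - ε ^ 2 / 2 * γ i)) =
        ∑ i, ((R ^ 2 * M i - Q i) / 2) - ε * A + ε ^ 2 * Bc + ε ^ 3 * Cc := by
      simp only [hA, hBc, hCc, Finset.mul_sum, ← Finset.sum_sub_distrib, ← Finset.sum_add_distrib]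
      exact Finset.sum_congr rfl fun i _ => by ring
    have h5 : -ε * A + ε ^ 2 * Bc + ε ^ 3 * Cc ≤ 0 := by linarith
    have h6 : ε * (-A + ε * Bc + ε ^ 2 * Cc) ≤ 0 := by nlinarith
    have h7 : -A + ε * Bc + ε ^ 2 * Cc ≤ 0 := by
      by_contra hcon
      push Not at hcon
      have := mul_pos h0 hcon
      linarith
    linarith
  have hdia : 0 ≤ A := by
    have hlim : Tendsto (fun ε : ℝ => ε * Bc + ε ^ 2 * Cc) (𝓝[>] 0) (𝓝 0) := by
      have hc : Continuous fun ε : ℝ => ε * Bc + ε ^ 2 * Cc := by fun_prop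
      have := hc.tendsto 0
      simp only [zero_mul, ne_eq, OfNat.ofNat_ne_zero, not_false_eq_true, zero_pow, add_zero] at this
      exact this.mono_left nhdsWithin_le_nhds
    refine le_of_tendsto hlim ?_
    filter_upwards [Ioo_mem_nhdsGT (zero_lt_one' ℝ)] with ε hε'
    exact hpoly ε hε'.1 hε'.2
  exact core_algebra hMpos hM'pos hMs hQs hγ0 hγ hBi hSi hQ0 hQM hdia

end Vale.Agent.Lib.P074

end
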