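import Vale.Agent.Lib.P074.Part1

section

open MeasureTheory Set Filter Topology Function
open scoped ENNReal

namespace Vale.Agent.Lib.P074

variable {d : ℕ} {ι : Type*} [Fintype ι]

/-- The affine function with slope `y i` and weight `h i`. -/
def aff (y : ι → Vec d) (h : ι → ℝ) (i : ι) (x : Vec d) : ℝ := x ⬝ᵥ y i - h i

/-- The convex piecewise affine potential. -/
noncomputable def pot [Nonempty ι] (y : ι → Vec d) (h : ι → ℝ) (x : Vec d) : ℝ :=
  Finset.univ.sup' Finset.univ_nonempty (fun i => aff y h i x)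

/-- The Laguerre cell in `K`. -/
def cell (K : Set (Vec d)) (y : ι → Vec d) (h : ι → ℝ) (i : ι) : Set (Vec d) :=
  {x | x ∈ K ∧ ∀ j, aff y h j x ≤ aff y h i x}

lemma continuous_dot_left (z : Vec d) : Continuous fun x : Vec d => x ⬝ᵥ z := by
  unfold dotProduct
  fun_prop

lemma continuous_aff (y : ι → Vec d) (h : ι → ℝ) (i : ι) : Continuous (aff y h i) :=
  (continuous_dot_left _).sub continuous_const

section pot

variable [Nonempty ι] (y : ι → Vec d) (h : ι → ℝ)

lemma aff_le_pot (i : ι) (x : Vec d) : aff y h i x ≤ pot y h x :=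
  Finset.le_sup' (fun i => aff y h i x) (Finset.mem_univ i)

lemma pot_le_iff {x : Vec d} {c : ℝ} : pot y h x ≤ c ↔ ∀ i, aff y h i x ≤ c := by
  simp [pot, Finset.sup'_le_iff]

lemma exists_pot_eq (x : Vec d) : ∃ i, pot y h x = aff y h i x := by
  obtain ⟨i, _, hi⟩ := Finset.exists_mem_eq_sup' Finset.univ_nonempty (fun i => aff y h i x)
  exact ⟨i, hi⟩

lemma continuous_pot : Continuous (pot y h) := by
  have : pot y h = fun x => Finset.univ.sup' Finset.univ_nonempty (fun i => aff y h i x) := rfl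
  rw [this]
  exact Continuous.finset_sup'_apply Finset.univ_nonempty fun i _ => continuous_aff y h i

lemma pot_eq_of_mem_cell {K : Set (Vec d)} {i : ι} {x : Vec d} (hx : x ∈ cell K y h i) :
    pot y h x = aff y h i x :=
  le_antisymm ((pot_le_iff y h).2 hx.2) (aff_le_pot y h i x)

lemma mem_cell_iff {K : Set (Vec d)} {i : ι} {x : Vec d} :
    x ∈ cell K y h i ↔ x ∈ K ∧ pot y h x ≤ aff y h i x := by
  simp [cell, pot_le_iff]

lemma iUnion_cell (K : Set (Vec d)) : ⋃ i, cell K y h i = K := by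
  apply Subset.antisymm
  · exact iUnion_subset fun i x hx => hx.1
  · intro x hx
    obtain ⟨i, hi⟩ := exists_pot_eq y h x
    refine mem_iUnion.2 ⟨i, (mem_cell_iff y h).2 ⟨hx, hi.le⟩⟩

end pot

lemma cell_subset (K : Set (Vec d)) (y : ι → Vec d) (h : ι → ℝ) (i : ι) : cell K y h i ⊆ K :=
  fun _ hx => hx.1

lemma measurableSet_cell {K : Set (Vec d)} (hK : MeasurableSet K) (y : ι → Vec d) (h : ι → ℝ)
    (i : ι) : MeasurableSet (cell K y h i) := by
  have : cell K y h i = K ∩ ⋂ j, {x | aff y h j x ≤ aff y h i x} := by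
    ext x; simp [cell]
  rw [this]
  refine hK.inter (MeasurableSet.iInter fun j => ?_)
  exact measurableSet_le (continuous_aff y h j).measurable (continuous_aff y h i).measurable

lemma dot_combo (p q : ℝ) (x z w : Vec d) :
    (p • x + q • z) ⬝ᵥ w = p * (x ⬝ᵥ w) + q * (z ⬝ᵥ w) := by
  rw [add_dotProduct, smul_dotProduct, smul_dotProduct, smul_eq_mul, smul_eq_mul]

lemma aff_combo (y : ι → Vec d) (h h' : ι → ℝ) (p q : ℝ) (hpq : p + q = 1) (i : ι) (x z : Vec d) :
    aff y (fun j => p * h j + q * h' j) i (p • x + q • z) =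
      p * aff y h i x + q * aff y h' i z := by
  simp only [aff, dot_combo]
  ring

lemma cell_combo {K : Set (Vec d)} (hK : Convex ℝ K) (y : ι → Vec d) (h h' : ι → ℝ) {p q : ℝ}
    (hp : 0 ≤ p) (hq : 0 ≤ q) (hpq : p + q = 1) {i : ι} {x z : Vec d}
    (hx : x ∈ cell K y h i) (hz : z ∈ cell K y h' i) :
    p • x + q • z ∈ cell K y (fun j => p * h j + q * h' j) i := by
  refine ⟨hK hx.1 hz.1 hp hq hpq, fun j => ?_⟩
  rw [aff_combo y h h' p q hpq, aff_combo y h h' p q hpq]
  exact add_le_add (mul_le_mul_of_nonneg_left (hx.2 j) hp) (mul_le_mul_of_nonneg_left (hz.2 j) hq)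

lemma convex_cell {K : Set (Vec d)} (hK : Convex ℝ K) (y : ι → Vec d) (h : ι → ℝ) (i : ι) :
    Convex ℝ (cell K y h i) := by
  intro x hx z hz p q hp hq hpq
  have := cell_combo hK y h h hp hq hpq hx hz
  have h2 : (fun j => p * h j + q * h j) = h := by
    ext j
    rw [← add_mul, hpq, one_mul]
  rwa [h2] at this

/-- A nontrivial hyperplane is a null set. -/
lemma volume_hyperplane {a : Vec d} (ha : a ≠ 0) (c : ℝ) : volume {x : Vec d | x ⬝ᵥ a = c} = 0 := by
  have haa : a ⬝ᵥ a ≠ 0 := by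
    intro h
    exact ha (dotProduct_self_eq_zero.1 h)
  set φ : Vec d →ₗ[ℝ] ℝ :=
    { toFun := fun x => x ⬝ᵥ a
      map_add' := fun x z => add_dotProduct x z a
      map_smul' := fun r x => by simp [smul_dotProduct] } with hφ
  set p : Vec d := (c / (a ⬝ᵥ a)) • a with hp
  have hpa : p ⬝ᵥ a = c := by
    rw [hp, smul_dotProduct, smul_eq_mul]
    field_simp
  set S : AffineSubspace ℝ (Vec d) := AffineSubspace.mk' p (LinearMap.ker φ) with hS
  have hmem : {x : Vec d | x ⬝ᵥ a = c} = (S : Set (Vec d)) := by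
    ext x
    simp only [mem_setOf_eq, SetLike.mem_coe, hS, AffineSubspace.mem_mk', LinearMap.mem_ker]
    have : φ (x -ᵥ p) = x ⬝ᵥ a - c := by
      simp only [hφ, vsub_eq_sub, LinearMap.coe_mk, AddHom.coe_mk, sub_dotProduct, hpa]
    rw [this, sub_eq_zero]
  rw [hmem]
  refine Measure.addHaar_affineSubspace volume S ?_
  intro htop
  have h1 : (p + a) ∈ S := by rw [htop]; exact AffineSubspace.mem_top _ _ _
  simp only [hS, AffineSubspace.mem_mk', LinearMap.mem_ker, vadd_eq_add, vsub_eq_sub,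
    add_sub_cancel_left] at h1
  exact haa h1

lemma aedisjoint_cell (K : Set (Vec d)) {y : ι → Vec d} (hy : Injective y) (h : ι → ℝ) :
    Pairwise (AEDisjoint volume on cell K y h) := by
  intro i j hij
  have hne : y i - y j ≠ 0 := sub_ne_zero.2 (hy.ne hij)
  refine measure_mono_null ?_ (volume_hyperplane hne (h i - h j))
  rintro x ⟨hxi, hxj⟩
  have h1 := hxi.2 j
  have h2 := hxj.2 i
  have h3 : aff y h i x = aff y h j x := le_antisymm h2 h1
  simp only [aff] at h3
  simp only [mem_setOf_eq, dotProduct_sub]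
  linarith

/-- Bound for the dot product in terms of sup norms. -/
lemma abs_dot_le (x z : Vec d) : |x ⬝ᵥ z| ≤ d * (‖x‖ * ‖z‖) := by
  unfold dotProduct
  calc |∑ k, x k * z k| ≤ ∑ k, |x k * z k| := Finset.abs_sum_le_sum_abs _ _
    _ ≤ ∑ _k : Fin d, ‖x‖ * ‖z‖ := by
        refine Finset.sum_le_sum fun k _ => ?_
        rw [abs_mul]
        exact mul_le_mul (norm_le_pi_norm x k) (norm_le_pi_norm z k) (abs_nonneg _) (norm_nonneg _)
    _ = _ := by simp

section lip

variable [Nonempty ι]

lemma pot_sub_le_of_forall {y y' : ι → Vec d} {h h' : ι → ℝ} {x : Vec d} {c : ℝ}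
    (hc : ∀ i, aff y h i x - aff y' h' i x ≤ c) : pot y h x ≤ pot y' h' x + c := by
  rw [pot_le_iff]
  intro i
  have := aff_le_pot y' h' i x
  linarith [hc i]

lemma abs_pot_sub_h (y : ι → Vec d) (h h' : ι → ℝ) (x : Vec d) :
    |pot y h x - pot y h' x| ≤ ‖h - h'‖ := by
  have hb : ∀ i, |h i - h' i| ≤ ‖h - h'‖ := fun i => by
    have := norm_le_pi_norm (h - h') i
    simpa using this
  rw [abs_le]
  constructor
  · have := pot_sub_le_of_forall (y := y) (y' := y) (h := h') (h' := h) (x := x) (c := ‖h - h'‖)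
      (fun i => by
        simp only [aff]
        have := (abs_le.1 (hb i)).2
        linarith)
    linarith
  · have := pot_sub_le_of_forall (y := y) (y' := y) (h := h) (h' := h') (x := x) (c := ‖h - h'‖)
      (fun i => by
        simp only [aff]
        have := (abs_le.1 (hb i)).1
        linarith)
    linarith

lemma abs_pot_sub_y (y y' : ι → Vec d) (h : ι → ℝ) (x : Vec d) :
    |pot y h x - pot y' h x| ≤ d * (‖x‖ * ‖y - y'‖) := by
  have hb : ∀ i, |x ⬝ᵥ y i - x ⬝ᵥ y' i| ≤ d * (‖x‖ * ‖y - y'‖) := fun i => by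
    rw [← dotProduct_sub]
    refine (abs_dot_le _ _).trans ?_
    have h1 : ‖y i - y' i‖ ≤ ‖y - y'‖ := norm_le_pi_norm (y - y') i
    gcongr
  rw [abs_le]
  constructor
  · have := pot_sub_le_of_forall (y := y') (y' := y) (h := h) (h' := h) (x := x)
      (c := d * (‖x‖ * ‖y - y'‖))
      (fun i => by
        simp only [aff]
        have := (abs_le.1 (hb i)).1
        linarith)
    linarith
  · have := pot_sub_le_of_forall (y := y) (y' := y') (h := h) (h' := h) (x := x)
      (c := d * (‖x‖ * ‖y - y'‖))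
      (fun i => by
        simp only [aff]
        have := (abs_le.1 (hb i)).2
        linarith)
    linarith

end lip

end Vale.Agent.Lib.P074

end

section

open MeasureTheory Set Filter Topology Function
open scoped ENNReal

namespace Vale.Agent.Lib.P074

variable {d : ℕ} {ι : Type*} [Fintype ι]

/-- Standing assumptions on a density on `K`. -/
structure Dens (K : Set (Vec d)) (g : Vec d → ℝ) (G : ℝ) : Prop where
  meas : Measurable g
  nonneg : ∀ x ∈ K, 0 ≤ g x
  le : ∀ x ∈ K, g x ≤ G

section dens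

variable {K : Set (Vec d)} {g : Vec d → ℝ} {G : ℝ}

lemma Dens.integrableOn_mul (hg : Dens K g G) (hK : IsCompact K) {f : Vec d → ℝ}
    (hf : Continuous f) : IntegrableOn (fun x => f x * g x) K := by
  obtain ⟨C, hC⟩ := hK.exists_bound_of_continuousOn hf.continuousOn
  have : IsFiniteMeasure (volume.restrict K) := ⟨by
    rw [Measure.restrict_apply_univ]; exact hK.measure_lt_top⟩
  refine Integrable.of_bound (hf.measurable.mul hg.meas).aestronglyMeasurable (C * |G|) ?_
  refine (ae_restrict_iff' hK.measurableSet).2 (ae_of_all _ fun x hx => ?_)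
  rw [norm_mul, Real.norm_eq_abs, Real.norm_eq_abs, abs_of_nonneg (hg.nonneg x hx)]
  exact mul_le_mul (hC x hx) ((hg.le x hx).trans (le_abs_self _)) (hg.nonneg x hx)
    ((norm_nonneg _).trans (hC x hx))

lemma Dens.integrableOn (hg : Dens K g G) (hK : IsCompact K) : IntegrableOn g K := by
  simpa using hg.integrableOn_mul hK (f := fun _ => (1 : ℝ)) continuous_const

end dens

section phi

variable [Nonempty ι] {K : Set (Vec d)} {g : Vec d → ℝ} {G : ℝ} {y : ι → Vec d} {M : ι → ℝ}

/-- The Kantorovich functional of the semi-discrete problem. -/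
noncomputable def Phi (K : Set (Vec d)) (y : ι → Vec d) (g : Vec d → ℝ) (M h : ι → ℝ) : ℝ :=
  (∫ x in K, pot y h x * g x) + ∑ i, M i * h i

lemma pot_add_const (y : ι → Vec d) (h : ι → ℝ) (c : ℝ) (x : Vec d) :
    pot y (fun i => h i + c) x = pot y h x - c := by
  apply le_antisymm
  · rw [pot_le_iff]
    intro i
    have := aff_le_pot y h i x
    simp only [aff] at this ⊢
    linarith
  · obtain ⟨i, hi⟩ := exists_pot_eq y h x
    have := aff_le_pot y (fun i => h i + c) i x
    rw [hi]
    simp only [aff] at this ⊢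
    linarith

lemma Phi_add_const (hK : IsCompact K) (hg : Dens K g G) (hsum : ∫ x in K, g x = ∑ i, M i)
    (y : ι → Vec d) (h : ι → ℝ) (c : ℝ) : Phi K y g M (fun i => h i + c) = Phi K y g M h := by
  simp only [Phi, pot_add_const, sub_mul, mul_add]
  rw [integral_sub (hg.integrableOn_mul hK (continuous_pot y h))
    ((hg.integrableOn hK).const_mul c), integral_const_mul, hsum,
    Finset.sum_add_distrib, ← Finset.sum_mul]
  ring

lemma continuous_Phi (hK : IsCompact K) (hg : Dens K g G) (y : ι → Vec d) :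
    Continuous (Phi K y g M) := by
  have hPhi : Phi K y g M = fun h => (∫ x in K, pot y h x * g x) + ∑ i, M i * h i := rfl
  rw [hPhi]
  refine Continuous.add ?_ (continuous_finset_sum _ fun i _ =>
    continuous_const.mul (continuous_apply i))
  have hlip : ∀ h h' : ι → ℝ, dist (∫ x in K, pot y h x * g x) (∫ x in K, pot y h' x * g x) ≤
      (∫ x in K, g x) * dist h h' := by
    intro h h'
    rw [Real.dist_eq, ← integral_sub (hg.integrableOn_mul hK (continuous_pot y h))
      (hg.integrableOn_mul hK (continuous_pot y h')), dist_eq_norm, ← integral_mul_const]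
    refine (abs_integral_le_integral_abs).trans ?_
    refine setIntegral_mono_on ?_ ?_ hK.measurableSet fun x hx => ?_
    · have := (hg.integrableOn_mul hK (continuous_pot y h)).sub
        (hg.integrableOn_mul hK (continuous_pot y h'))
      exact this.abs
    · exact (hg.integrableOn hK).mul_const _
    · rw [← sub_mul, abs_mul, abs_of_nonneg (hg.nonneg x hx), mul_comm]
      exact mul_le_mul_of_nonneg_left (abs_pot_sub_h y h h' x) (hg.nonneg x hx)
  have h0 : 0 ≤ ∫ x in K, g x := setIntegral_nonneg hK.measurableSet hg.nonneg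
  exact (LipschitzWith.of_dist_le_mul (K := ⟨_, h0⟩) (by
    intro h h'
    exact hlip h h')).continuous

/-- Existence of a minimizer of the Kantorovich functional in a box. -/
theorem exists_min (hK : IsCompact K) (hg : Dens K g G) (hM : ∀ i, 0 < M i)
    (hsum : ∫ x in K, g x = ∑ i, M i) {D : ℝ} (hD0 : 0 ≤ D) (hD : ∀ x ∈ K, ∀ i, |x ⬝ᵥ y i| ≤ D)
    {m : ℝ} (hm : 0 < m) (hmle : ∀ i, m ≤ M i) :
    ∃ h : ι → ℝ, (∀ i, 0 ≤ h i ∧ h i ≤ 2 * D * (∑ i, M i) / m) ∧
      ∀ h', Phi K y g M h ≤ Phi K y g M h' := by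
  set Mt := ∑ i, M i with hMt
  have hMt0 : 0 ≤ Mt := Finset.sum_nonneg fun i _ => (hM i).le
  set B := 2 * D * Mt / m with hB
  have hB0 : 0 ≤ B := by positivity
  have hmB : m * B = 2 * D * Mt := by rw [hB]; field_simp
  set S : Set (ι → ℝ) := Set.pi univ fun _ => Icc 0 B with hS
  have hScomp : IsCompact S := isCompact_univ_pi fun _ => isCompact_Icc
  have hSne : S.Nonempty := ⟨0, fun i _ => ⟨le_rfl, hB0⟩⟩
  obtain ⟨h, hhS, hmin⟩ := hScomp.exists_isMinOn hSne (continuous_Phi hK hg y).continuousOn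
  have hmin' : ∀ h' ∈ S, Phi K y g M h ≤ Phi K y g M h' := fun h' hh' => hmin hh'
  refine ⟨h, fun i => hhS i (mem_univ i), fun h' => ?_⟩
  -- the value at zero
  have hPhi0 : Phi K y g M 0 ≤ D * Mt := by
    have h1 : ∫ x in K, pot y 0 x * g x ≤ ∫ x in K, D * g x := by
      refine setIntegral_mono_on (hg.integrableOn_mul hK (continuous_pot y 0))
        ((hg.integrableOn hK).const_mul _) hK.measurableSet fun x hx => ?_
      refine mul_le_mul_of_nonneg_right ?_ (hg.nonneg x hx)
      rw [pot_le_iff]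
      intro i
      have := (abs_le.1 (hD x hx i)).2
      simpa [aff] using this
    rw [integral_const_mul, hsum] at h1
    simpa [Phi] using h1
  -- normalization
  obtain ⟨i₀, _, hi₀⟩ := Finset.exists_min_image Finset.univ h' Finset.univ_nonempty
  set c := h' i₀ with hc
  set h'' : ι → ℝ := fun i => h' i + (-c) with hh''
  have heq : Phi K y g M h'' = Phi K y g M h' := Phi_add_const hK hg hsum y h' (-c)
  rw [← heq]
  have hnn : ∀ i, 0 ≤ h'' i := fun i => by
    have := hi₀ i (Finset.mem_univ i)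
    simp only [hh'']
    linarith
  by_cases hbox : ∀ i, h'' i ≤ B
  · exact hmin' _ fun i _ => ⟨hnn i, hbox i⟩
  · push Not at hbox
    obtain ⟨i₁, hi₁⟩ := hbox
    have h2 : -(D * Mt) + M i₁ * h'' i₁ ≤ Phi K y g M h'' := by
      have h3 : ∫ x in K, (-D) * g x ≤ ∫ x in K, pot y h'' x * g x := by
        refine setIntegral_mono_on ((hg.integrableOn hK).const_mul _)
          (hg.integrableOn_mul hK (continuous_pot y h'')) hK.measurableSet fun x hx => ?_
        refine mul_le_mul_of_nonneg_right ?_ (hg.nonneg x hx)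
        have h4 := aff_le_pot y h'' i₀ x
        have h5 := (abs_le.1 (hD x hx i₀)).1
        have h6 : h'' i₀ = 0 := by simp [hh'', hc]
        simp only [aff, h6, sub_zero] at h4
        linarith
      rw [integral_const_mul, hsum] at h3
      have h7 : M i₁ * h'' i₁ ≤ ∑ i, M i * h'' i :=
        Finset.single_le_sum (f := fun i => M i * h'' i)
          (fun i _ => mul_nonneg (hM i).le (hnn i)) (Finset.mem_univ i₁)
      simp only [Phi]
      linarith
    have h8 : m * B ≤ M i₁ * h'' i₁ :=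
      mul_le_mul (hmle i₁) hi₁.le hB0 (hM i₁).le
    have h9 : Phi K y g M h ≤ Phi K y g M 0 := hmin' 0 fun i _ => ⟨le_rfl, hB0⟩
    nlinarith

/-- Additivity over the cells. -/
lemma sum_setIntegral_cell (hK : IsCompact K) (hy : Injective y) (h : ι → ℝ) {f : Vec d → ℝ}
    (hf : IntegrableOn f K) : ∑ i, ∫ x in cell K y h i, f x = ∫ x in K, f x := by
  have h1 := integral_iUnion_ae (f := f) (s := cell K y h) (μ := volume)
    (fun i => (measurableSet_cell hK.measurableSet y h i).nullMeasurableSet)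
    (aedisjoint_cell K hy h) (by rw [iUnion_cell]; exact hf)
  rw [iUnion_cell, tsum_fintype] at h1
  exact h1.symm

/-- First order condition at a minimizer: the mass of the closed cell is at least the target. -/
theorem foc_le (hK : IsCompact K) (hg : Dens K g G) {h : ι → ℝ}
    (hmin : ∀ h', Phi K y g M h ≤ Phi K y g M h') (i : ι) :
    M i ≤ ∫ x in cell K y h i, g x := by
  classical
  have hU : ∀ τ : ℝ, 0 < τ → M i ≤ ∫ x in K ∩ {x | pot y h x - aff y h i x < τ}, g x := by
    intro τ hτ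
    set h' := Function.update h i (h i - τ) with hh'
    have hle := hmin h'
    set U := {x | pot y h x - aff y h i x < τ} with hUdef
    have hUm : MeasurableSet U :=
      measurableSet_lt ((continuous_pot y h).sub (continuous_aff y h i)).measurable
        measurable_const
    have hpt : ∀ x, pot y h' x - pot y h x ≤ U.indicator (fun _ => τ) x := by
      intro x
      by_cases hx : x ∈ U
      · simp only [hx, indicator_of_mem]
        have : pot y h' x ≤ pot y h x + τ := by
          rw [pot_le_iff]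
          intro j
          have h1 := aff_le_pot y h j x
          have h2 : aff y h' j x ≤ aff y h j x + τ := by
            by_cases hj : j = i
            · subst hj
              simp [aff, hh']
            · simp only [aff, hh', Function.update_of_ne hj]
              linarith
          linarith
        linarith
      · simp only [hx, not_false_eq_true, indicator_of_notMem]
        have hx' : τ ≤ pot y h x - aff y h i x := not_lt.1 hx
        have : pot y h' x ≤ pot y h x := by
          rw [pot_le_iff]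
          intro j
          by_cases hj : j = i
          · subst hj
            simp only [aff, hh', Function.update_self] at hx' ⊢
            linarith
          · simp only [aff, hh', Function.update_of_ne hj]
            exact aff_le_pot y h j x
        linarith
    have hint1 : ∫ x in K, pot y h' x * g x ≤ (∫ x in K, pot y h x * g x) +
        τ * ∫ x in K ∩ U, g x := by
      have hi1 := hg.integrableOn_mul hK (continuous_pot y h)
      have hi2 : IntegrableOn (U.indicator fun x => τ * g x) K :=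
        ((hg.integrableOn hK).const_mul τ).indicator hUm
      calc ∫ x in K, pot y h' x * g x ≤ ∫ x in K, (pot y h x * g x + U.indicator (fun x => τ * g x) x) := by
            refine setIntegral_mono_on (hg.integrableOn_mul hK (continuous_pot y h'))
              (hi1.add hi2) hK.measurableSet fun x hx => ?_
            have h3 := mul_le_mul_of_nonneg_right (hpt x) (hg.nonneg x hx)
            have h4 : U.indicator (fun _ => τ) x * g x = U.indicator (fun x => τ * g x) x := by
              by_cases hxU : x ∈ U <;> simp [hxU]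
            rw [h4, sub_mul] at h3
            linarith
        _ = (∫ x in K, pot y h x * g x) + ∫ x in K, U.indicator (fun x => τ * g x) x :=
            integral_add hi1 hi2
        _ = _ := by
            rw [setIntegral_indicator hUm, integral_const_mul]
    have hsum' : ∑ j, M j * h' j = ∑ j, M j * h j - τ * M i := by
      have h5 : ∀ j, M j * h' j = M j * h j - (if j = i then τ * M i else 0) := by
        intro j
        by_cases hj : j = i
        · subst hj
          simp only [hh', Function.update_self, if_true]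
          ring
        · simp [hh', Function.update_of_ne hj, hj]
      simp only [h5, Finset.sum_sub_distrib, Finset.sum_ite_eq', Finset.mem_univ, if_true]
    simp only [Phi] at hle
    rw [hsum'] at hle
    have h6 : τ * M i ≤ τ * ∫ x in K ∩ U, g x := by linarith
    exact le_of_mul_le_mul_left h6 hτ
  set V : ℕ → Set (Vec d) := fun m => K ∩ {x | pot y h x - aff y h i x < 1 / ((m : ℝ) + 1)} with hV
  have hVm : ∀ m, MeasurableSet (V m) := fun m => hK.measurableSet.inter
    (measurableSet_lt ((continuous_pot y h).sub (continuous_aff y h i)).measurable measurable_const)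
  have hVanti : Antitone V := by
    intro m m' hmm x hx
    have h0 : (m : ℝ) ≤ m' := by exact_mod_cast hmm
    have h1 : 1 / ((m' : ℝ) + 1) ≤ 1 / ((m : ℝ) + 1) :=
      one_div_le_one_div_of_le (by positivity) (by linarith)
    exact ⟨hx.1, lt_of_lt_of_le hx.2 h1⟩
  have hVint : ⋂ m, V m = cell K y h i := by
    ext x
    simp only [mem_iInter, hV, mem_inter_iff, mem_setOf_eq, mem_cell_iff y h]
    constructor
    · intro hx
      refine ⟨(hx 0).1, ?_⟩
      have : pot y h x - aff y h i x ≤ 0 := by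
        refine le_of_forall_pos_le_add fun e he => ?_
        obtain ⟨m, hm⟩ := exists_nat_one_div_lt he
        have := (hx m).2
        linarith
      linarith
    · rintro ⟨hx, hp⟩ m
      refine ⟨hx, lt_of_le_of_lt (by linarith) (by positivity : (0 : ℝ) < 1 / ((m : ℝ) + 1))⟩
  have hlim := tendsto_setIntegral_of_antitone (μ := volume) (f := g) hVm hVanti
    ⟨0, (hg.integrableOn hK).mono_set inter_subset_left⟩
  rw [hVint] at hlim
  exact ge_of_tendsto' hlim fun m => hU _ (by positivity)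

/-- A minimizer has exact cell masses when the sites are distinct. -/
theorem exact_of_min (hK : IsCompact K) (hy : Injective y) (hg : Dens K g G)
    (hsum : ∫ x in K, g x = ∑ i, M i) {h : ι → ℝ}
    (hmin : ∀ h', Phi K y g M h ≤ Phi K y g M h') (i : ι) :
    ∫ x in cell K y h i, g x = M i := by
  have h1 : ∑ i, ∫ x in cell K y h i, g x = ∑ i, M i := by
    rw [sum_setIntegral_cell hK hy h (hg.integrableOn hK), hsum]
  have h2 := (Finset.sum_eq_sum_iff_of_le (s := Finset.univ)
    (fun i _ => foc_le hK hg hmin i)).1 h1.symm i (Finset.mem_univ i)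
  exact h2.symm

/-- Exactness of a vector of weights. -/
def IsExact (K : Set (Vec d)) (y : ι → Vec d) (g : Vec d → ℝ) (M h : ι → ℝ) : Prop :=
  ∀ i, ∫ x in cell K y h i, g x = M i

/-- The first moment of a cell. -/
noncomputable def mom (K : Set (Vec d)) (y : ι → Vec d) (g : Vec d → ℝ) (h : ι → ℝ) (i : ι) :
    Vec d := fun k => ∫ x in cell K y h i, x k * g x

lemma integrableOn_cell_mul (hK : IsCompact K) (hg : Dens K g G) (y : ι → Vec d) (h : ι → ℝ)
    (i : ι) {f : Vec d → ℝ} (hf : Continuous f) : IntegrableOn (fun x => f x * g x) (cell K y h i) :=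
  (hg.integrableOn_mul hK hf).mono_set (cell_subset K y h i)

lemma integral_cell_dot (hK : IsCompact K) (hg : Dens K g G) (y : ι → Vec d) (h : ι → ℝ) (i : ι)
    (z : Vec d) : ∫ x in cell K y h i, (x ⬝ᵥ z) * g x = mom K y g h i ⬝ᵥ z := by
  simp only [dotProduct, Finset.sum_mul, mom]
  rw [integral_finset_sum]
  · refine Finset.sum_congr rfl fun k _ => ?_
    rw [← integral_mul_const]
    refine integral_congr_ae (ae_of_all _ fun x => ?_)
    simp only
    ring
  · intro k _
    have := (integrableOn_cell_mul hK hg y h i (f := fun x => x k) (continuous_apply k)).mul_const (z k)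
    refine this.congr (ae_of_all _ fun x => ?_)
    simp only
    ring

/-- The key subgradient inequality for the semi-discrete functional. -/
theorem mom_dot_le_Phi (hK : IsCompact K) (hy : Injective y) (hg : Dens K g G) {h : ι → ℝ}
    (hex : IsExact K y g M h) (y' : ι → Vec d) (h' : ι → ℝ) :
    ∑ i, mom K y g h i ⬝ᵥ y' i ≤ Phi K y' g M h' := by
  have h1 : ∫ x in K, pot y' h' x * g x = ∑ i, ∫ x in cell K y h i, pot y' h' x * g x :=
    (sum_setIntegral_cell hK hy h (hg.integrableOn_mul hK (continuous_pot y' h'))).symm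
  have h2 : ∀ i, mom K y g h i ⬝ᵥ y' i - h' i * M i ≤ ∫ x in cell K y h i, pot y' h' x * g x := by
    intro i
    rw [← hex i, ← integral_cell_dot hK hg y h i (y' i), ← integral_const_mul,
      ← integral_sub (integrableOn_cell_mul hK hg y h i (f := fun x => x ⬝ᵥ y' i)
        (continuous_dot_left _)) ((hg.integrableOn hK).mono_set (cell_subset K y h i) |>.const_mul _)]
    refine setIntegral_mono_on ?_ (integrableOn_cell_mul hK hg y h i (continuous_pot y' h'))
      (measurableSet_cell hK.measurableSet y h i) fun x hx => ?_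
    · exact (integrableOn_cell_mul hK hg y h i (f := fun x => x ⬝ᵥ y' i)
        (continuous_dot_left _)).sub
        ((hg.integrableOn hK).mono_set (cell_subset K y h i) |>.const_mul _)
    · have h3 := aff_le_pot y' h' i x
      have h4 := mul_le_mul_of_nonneg_right h3 (hg.nonneg x hx.1)
      simp only [aff, sub_mul] at h4
      exact h4
  have h3 := Finset.sum_le_sum fun i (_ : i ∈ Finset.univ) => h2 i
  rw [Finset.sum_sub_distrib, ← h1] at h3
  have h4 : ∑ i, h' i * M i = ∑ i, M i * h' i := Finset.sum_congr rfl fun i _ => mul_comm _ _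
  rw [h4] at h3
  simp only [Phi]
  linarith

/-- The value of the functional at exact weights. -/
theorem Phi_eq_of_exact (hK : IsCompact K) (hy : Injective y) (hg : Dens K g G) {h : ι → ℝ}
    (hex : IsExact K y g M h) : Phi K y g M h = ∑ i, mom K y g h i ⬝ᵥ y i := by
  have h1 : ∫ x in K, pot y h x * g x = ∑ i, ∫ x in cell K y h i, pot y h x * g x :=
    (sum_setIntegral_cell hK hy h (hg.integrableOn_mul hK (continuous_pot y h))).symm
  have h2 : ∀ i, ∫ x in cell K y h i, pot y h x * g x = mom K y g h i ⬝ᵥ y i - h i * M i := by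
    intro i
    rw [← hex i, ← integral_cell_dot hK hg y h i (y i), ← integral_const_mul,
      ← integral_sub (integrableOn_cell_mul hK hg y h i (f := fun x => x ⬝ᵥ y i)
        (continuous_dot_left _)) ((hg.integrableOn hK).mono_set (cell_subset K y h i) |>.const_mul _)]
    refine setIntegral_congr_fun (measurableSet_cell hK.measurableSet y h i) fun x hx => ?_
    simp only [pot_eq_of_mem_cell y h hx, aff, sub_mul]
  simp only [Phi]
  rw [h1]
  simp only [h2, Finset.sum_sub_distrib]
  have h4 : ∑ i, h i * M i = ∑ i, M i * h i := Finset.sum_congr rfl fun i _ => mul_comm _ _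
  rw [h4]
  ring

end phi

end Vale.Agent.Lib.P074

end

section

open MeasureTheory Set Filter Topology Function
open scoped ENNReal

namespace Vale.Agent.Lib.P074

variable {d : ℕ} {ι : Type*} [Fintype ι]

/-- Cauchy-Schwarz for bounded functions on a measurable set of finite measure. -/
lemma sq_setIntegral_mul_le {E : Set (Vec d)} (hE : MeasurableSet E) (hEf : volume E ≠ ∞)
    {f w : Vec d → ℝ} (hf : Measurable f) (hw : Measurable w) {C D : ℝ}
    (hfC : ∀ x ∈ E, |f x| ≤ C) (hwD : ∀ x ∈ E, |w x| ≤ D) :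
    (∫ x in E, f x * w x) ^ 2 ≤ (∫ x in E, (f x) ^ 2) * ∫ x in E, (w x) ^ 2 := by
  have : IsFiniteMeasure (volume.restrict E) := ⟨by
    rw [Measure.restrict_apply_univ]; exact lt_top_iff_ne_top.2 hEf⟩
  have hint : ∀ {u v : Vec d → ℝ} {A B : ℝ}, Measurable u → Measurable v →
      (∀ x ∈ E, |u x| ≤ A) → (∀ x ∈ E, |v x| ≤ B) → IntegrableOn (fun x => u x * v x) E := by
    intro u v A B hu hv huA hvB
    refine Integrable.of_bound (hu.mul hv).aestronglyMeasurable (A * B) ?_
    refine (ae_restrict_iff' hE).2 (ae_of_all _ fun x hx => ?_)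
    rw [norm_mul, Real.norm_eq_abs, Real.norm_eq_abs]
    exact mul_le_mul (huA x hx) (hvB x hx) (abs_nonneg _) ((abs_nonneg _).trans (huA x hx))
  have i1 := hint hf hf hfC hfC
  have i2 := hint hf hw hfC hwD
  have i3 := hint hw hw hwD hwD
  have hq : ∀ c : ℝ, 0 ≤ (∫ x in E, (w x) ^ 2) * (c * c) + (2 * ∫ x in E, f x * w x) * c +
      ∫ x in E, (f x) ^ 2 := by
    intro c
    have h0 : 0 ≤ ∫ x in E, (f x + c * w x) ^ 2 := setIntegral_nonneg hE fun x _ => sq_nonneg _
    have i2' : IntegrableOn (fun x => (2 * c) * (f x * w x)) E := i2.const_mul _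
    have i3' : IntegrableOn (fun x => (c * c) * (w x * w x)) E := i3.const_mul _
    have i12 : IntegrableOn (fun x => f x * f x + (2 * c) * (f x * w x)) E := i1.add i2'
    have h1 : ∫ x in E, (f x + c * w x) ^ 2 =
        (∫ x in E, f x * f x) + (2 * c) * (∫ x in E, f x * w x) +
          (c * c) * ∫ x in E, w x * w x := by
      have e5 : ∫ x in E, (f x + c * w x) ^ 2 =
          ∫ x in E, (f x * f x + (2 * c) * (f x * w x) + (c * c) * (w x * w x)) := by
        refine integral_congr_ae (ae_of_all _ fun x => ?_)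
        simp only
        ring
      rw [e5, integral_add i12 i3', integral_add i1 i2', integral_const_mul, integral_const_mul]
    simp only [pow_two] at h0 h1 ⊢
    rw [h1] at h0
    nlinarith
  have hd := discrim_le_zero hq
  rw [discrim] at hd
  nlinarith

/-- Per cell algebra for the comparison of the moments of a perturbed density. -/
lemma cell_algebra {M M' A Z W B B' C s R : ℝ} (hM : 0 < M) (hM' : 0 < M') (hMM : M' ≤ 2 * M)
    (hMeq : M = M' + s * A) (hC : C = B' + s * Z) (hA : A ^ 2 ≤ M' * W) (hZ : Z ^ 2 ≤ R ^ 2 * M' * W)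
    (hB' : B' ^ 2 ≤ R ^ 2 * M' ^ 2) (hW : 0 ≤ W) :
    (C - B) ^ 2 / M ≤ 2 * ((M / M' * B' - B) ^ 2 / M) + 16 * s ^ 2 * R ^ 2 * W := by
  have h1 : C - M / M' * B' = s * (Z - A * (B' / M')) := by
    rw [hC, hMeq]
    field_simp
    ring
  have h2 : (Z - A * (B' / M')) ^ 2 ≤ 4 * R ^ 2 * M' * W := by
    have h3 : (A * (B' / M')) ^ 2 ≤ R ^ 2 * M' * W := by
      have h4 : (B' / M') ^ 2 ≤ R ^ 2 := by
        rw [div_pow, div_le_iff₀ (by positivity)]
        exact hB'
      calc (A * (B' / M')) ^ 2 = A ^ 2 * (B' / M') ^ 2 := by ring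
        _ ≤ (M' * W) * R ^ 2 := mul_le_mul hA h4 (sq_nonneg _) (by positivity)
        _ = _ := by ring
    nlinarith [sq_nonneg (Z + A * (B' / M'))]
  have h5 : (C - M / M' * B') ^ 2 ≤ s ^ 2 * (4 * R ^ 2 * M' * W) := by
    rw [h1, mul_pow]
    exact mul_le_mul_of_nonneg_left h2 (sq_nonneg _)
  have h6 : (C - B) ^ 2 ≤ 2 * (M / M' * B' - B) ^ 2 + 2 * (C - M / M' * B') ^ 2 := by
    nlinarith [sq_nonneg ((M / M' * B' - B) - (C - M / M' * B'))]
  rw [div_le_iff₀ hM]
  have h7 : 2 * ((M / M' * B' - B) ^ 2 / M) * M = 2 * (M / M' * B' - B) ^ 2 := by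
    field_simp
  rw [add_mul, h7]
  have h8 : s ^ 2 * R ^ 2 * W * M' ≤ s ^ 2 * R ^ 2 * W * (2 * M) :=
    mul_le_mul_of_nonneg_left hMM (by positivity)
  nlinarith

variable [Nonempty ι]

/-- The core estimate for exact weights: moving from the uniform density to a small bounded
perturbation moves the cell moments by an amount controlled by the `L²` norm of the perturbation. -/
theorem exact_pair_bound {n : ℕ} {K : Set (Vec (n + 1))} (hK : IsCompact K) (hKc : Convex ℝ K)
    {y : ι → Vec (n + 1)} (hy : Injective y) {M : ι → ℝ} (hM : ∀ i, 0 < M i)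
    {w : Vec (n + 1) → ℝ} (hw : Measurable w) {W s : ℝ} (hwW : ∀ x ∈ K, |w x| ≤ W)
    (hsW : |s| * W ≤ 1 / 2) {R : ℝ} (hR : ∀ x ∈ K, ∀ k, |x k| ≤ R)
    {h h' : ι → ℝ} (hex0 : IsExact K y (fun _ => 1) M h)
    (hex1 : IsExact K y (fun x => 1 + s * w x) M h') (k : Fin (n + 1)) :
    ∑ i, (mom K y (fun x => 1 + s * w x) h' i k - mom K y (fun _ => 1) h i k) ^ 2 / M i ≤
      36 * s ^ 2 * R ^ 2 * ∫ x in K, (w x) ^ 2 := by
  have hKm := hK.measurableSet
  have hKb := hK.isBounded
  set L0 := cell K y h with hL0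
  set L1 := cell K y h' with hL1
  have h0m : ∀ i, MeasurableSet (L0 i) := measurableSet_cell hKm y h
  have h1m : ∀ i, MeasurableSet (L1 i) := measurableSet_cell hKm y h'
  have h0b : ∀ i, Bornology.IsBounded (L0 i) := fun i => hKb.subset (cell_subset K y h i)
  have h1b : ∀ i, Bornology.IsBounded (L1 i) := fun i => hKb.subset (cell_subset K y h' i)
  have h1sub : ∀ i, L1 i ⊆ K := cell_subset K y h'
  have h1f : ∀ i, volume (L1 i) ≠ ∞ := fun i => (h1b i).measure_lt_top.ne
  -- masses
  set M' : ι → ℝ := fun i => (volume (L1 i)).toReal with hM'def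
  have hM0 : ∀ i, M i = (volume (L0 i)).toReal := by
    intro i
    have := hex0 i
    rw [← this]
    simp [Measure.real, hL0]
  have h0p : ∀ i, volume (L0 i) ≠ 0 := by
    intro i h2
    have := hM0 i
    rw [h2] at this
    simp only [ENNReal.toReal_zero] at this
    exact (hM i).ne' this
  have h1p : ∀ i, volume (L1 i) ≠ 0 := by
    intro i h2
    have h3 := hex1 i
    rw [setIntegral_measure_zero _ h2] at h3
    exact (hM i).ne h3
  have hM'pos : ∀ i, 0 < M' i := fun i => ENNReal.toReal_pos (h1p i) (h1f i)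
  -- integrals on L1
  have hwm : ∀ i, ∀ x ∈ L1 i, |w x| ≤ W := fun i x hx => hwW x (h1sub i hx)
  have hW0 : ∀ i, ∀ x ∈ L1 i, 0 ≤ W := fun i x hx => (abs_nonneg _).trans (hwm i x hx)
  have hint : ∀ i, IntegrableOn w (L1 i) := by
    intro i
    have : IsFiniteMeasure (volume.restrict (L1 i)) := ⟨by
      rw [Measure.restrict_apply_univ]; exact lt_top_iff_ne_top.2 (h1f i)⟩
    refine Integrable.of_bound hw.aestronglyMeasurable W ?_
    exact (ae_restrict_iff' (h1m i)).2 (ae_of_all _ fun x hx => hwm i x hx)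
  set A : ι → ℝ := fun i => ∫ x in L1 i, w x with hA
  set Z : ι → ℝ := fun i => ∫ x in L1 i, x k * w x with hZ
  set Wi : ι → ℝ := fun i => ∫ x in L1 i, (w x) ^ 2 with hWi
  set B : ι → ℝ := fun i => ∫ x in L0 i, x k with hB
  set B' : ι → ℝ := fun i => ∫ x in L1 i, x k with hB'
  have hWi0 : ∀ i, 0 ≤ Wi i := fun i => setIntegral_nonneg (h1m i) fun x _ => sq_nonneg _
  have hMeq : ∀ i, M i = M' i + s * A i := by
    intro i
    have hc1 : IntegrableOn (fun _ : Vec (n + 1) => (1 : ℝ)) (L1 i) :=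
      integrableOn_const (h1f i) (by simp)
    have hc2 : IntegrableOn (fun x => s * w x) (L1 i) := (hint i).const_mul s
    rw [← hex1 i, integral_add hc1 hc2, integral_const_mul]
    simp [Measure.real, hM'def, hA]
  have hsum1 : ∑ i, Wi i = ∫ x in K, (w x) ^ 2 := by
    refine sum_setIntegral_cell hK hy h' ?_
    have : IsFiniteMeasure (volume.restrict K) := ⟨by
      rw [Measure.restrict_apply_univ]; exact hK.measure_lt_top⟩
    refine Integrable.of_bound (hw.pow_const 2).aestronglyMeasurable (W ^ 2) ?_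
    refine (ae_restrict_iff' hKm).2 (ae_of_all _ fun x hx => ?_)
    rw [Real.norm_eq_abs, abs_pow]
    exact pow_le_pow_left₀ (abs_nonneg _) (hwW x hx) 2
  have hone : ∀ i, ∫ x in L1 i, ((1 : ℝ)) ^ 2 = M' i := by
    intro i
    simp [Measure.real, hM'def]
  have hA2 : ∀ i, (A i) ^ 2 ≤ M' i * Wi i := by
    intro i
    have := sq_setIntegral_mul_le (h1m i) (h1f i) (f := fun _ => (1 : ℝ)) measurable_const hw
      (C := 1) (fun _ _ => by simp) (hwm i)
    simp only [one_mul] at this
    rw [hone] at this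
    exact this
  have hxsq : ∀ i, ∫ x in L1 i, (x k) ^ 2 ≤ R ^ 2 * M' i := by
    intro i
    have h3 : ∫ x in L1 i, (x k) ^ 2 ≤ ∫ x in L1 i, R ^ 2 := by
      refine setIntegral_mono_on (integrableOn_coord k (h1b i) (continuous_pow 2))
        (integrableOn_const (h1f i) (by simp)) (h1m i) fun x hx => ?_
      rw [← sq_abs]
      exact pow_le_pow_left₀ (abs_nonneg _) (hR x (h1sub i hx) k) 2
    refine h3.trans (le_of_eq ?_)
    simp [Measure.real, hM'def, mul_comm]
  have hZ2 : ∀ i, (Z i) ^ 2 ≤ R ^ 2 * M' i * Wi i := by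
    intro i
    have := sq_setIntegral_mul_le (h1m i) (h1f i) (f := fun x => x k) (measurable_pi_apply k) hw
      (C := R) (fun x hx => hR x (h1sub i hx) k) (hwm i)
    refine this.trans (mul_le_mul_of_nonneg_right (hxsq i) (hWi0 i))
  have hB'2 : ∀ i, (B' i) ^ 2 ≤ R ^ 2 * (M' i) ^ 2 := by
    intro i
    have h3 : |B' i| ≤ R * M' i := by
      have h4 := norm_setIntegral_le_of_norm_le_const (μ := volume) (s := L1 i)
        (f := fun x : Vec (n + 1) => x k) (C := R) (h1b i).measure_lt_top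
        (fun x hx => hR x (h1sub i hx) k)
      simpa [Measure.real, hM'def] using h4
    have h5 : (B' i) ^ 2 ≤ (R * M' i) ^ 2 := by
      rw [← sq_abs]; exact pow_le_pow_left₀ (abs_nonneg _) h3 2
    linarith [mul_pow R (M' i) 2]
  have hMM : ∀ i, M' i ≤ 2 * M i := by
    intro i
    rcases (L1 i).eq_empty_or_nonempty with he | ⟨x, hx⟩
    · exact absurd (by simp [he]) (h1p i)
    have hW00 := hW0 i x hx
    have hAabs : |s * A i| ≤ 1 / 2 * M' i := by
      have h4 := norm_setIntegral_le_of_norm_le_const (μ := volume) (s := L1 i)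
        (f := w) (C := W) (h1b i).measure_lt_top (hwm i)
      have h5 : |A i| ≤ W * M' i := by simpa [Measure.real, hM'def] using h4
      rw [abs_mul]
      calc |s| * |A i| ≤ |s| * (W * M' i) := mul_le_mul_of_nonneg_left h5 (abs_nonneg _)
        _ = (|s| * W) * M' i := by ring
        _ ≤ 1 / 2 * M' i := mul_le_mul_of_nonneg_right hsW (hM'pos i).le
    have := (abs_le.1 hAabs).1
    rw [hMeq i]
    linarith
  have hC : ∀ i, mom K y (fun x => 1 + s * w x) h' i k = B' i + s * Z i := by
    intro i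
    simp only [mom]
    have h3 : ∀ x, x k * (1 + s * w x) = x k + s * (x k * w x) := fun x => by ring
    simp only [h3]
    have hint2 : IntegrableOn (fun x => s * (x k * w x)) (L1 i) := by
      have : IsFiniteMeasure (volume.restrict (L1 i)) := ⟨by
        rw [Measure.restrict_apply_univ]; exact lt_top_iff_ne_top.2 (h1f i)⟩
      refine Integrable.const_mul (Integrable.of_bound
        ((measurable_pi_apply k).mul hw).aestronglyMeasurable (R * W) ?_) s
      refine (ae_restrict_iff' (h1m i)).2 (ae_of_all _ fun x hx => ?_)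
      change ‖x k * w x‖ ≤ R * W
      rw [norm_mul, Real.norm_eq_abs, Real.norm_eq_abs]
      exact mul_le_mul (hR x (h1sub i hx) k) (hwm i x hx) (abs_nonneg _)
        ((abs_nonneg _).trans (hR x (h1sub i hx) k))
    have hint3 : IntegrableOn (fun x : Vec (n + 1) => x k) (L1 i) :=
      integrableOn_coord k (h1b i) (φ := fun t => t) continuous_id
    rw [integral_add hint3 hint2, integral_const_mul]
  have hB0 : ∀ i, mom K y (fun _ => 1) h i k = B i := by
    intro i
    simp [mom, hB, hL0]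
  -- apply the core lemma
  have hcore := core_lemma (ι := ι) k hKm hKb (fun x hx => hR x hx k)
    (L0 := L0) (L1 := L1) (Lε := fun ε => cell K y (fun j => (1 - ε) * h j + ε * h' j))
    (fun i => convex_cell hKc y h i) (fun i => convex_cell hKc y h' i) h0m h1m
    (iUnion_cell y h K) (iUnion_cell y h' K) (aedisjoint_cell K hy h) (aedisjoint_cell K hy h')
    h0p h1p (fun ε i => measurableSet_cell hKm y _ i) (fun ε i => cell_subset K y _ i)
    (fun ε _ _ => aedisjoint_cell K hy _)
    (fun ε h0 h1 i x hx z hz => cell_combo hKc y h h' (by linarith) h0.le (by ring) hx hz)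
    (M := M) (M' := M') (B := B) (B' := B') hM0 (fun _ => rfl) (fun _ => rfl) (fun _ => rfl)
  have hE : ∑ i, (M i - M' i) ^ 2 / M' i ≤ s ^ 2 * ∑ i, Wi i := by
    rw [Finset.mul_sum]
    refine Finset.sum_le_sum fun i _ => ?_
    rw [div_le_iff₀ (hM'pos i), hMeq i]
    have := hA2 i
    nlinarith [sq_nonneg s]
  have hE1 : ∑ i, (M i - M' i) ^ 2 / M i ≤ 2 * (s ^ 2 * ∑ i, Wi i) := by
    rw [Finset.mul_sum, Finset.mul_sum]
    refine Finset.sum_le_sum fun i _ => ?_
    rw [div_le_iff₀ (hM i)]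
    have h3 := hA2 i
    have h4 : M i - M' i = s * A i := by rw [hMeq i]; ring
    rw [h4, mul_pow]
    have h5 : s ^ 2 * (A i) ^ 2 ≤ s ^ 2 * (M' i * Wi i) :=
      mul_le_mul_of_nonneg_left h3 (sq_nonneg _)
    have h6 : s ^ 2 * (M' i * Wi i) ≤ s ^ 2 * ((2 * M i) * Wi i) :=
      mul_le_mul_of_nonneg_left (mul_le_mul_of_nonneg_right (hMM i) (hWi0 i)) (sq_nonneg _)
    nlinarith
  have hRnn : 0 ≤ R ^ 2 := sq_nonneg R
  have hcore2 : ∑ i, (M i / M' i * B' i - B i) ^ 2 / M i ≤ 10 * R ^ 2 * (s ^ 2 * ∑ i, Wi i) := by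
    refine hcore.trans ?_
    have := mul_le_mul_of_nonneg_left
      (add_le_add (mul_le_mul_of_nonneg_left hE1 (by norm_num : (0 : ℝ) ≤ 4))
        (mul_le_mul_of_nonneg_left hE (by norm_num : (0 : ℝ) ≤ 2))) hRnn
    nlinarith
  have hper : ∀ i, (mom K y (fun x => 1 + s * w x) h' i k - mom K y (fun _ => 1) h i k) ^ 2 / M i ≤
      2 * ((M i / M' i * B' i - B i) ^ 2 / M i) + 16 * s ^ 2 * R ^ 2 * Wi i := by
    intro i
    rw [hB0 i]
    exact cell_algebra (hM i) (hM'pos i) (hMM i) (hMeq i) (hC i) (hA2 i) (hZ2 i) (hB'2 i) (hWi0 i)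
  calc _ ≤ ∑ i, (2 * ((M i / M' i * B' i - B i) ^ 2 / M i) + 16 * s ^ 2 * R ^ 2 * Wi i) :=
        Finset.sum_le_sum fun i _ => hper i
    _ = 2 * ∑ i, (M i / M' i * B' i - B i) ^ 2 / M i + 16 * s ^ 2 * R ^ 2 * ∑ i, Wi i := by
        rw [Finset.sum_add_distrib, Finset.mul_sum, Finset.mul_sum]
    _ ≤ _ := by
        rw [← hsum1]
        nlinarith [hcore2]

end Vale.Agent.Lib.P074

end

section

open MeasureTheory Set Filter Topology Function
open scoped ENNReal

namespace Vale.Agent.Lib.P074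

/-- An abstract discretized comparison of two functions with subgradients, off a finite set. -/
lemma diff_bound {a b p q : ℝ → ℝ} {Bad : Set ℝ} (hBad : Bad.Finite) {c Q : ℝ} (hc : 0 ≤ c)
    (ha : ∀ t ∈ Ioo (0 : ℝ) 1, t ∉ Bad → ∀ t' ∈ Ioo (0 : ℝ) 1, a t + (t' - t) * p t ≤ a t')
    (hb : ∀ t ∈ Ioo (0 : ℝ) 1, t ∉ Bad → ∀ t' ∈ Ioo (0 : ℝ) 1, b t + (t' - t) * q t ≤ b t')
    (hpq : ∀ t ∈ Ioo (0 : ℝ) 1, t ∉ Bad → p t - q t ≤ c)
    (hq : ∀ t ∈ Ioo (0 : ℝ) 1, t ∉ Bad → |q t| ≤ Q)
    (hf : Continuous fun t => a t - b t) :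
    (a 1 - b 1) - (a 0 - b 0) ≤ c := by
  set f := fun t => a t - b t with hfdef
  refine le_of_forall_pos_le_add fun e he => ?_
  -- choose the mesh
  have hc0 : ContinuousAt f 0 := hf.continuousAt
  have hc1 : ContinuousAt f 1 := hf.continuousAt
  obtain ⟨δ₀, hδ₀, h0⟩ := Metric.continuousAt_iff.1 hc0 (e / 3) (by positivity)
  obtain ⟨δ₁, hδ₁, h1⟩ := Metric.continuousAt_iff.1 hc1 (e / 3) (by positivity)
  have hQ0 : 0 ≤ Q := by
    obtain ⟨t, ht, htb⟩ := ((Ioo_infinite (zero_lt_one' ℝ)).diff hBad).nonempty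
    exact (abs_nonneg _).trans (hq t ht htb)
  obtain ⟨N, hN⟩ := exists_nat_gt (max (max (1 / δ₀) (1 / δ₁)) (6 * Q / e + 1))
  have hN1 : (6 * Q / e + 1) < N := lt_of_le_of_lt (le_max_right _ _) hN
  have hNpos : (0 : ℝ) < N := lt_of_le_of_lt (by positivity) hN1
  have hNδ₀ : 1 / (N : ℝ) < δ₀ := by
    have : 1 / δ₀ < N := lt_of_le_of_lt ((le_max_left _ _).trans (le_max_left _ _)) hN
    rw [div_lt_iff₀ hNpos]
    rw [div_lt_iff₀ hδ₀] at this
    linarith
  have hNδ₁ : 1 / (N : ℝ) < δ₁ := by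
    have : 1 / δ₁ < N := lt_of_le_of_lt ((le_max_right _ _).trans (le_max_left _ _)) hN
    rw [div_lt_iff₀ hNpos]
    rw [div_lt_iff₀ hδ₁] at this
    linarith
  have hQN : 2 * Q / N ≤ e / 3 := by
    rw [div_le_iff₀ hNpos]
    have h3 : 6 * Q / e < N := by linarith
    rw [div_lt_iff₀ he] at h3
    nlinarith
  have hN1' : (1 : ℝ) ≤ N := by
    have : 0 ≤ 6 * Q / e := by positivity
    linarith
  -- choose the shift
  have hΘ : ({θ : ℝ | ∃ j ∈ Finset.range N, ((j : ℝ) + θ) / N ∈ Bad}).Finite := by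
    have : {θ : ℝ | ∃ j ∈ Finset.range N, ((j : ℝ) + θ) / N ∈ Bad} ⊆
        ⋃ j ∈ Finset.range N, (fun t : ℝ => t * N - j) '' Bad := by
      rintro θ ⟨j, hj, hθ⟩
      refine mem_biUnion hj ⟨_, hθ, ?_⟩
      simp only
      field_simp
      ring
    refine Set.Finite.subset ?_ this
    exact Set.Finite.biUnion (Finset.finite_toSet _) fun j _ => hBad.image _
  obtain ⟨θ, hθI, hθb⟩ := ((Ioo_infinite (zero_lt_one' ℝ)).diff hΘ).nonempty
  set τ : ℕ → ℝ := fun j => ((j : ℝ) + θ) / N with hτ
  have hτI : ∀ j, j < N → τ j ∈ Ioo (0 : ℝ) 1 := by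
    intro j hj
    have hj' : (j : ℝ) + 1 ≤ N := by exact_mod_cast hj
    constructor
    · have := hθI.1
      have hj0 : (0 : ℝ) ≤ j := Nat.cast_nonneg j
      simp only [hτ]
      positivity
    · simp only [hτ]
      rw [div_lt_one hNpos]
      linarith [hθI.2]
  have hτb : ∀ j, j < N → τ j ∉ Bad := by
    intro j hj hb
    exact hθb ⟨j, Finset.mem_range.2 hj, hb⟩
  have hstep : ∀ j, j + 1 < N →
      f (τ (j + 1)) - f (τ j) ≤ c / N + (q (τ (j + 1)) - q (τ j)) / N := by
    intro j hj
    have hj' : j < N := by omega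
    have hd : τ (j + 1) - τ j = 1 / N := by
      simp only [hτ]
      push_cast
      field_simp
      ring
    have h2 := ha _ (hτI _ hj) (hτb _ hj) _ (hτI _ hj')
    have h3 := hb _ (hτI _ hj') (hτb _ hj') _ (hτI _ hj)
    have h4 := hpq _ (hτI _ hj) (hτb _ hj)
    have hd' : τ j - τ (j + 1) = -(1 / N) := by linarith
    rw [hd'] at h2
    rw [hd] at h3
    have h5 : (p (τ (j + 1)) - q (τ (j + 1))) / N ≤ c / N :=
      div_le_div_of_nonneg_right h4 hNpos.le
    simp only [hfdef]
    have e1 : -(1 / (N : ℝ)) * p (τ (j + 1)) = - (p (τ (j + 1)) / N) := by ring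
    have e2 : (1 / (N : ℝ)) * q (τ j) = q (τ j) / N := by ring
    have e3 : (p (τ (j + 1)) - q (τ (j + 1))) / N = p (τ (j + 1)) / N - q (τ (j + 1)) / N := by ring
    have e4 : (q (τ (j + 1)) - q (τ j)) / N = q (τ (j + 1)) / N - q (τ j) / N := by ring
    rw [e1] at h2
    rw [e2] at h3
    rw [e3] at h5
    rw [e4]
    linarith
  have hsum : ∀ m, m < N → f (τ m) - f (τ 0) ≤ m * (c / N) + (q (τ m) - q (τ 0)) / N := by
    intro m
    induction m with
    | zero => intro _; simp
    | succ m ih =>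
      intro hm
      have h2 := ih (by omega)
      have h3 := hstep m hm
      push_cast
      have e1 : (q (τ (m + 1)) - q (τ m)) / N + (q (τ m) - q (τ 0)) / N =
          (q (τ (m + 1)) - q (τ 0)) / N := by ring
      linarith
  -- conclusion
  have hN0 : 0 < N := by exact_mod_cast hNpos
  have hlast : N - 1 < N := by omega
  have hcast : ((N - 1 : ℕ) : ℝ) = N - 1 := by
    rw [Nat.cast_sub (by omega)]; simp
  have hS := hsum (N - 1) hlast
  have hq0 := hq _ (hτI 0 hN0) (hτb 0 hN0)
  have hq1 := hq _ (hτI _ hlast) (hτb _ hlast)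
  have hbd : (q (τ (N - 1)) - q (τ 0)) / N ≤ e / 3 := by
    refine le_trans ?_ hQN
    apply div_le_div_of_nonneg_right _ hNpos.le
    have := (abs_le.1 hq0).1
    have := (abs_le.1 hq1).2
    linarith
  have hmc : ((N - 1 : ℕ) : ℝ) * (c / N) ≤ c := by
    rw [hcast]
    have : (N - 1 : ℝ) * (c / N) = c - c / N := by
      field_simp
    rw [this]
    have : 0 ≤ c / N := by positivity
    linarith
  have hτ0 : dist (τ 0) 0 < δ₀ := by
    rw [Real.dist_eq, sub_zero, abs_of_pos (hτI 0 hN0).1]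
    refine lt_of_le_of_lt ?_ hNδ₀
    simp only [hτ, Nat.cast_zero, zero_add]
    exact div_le_div_of_nonneg_right hθI.2.le hNpos.le
  have hτ1 : dist (τ (N - 1)) 1 < δ₁ := by
    rw [Real.dist_eq, abs_sub_comm, abs_of_pos (by linarith [(hτI _ hlast).2])]
    refine lt_of_le_of_lt ?_ hNδ₁
    simp only [hτ, hcast]
    have : 1 - ((N : ℝ) - 1 + θ) / N = (1 - θ) / N := by field_simp; ring
    rw [this]
    exact div_le_div_of_nonneg_right (by linarith [hθI.1]) hNpos.le
  have hf0 := h0 hτ0
  have hf1 := h1 hτ1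
  rw [Real.dist_eq] at hf0 hf1
  have hf0' := (abs_lt.1 hf0).2
  have hf1' := (abs_lt.1 hf1).1
  change f 1 - f 0 ≤ c + e
  linarith

end Vale.Agent.Lib.P074

end

section

open MeasureTheory Set Filter Topology Function
open scoped ENNReal

namespace Vale.Agent.Lib.P074

variable {d : ℕ} {ι : Type*} [Fintype ι] [Nonempty ι]
variable {K : Set (Vec d)} {g : Vec d → ℝ} {G : ℝ} {y : ι → Vec d} {M : ι → ℝ}

/-- The optimal value of the semi-discrete dual problem. -/
noncomputable def Aval (K : Set (Vec d)) (y : ι → Vec d) (g : Vec d → ℝ) (M : ι → ℝ) : ℝ :=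
  ⨅ h : ι → ℝ, Phi K y g M h

lemma exists_norm_bound (hK : IsCompact K) : ∃ C : ℝ, 0 ≤ C ∧ ∀ x ∈ K, ‖x‖ ≤ C := by
  obtain ⟨C, hC⟩ := hK.exists_bound_of_continuousOn (f := fun x : Vec d => x) continuousOn_id
  exact ⟨max C 0, le_max_right _ _, fun x hx => (hC x hx).trans (le_max_left _ _)⟩

lemma exists_dot_bound (hK : IsCompact K) (y : ι → Vec d) :
    ∃ D : ℝ, 0 ≤ D ∧ ∀ x ∈ K, ∀ i, |x ⬝ᵥ y i| ≤ D := by
  obtain ⟨C, hC0, hC⟩ := exists_norm_bound hK
  refine ⟨d * (C * ‖y‖), by positivity, fun x hx i => (abs_dot_le _ _).trans ?_⟩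
  have h1 : ‖y i‖ ≤ ‖y‖ := norm_le_pi_norm y i
  have h2 := hC x hx
  gcongr

omit [Nonempty ι] in
lemma exists_min_mass (hM : ∀ i, 0 < M i) [Nonempty ι] : ∃ m : ℝ, 0 < m ∧ ∀ i, m ≤ M i := by
  obtain ⟨i₀, _, hi₀⟩ := Finset.exists_min_image Finset.univ M Finset.univ_nonempty
  exact ⟨M i₀, hM i₀, fun i => hi₀ i (Finset.mem_univ i)⟩

lemma Phi_lower (hK : IsCompact K) (hg : Dens K g G) (hM : ∀ i, 0 < M i)
    (hsum : ∫ x in K, g x = ∑ i, M i) {D : ℝ} (hD : ∀ x ∈ K, ∀ i, |x ⬝ᵥ y i| ≤ D) (h : ι → ℝ) :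
    -(D * ∑ i, M i) ≤ Phi K y g M h := by
  obtain ⟨i₀, _, hi₀⟩ := Finset.exists_min_image Finset.univ h Finset.univ_nonempty
  set c := h i₀ with hc
  set h'' : ι → ℝ := fun i => h i + (-c) with hh''
  have heq : Phi K y g M h'' = Phi K y g M h := Phi_add_const hK hg hsum y h (-c)
  rw [← heq]
  have hnn : ∀ i, 0 ≤ h'' i := fun i => by
    have := hi₀ i (Finset.mem_univ i)
    simp only [hh'']
    linarith
  have h3 : ∫ x in K, (-D) * g x ≤ ∫ x in K, pot y h'' x * g x := by
    refine setIntegral_mono_on ((hg.integrableOn hK).const_mul _)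
      (hg.integrableOn_mul hK (continuous_pot y h'')) hK.measurableSet fun x hx => ?_
    refine mul_le_mul_of_nonneg_right ?_ (hg.nonneg x hx)
    have h4 := aff_le_pot y h'' i₀ x
    have h5 := (abs_le.1 (hD x hx i₀)).1
    have h6 : h'' i₀ = 0 := by simp [hh'', hc]
    simp only [aff, h6, sub_zero] at h4
    linarith
  rw [integral_const_mul, hsum] at h3
  have h7 : 0 ≤ ∑ i, M i * h'' i := Finset.sum_nonneg fun i _ => mul_nonneg (hM i).le (hnn i)
  simp only [Phi]
  linarith

lemma Aval_le (hK : IsCompact K) (hg : Dens K g G) (hM : ∀ i, 0 < M i)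
    (hsum : ∫ x in K, g x = ∑ i, M i) (h : ι → ℝ) : Aval K y g M ≤ Phi K y g M h := by
  obtain ⟨D, _, hD⟩ := exists_dot_bound hK y
  exact ciInf_le ⟨_, by rintro _ ⟨h, rfl⟩; exact Phi_lower hK hg hM hsum hD h⟩ h

omit [Fintype ι] in
lemma le_Aval [Fintype ι] {c : ℝ} (h : ∀ h', c ≤ Phi K y g M h') : c ≤ Aval K y g M := le_ciInf h

/-- Existence of exact weights for distinct sites, with a uniform box. -/
theorem exists_exact (hK : IsCompact K) (hy : Injective y) (hg : Dens K g G)
    (hM : ∀ i, 0 < M i) (hsum : ∫ x in K, g x = ∑ i, M i) {D : ℝ} (hD0 : 0 ≤ D)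
    (hD : ∀ x ∈ K, ∀ i, |x ⬝ᵥ y i| ≤ D) {m : ℝ} (hm : 0 < m) (hmle : ∀ i, m ≤ M i) :
    ∃ h : ι → ℝ, (∀ i, 0 ≤ h i ∧ h i ≤ 2 * D * (∑ i, M i) / m) ∧ IsExact K y g M h ∧
      ∀ h', Phi K y g M h ≤ Phi K y g M h' := by
  obtain ⟨h, hbox, hmin⟩ := exists_min hK hg hM hsum hD0 hD hm hmle
  exact ⟨h, hbox, fun i => exact_of_min hK hy hg hsum hmin i, hmin⟩

lemma Aval_eq_of_exact (hK : IsCompact K) (hy : Injective y) (hg : Dens K g G)
    (hM : ∀ i, 0 < M i) (hsum : ∫ x in K, g x = ∑ i, M i) {h : ι → ℝ}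
    (hex : IsExact K y g M h) : Aval K y g M = ∑ i, mom K y g h i ⬝ᵥ y i := by
  apply le_antisymm
  · rw [← Phi_eq_of_exact hK hy hg hex]
    exact Aval_le hK hg hM hsum h
  · exact le_Aval fun h' => mom_dot_le_Phi hK hy hg hex y h'

lemma mom_dot_le_Aval (hK : IsCompact K) (hy : Injective y) (hg : Dens K g G) {h : ι → ℝ}
    (hex : IsExact K y g M h) (y' : ι → Vec d) : ∑ i, mom K y g h i ⬝ᵥ y' i ≤ Aval K y' g M :=
  le_Aval fun h' => mom_dot_le_Phi hK hy hg hex y' h'

lemma Aval_le_add (hK : IsCompact K) (hg : Dens K g G) (hM : ∀ i, 0 < M i)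
    (hsum : ∫ x in K, g x = ∑ i, M i) {C : ℝ} (hC : ∀ x ∈ K, ‖x‖ ≤ C) (y y' : ι → Vec d) :
    Aval K y g M ≤ Aval K y' g M + d * (C * ‖y - y'‖) * ∫ x in K, g x := by
  have : Aval K y g M - d * (C * ‖y - y'‖) * ∫ x in K, g x ≤ Aval K y' g M := by
    refine le_Aval fun h => ?_
    have h1 := Aval_le (y := y) hK hg hM hsum h
    have h2 : ∫ x in K, pot y h x * g x ≤ ∫ x in K, (pot y' h x * g x + d * (C * ‖y - y'‖) * g x) := by
      refine setIntegral_mono_on (hg.integrableOn_mul hK (continuous_pot y h))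
        ((hg.integrableOn_mul hK (continuous_pot y' h)).add ((hg.integrableOn hK).const_mul _))
        hK.measurableSet fun x hx => ?_
      rw [← add_mul]
      refine mul_le_mul_of_nonneg_right ?_ (hg.nonneg x hx)
      have h3 := (abs_le.1 (abs_pot_sub_y y y' h x)).2
      have h4 : (d : ℝ) * (‖x‖ * ‖y - y'‖) ≤ d * (C * ‖y - y'‖) := by
        have := hC x hx
        gcongr
      linarith
    rw [integral_add (hg.integrableOn_mul hK (continuous_pot y' h))
      ((hg.integrableOn hK).const_mul _), integral_const_mul] at h2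
    simp only [Phi] at h1 ⊢
    linarith
  linarith

lemma continuous_Aval_comp (hK : IsCompact K) (hg : Dens K g G) (hM : ∀ i, 0 < M i)
    (hsum : ∫ x in K, g x = ∑ i, M i) {Y : ℝ → ι → Vec d} (hY : Continuous Y) :
    Continuous fun t => Aval K (Y t) g M := by
  obtain ⟨C, hC0, hC⟩ := exists_norm_bound hK
  have h0 : 0 ≤ ∫ x in K, g x := setIntegral_nonneg hK.measurableSet hg.nonneg
  set L : ℝ := d * C * ∫ x in K, g x with hL
  have hL0 : 0 ≤ L := by positivity
  have hlip : LipschitzWith ⟨L, hL0⟩ (fun y : ι → Vec d => Aval K y g M) := by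
    refine LipschitzWith.of_dist_le_mul fun y y' => ?_
    rw [Real.dist_eq, dist_eq_norm]
    have h1 := Aval_le_add hK hg hM hsum hC y y'
    have h2 := Aval_le_add hK hg hM hsum hC y' y
    rw [norm_sub_rev y' y] at h2
    have e : (d : ℝ) * (C * ‖y - y'‖) * ∫ x in K, g x = L * ‖y - y'‖ := by rw [hL]; ring
    rw [e] at h1 h2
    have h3 : |Aval K y g M - Aval K y' g M| ≤ L * ‖y - y'‖ :=
      abs_le.2 ⟨by linarith, by linarith⟩
    exact h3
  exact hlip.continuous.comp hY

/-- Cauchy-Schwarz with masses. -/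
lemma cs_double (hM : ∀ i, 0 < M i) (Δ v : ι → Vec d) :
    (∑ i, Δ i ⬝ᵥ v i) ^ 2 ≤ (∑ i, ∑ k, (Δ i k) ^ 2 / M i) * ∑ i, M i * (v i ⬝ᵥ v i) := by
  have hq : ∀ c : ℝ, 0 ≤ (∑ i, M i * (v i ⬝ᵥ v i)) * (c * c) + (2 * ∑ i, Δ i ⬝ᵥ v i) * c +
      ∑ i, ∑ k, (Δ i k) ^ 2 / M i := by
    intro c
    have h0 : 0 ≤ ∑ i, ∑ k, M i * (Δ i k / M i + c * v i k) ^ 2 :=
      Finset.sum_nonneg fun i _ => Finset.sum_nonneg fun k _ =>
        mul_nonneg (hM i).le (sq_nonneg _)
    have h1 : ∑ i, ∑ k, M i * (Δ i k / M i + c * v i k) ^ 2 =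
        (∑ i, M i * (v i ⬝ᵥ v i)) * (c * c) + (2 * ∑ i, Δ i ⬝ᵥ v i) * c +
          ∑ i, ∑ k, (Δ i k) ^ 2 / M i := by
      simp only [dotProduct, Finset.mul_sum, Finset.sum_mul, ← Finset.sum_add_distrib]
      refine Finset.sum_congr rfl fun i _ => Finset.sum_congr rfl fun k _ => ?_
      have := (hM i).ne'
      field_simp
      ring
    rw [h1] at h0
    exact h0
  have hd := discrim_le_zero hq
  rw [discrim] at hd
  nlinarith

/-- The linear interpolation of the sites. -/
def yt (y0 y1 : ι → Vec d) (t : ℝ) (i : ι) : Vec d := (1 - t) • y0 i + t • y1 i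

omit [Fintype ι] [Nonempty ι] in
lemma yt_zero (y0 y1 : ι → Vec d) : yt y0 y1 0 = y0 := by
  ext i k
  simp [yt]

omit [Fintype ι] [Nonempty ι] in
lemma yt_one (y0 y1 : ι → Vec d) : yt y0 y1 1 = y1 := by
  ext i k
  simp [yt]

omit [Nonempty ι] in
lemma continuous_yt (y0 y1 : ι → Vec d) : Continuous (yt y0 y1) := by
  refine continuous_pi fun i => ?_
  unfold yt
  fun_prop

omit [Fintype ι] [Nonempty ι] in
lemma yt_eq_add (y0 y1 : ι → Vec d) (t t' : ℝ) (i : ι) :
    yt y0 y1 t' i = yt y0 y1 t i + (t' - t) • (y1 i - y0 i) := by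
  ext k
  simp only [yt, Pi.add_apply, Pi.smul_apply, smul_eq_mul, Pi.sub_apply]
  ring

omit [Nonempty ι] in
/-- For all but finitely many parameters the interpolated sites are distinct. -/
lemma finite_bad (y0 y1 : ι → Vec d) (hne : ∀ i j, i ≠ j → y0 i ≠ y0 j ∨ y1 i ≠ y1 j) :
    {t : ℝ | ¬ Injective (yt y0 y1 t)}.Finite := by
  have hsub : {t : ℝ | ¬ Injective (yt y0 y1 t)} ⊆
      ⋃ i, ⋃ j, {t : ℝ | i ≠ j ∧ yt y0 y1 t i = yt y0 y1 t j} := by
    intro t ht
    simp only [mem_setOf_eq, Injective] at ht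
    push Not at ht
    obtain ⟨i, j, h1, h2⟩ := ht
    exact mem_iUnion.2 ⟨i, mem_iUnion.2 ⟨j, h2, h1⟩⟩
  refine Set.Finite.subset ?_ hsub
  refine Set.finite_iUnion fun i => Set.finite_iUnion fun j => ?_
  refine Set.Subsingleton.finite ?_
  rintro t ⟨hij, ht⟩ t' ⟨_, ht'⟩
  by_contra hne2
  have hdiff : t - t' ≠ 0 := sub_ne_zero.2 hne2
  have key : ∀ k, y0 i k = y0 j k ∧ y1 i k = y1 j k := by
    intro k
    have h1 := congrFun ht k
    have h2 := congrFun ht' k
    simp only [yt, Pi.add_apply, Pi.smul_apply, smul_eq_mul] at h1 h2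
    have h3 : (t - t') * ((y1 i k - y0 i k) - (y1 j k - y0 j k)) = 0 := by nlinarith
    have h4 : (y1 i k - y0 i k) - (y1 j k - y0 j k) = 0 := (mul_eq_zero.1 h3).resolve_left hdiff
    have h5 : y0 i k - y0 j k = 0 := by
      have e : (1 - t) * y0 i k + t * y1 i k - ((1 - t) * y0 j k + t * y1 j k) =
          (y0 i k - y0 j k) + t * ((y1 i k - y0 i k) - (y1 j k - y0 j k)) := by ring
      rw [h4, mul_zero, add_zero] at e
      linarith
    constructor <;> linarith
  rcases hne i j hij with h | h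
  · exact h (funext fun k => (key k).1)
  · exact h (funext fun k => (key k).2)

end Vale.Agent.Lib.P074

end

section

open MeasureTheory Set Filter Topology Function
open scoped ENNReal

namespace Vale.Agent.Lib.P074

variable {d : ℕ} {ι : Type*} [Fintype ι] [Nonempty ι]

lemma abs_mom_le {K : Set (Vec d)} (hK : IsCompact K) {g : Vec d → ℝ} {G : ℝ} (hg : Dens K g G)
    {y : ι → Vec d} {M : ι → ℝ} {h : ι → ℝ} (hex : IsExact K y g M h) {R : ℝ}
    (hR : ∀ x ∈ K, ∀ k, |x k| ≤ R) (i : ι) (k : Fin d) : |mom K y g h i k| ≤ R * M i := by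
  rw [← hex i]
  have hm := measurableSet_cell hK.measurableSet y h i
  have hsub := cell_subset K y h i
  have h1 : IntegrableOn (fun x : Vec d => x k * g x) (cell K y h i) :=
    integrableOn_cell_mul hK hg y h i (f := fun x => x k) (continuous_apply k)
  have h2 : IntegrableOn g (cell K y h i) := (hg.integrableOn hK).mono_set hsub
  rw [← integral_const_mul]
  refine (abs_integral_le_integral_abs).trans ?_
  refine setIntegral_mono_on h1.abs (h2.const_mul R) hm fun x hx => ?_
  rw [abs_mul, abs_of_nonneg (hg.nonneg x (hsub hx))]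
  exact mul_le_mul_of_nonneg_right (hR x (hsub hx) k) (hg.nonneg x (hsub hx))

lemma abs_sum_mom_dot_le {K : Set (Vec d)} (hK : IsCompact K) {g : Vec d → ℝ} {G : ℝ}
    (hg : Dens K g G) {y : ι → Vec d} {M : ι → ℝ} (hM : ∀ i, 0 < M i) {h : ι → ℝ}
    (hex : IsExact K y g M h) {R : ℝ} (hR : ∀ x ∈ K, ∀ k, |x k| ≤ R) (v : ι → Vec d) :
    |∑ i, mom K y g h i ⬝ᵥ v i| ≤ ∑ i, ∑ k, R * M i * |v i k| := by
  refine (Finset.abs_sum_le_sum_abs _ _).trans (Finset.sum_le_sum fun i _ => ?_)
  simp only [dotProduct]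
  refine (Finset.abs_sum_le_sum_abs _ _).trans (Finset.sum_le_sum fun k _ => ?_)
  rw [abs_mul]
  exact mul_le_mul_of_nonneg_right (abs_mom_le hK hg hex hR i k) (abs_nonneg _)

/-- **Chain estimate.** The perturbation of the optimal value by a small density changes
by at most a multiple of the `L²(M)` distance of the sites. -/
theorem chain_bound {n : ℕ} {K : Set (Vec (n + 1))} (hK : IsCompact K) (hKc : Convex ℝ K)
    {M : ι → ℝ} (hM : ∀ i, 0 < M i) (hsumK : (volume K).toReal = ∑ i, M i)
    {w : Vec (n + 1) → ℝ} (hw : Measurable w) {W s : ℝ} (hwW : ∀ x ∈ K, |w x| ≤ W)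
    (hw0 : ∫ x in K, w x = 0) (hsW : |s| * W ≤ 1 / 2) {R : ℝ} (hR : ∀ x ∈ K, ∀ k, |x k| ≤ R)
    (y0 y1 : ι → Vec (n + 1)) (hne : ∀ i j, i ≠ j → y0 i ≠ y0 j ∨ y1 i ≠ y1 j) :
    |(Aval K y1 (fun x => 1 + s * w x) M - Aval K y1 (fun _ => 1) M) -
      (Aval K y0 (fun x => 1 + s * w x) M - Aval K y0 (fun _ => 1) M)| ≤
      |s| * Real.sqrt (36 * (n + 1) * R ^ 2 * (∫ x in K, (w x) ^ 2) *
        ∑ i, M i * ((y1 i - y0 i) ⬝ᵥ (y1 i - y0 i))) := by
  classical
  set gs : Vec (n + 1) → ℝ := fun x => 1 + s * w x with hgs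
  set g1 : Vec (n + 1) → ℝ := fun _ => 1 with hg1
  have hsw : ∀ x ∈ K, |s * w x| ≤ 1 / 2 := fun x hx => by
    rw [abs_mul]
    exact (mul_le_mul_of_nonneg_left (hwW x hx) (abs_nonneg _)).trans hsW
  have hD1 : Dens K g1 1 := ⟨measurable_const, fun _ _ => zero_le_one, fun _ _ => le_rfl⟩
  have hDs : Dens K gs (3 / 2) := by
    refine ⟨measurable_const.add (hw.const_mul s), fun x hx => ?_, fun x hx => ?_⟩
    · have := (abs_le.1 (hsw x hx)).1
      simp only [hgs]
      linarith
    · have := (abs_le.1 (hsw x hx)).2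
      simp only [hgs]
      linarith
  have hfin : volume K ≠ ∞ := hK.measure_lt_top.ne
  have hsum1 : ∫ x in K, g1 x = ∑ i, M i := by
    rw [← hsumK]
    simp [hg1, Measure.real]
  have hwint : IntegrableOn w K := by
    have : IsFiniteMeasure (volume.restrict K) := ⟨by
      rw [Measure.restrict_apply_univ]; exact hK.measure_lt_top⟩
    refine Integrable.of_bound hw.aestronglyMeasurable W ?_
    exact (ae_restrict_iff' hK.measurableSet).2 (ae_of_all _ fun x hx => hwW x hx)
  have hsums : ∫ x in K, gs x = ∑ i, M i := by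
    have hc1 : IntegrableOn (fun _ : Vec (n + 1) => (1 : ℝ)) K :=
      integrableOn_const hfin (by simp)
    have hc2 : IntegrableOn (fun x => s * w x) K := hwint.const_mul s
    simp only [hgs]
    rw [integral_add hc1 hc2, integral_const_mul, hw0, mul_zero, add_zero, ← hsumK]
    simp [Measure.real]
  obtain ⟨m, hm, hmle⟩ := exists_min_mass hM
  set v : ι → Vec (n + 1) := fun i => y1 i - y0 i with hv
  set Y := yt y0 y1 with hY
  set W2 := ∫ x in K, (w x) ^ 2 with hW2
  have hW20 : 0 ≤ W2 := setIntegral_nonneg hK.measurableSet fun x _ => sq_nonneg _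
  set V := ∑ i, M i * (v i ⬝ᵥ v i) with hV
  have hV0 : 0 ≤ V := Finset.sum_nonneg fun i _ => mul_nonneg (hM i).le
    (Finset.sum_nonneg fun k _ => mul_self_nonneg _)
  have hexist : ∀ t, Injective (Y t) → ∃ h0 h1 : ι → ℝ,
      IsExact K (Y t) g1 M h0 ∧ IsExact K (Y t) gs M h1 := by
    intro t ht
    obtain ⟨D, hD0, hD⟩ := exists_dot_bound hK (Y t)
    obtain ⟨h0, _, hex0, _⟩ := exists_exact hK ht hD1 hM hsum1 hD0 hD hm hmle
    obtain ⟨h1, _, hex1, _⟩ := exists_exact hK ht hDs hM hsums hD0 hD hm hmle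
    exact ⟨h0, h1, hex0, hex1⟩
  choose! h0 h1 hex0 hex1 using hexist
  set p : ℝ → ℝ := fun t => ∑ i, mom K (Y t) gs (h1 t) i ⬝ᵥ v i with hp
  set q : ℝ → ℝ := fun t => ∑ i, mom K (Y t) g1 (h0 t) i ⬝ᵥ v i with hq
  set a : ℝ → ℝ := fun t => Aval K (Y t) gs M with ha
  set b : ℝ → ℝ := fun t => Aval K (Y t) g1 M with hb
  set Bad := {t : ℝ | ¬ Injective (Y t)} with hBad
  have hBadfin : Bad.Finite := finite_bad y0 y1 hne
  have hsub : ∀ {g : Vec (n + 1) → ℝ} {G : ℝ}, Dens K g G → (∫ x in K, g x = ∑ i, M i) →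
      ∀ {e : ℝ → ι → ℝ} {t : ℝ}, Injective (Y t) → IsExact K (Y t) g M (e t) → ∀ t',
      Aval K (Y t) g M + (t' - t) * (∑ i, mom K (Y t) g (e t) i ⬝ᵥ v i) ≤ Aval K (Y t') g M := by
    intro g G hg hsumg e t ht hex t'
    rw [Aval_eq_of_exact hK ht hg hM hsumg hex]
    refine le_trans (le_of_eq ?_) (mom_dot_le_Aval hK ht hg hex (Y t'))
    rw [Finset.mul_sum, ← Finset.sum_add_distrib]
    refine Finset.sum_congr rfl fun i _ => ?_
    rw [hY, yt_eq_add y0 y1 t t' i, dotProduct_add, dotProduct_smul, smul_eq_mul]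
  have hsubA : ∀ t ∈ Ioo (0 : ℝ) 1, t ∉ Bad → ∀ t' ∈ Ioo (0 : ℝ) 1, a t + (t' - t) * p t ≤ a t' := by
    intro t _ htb t' _
    have ht : Injective (Y t) := not_not.1 htb
    exact hsub hDs hsums ht (hex1 t ht) t'
  have hsubB : ∀ t ∈ Ioo (0 : ℝ) 1, t ∉ Bad → ∀ t' ∈ Ioo (0 : ℝ) 1, b t + (t' - t) * q t ≤ b t' := by
    intro t _ htb t' _
    have ht : Injective (Y t) := not_not.1 htb
    exact hsub hD1 hsum1 ht (hex0 t ht) t'
  set Q : ℝ := ∑ i, ∑ k, R * M i * |v i k| with hQ
  have hqQ : ∀ t ∈ Ioo (0 : ℝ) 1, t ∉ Bad → |q t| ≤ Q := by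
    intro t _ htb
    have ht : Injective (Y t) := not_not.1 htb
    exact abs_sum_mom_dot_le hK hD1 hM (hex0 t ht) hR v
  have hpQ : ∀ t ∈ Ioo (0 : ℝ) 1, t ∉ Bad → |p t| ≤ Q := by
    intro t _ htb
    have ht : Injective (Y t) := not_not.1 htb
    exact abs_sum_mom_dot_le hK hDs hM (hex1 t ht) hR v
  set Z := 36 * ((n : ℝ) + 1) * R ^ 2 * W2 * V with hZ
  have hZ0 : 0 ≤ Z := by positivity
  set c := |s| * Real.sqrt Z with hc
  have hc0 : 0 ≤ c := by positivity
  have hpq : ∀ t ∈ Ioo (0 : ℝ) 1, t ∉ Bad → |p t - q t| ≤ c := by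
    intro t _ htb
    have ht : Injective (Y t) := not_not.1 htb
    set Δ : ι → Vec (n + 1) := fun i => mom K (Y t) gs (h1 t) i - mom K (Y t) g1 (h0 t) i with hΔ
    have h1' : p t - q t = ∑ i, Δ i ⬝ᵥ v i := by
      simp only [hp, hq, hΔ, sub_dotProduct, Finset.sum_sub_distrib]
    have hE : ∑ i, ∑ k, (Δ i k) ^ 2 / M i ≤ (n + 1) * (36 * s ^ 2 * R ^ 2 * W2) := by
      rw [Finset.sum_comm]
      have : ∀ k ∈ (Finset.univ : Finset (Fin (n + 1))), ∑ i, (Δ i k) ^ 2 / M i ≤
          36 * s ^ 2 * R ^ 2 * W2 := fun k _ =>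
        exact_pair_bound hK hKc ht hM hw hwW hsW hR (hex0 t ht) (hex1 t ht) k
      have h2 := Finset.sum_le_sum this
      simpa using h2
    have hcs := cs_double hM Δ v
    rw [← h1'] at hcs
    have h3 : (p t - q t) ^ 2 ≤ s ^ 2 * Z := by
      refine hcs.trans ?_
      have := mul_le_mul_of_nonneg_right hE hV0
      refine this.trans (le_of_eq ?_)
      rw [hZ]
      ring
    have h4 := Real.abs_le_sqrt h3
    rwa [Real.sqrt_mul (sq_nonneg s), Real.sqrt_sq_eq_abs] at h4
  have hfa := continuous_Aval_comp hK hDs hM hsums (continuous_yt y0 y1)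
  have hfb := continuous_Aval_comp hK hD1 hM hsum1 (continuous_yt y0 y1)
  have hr1 := diff_bound hBadfin hc0 hsubA hsubB
    (fun t ht htb => (abs_le.1 (hpq t ht htb)).2) hqQ (hfa.sub hfb)
  have hr2 := diff_bound hBadfin hc0 hsubB hsubA
    (fun t ht htb => by linarith [(abs_le.1 (hpq t ht htb)).1]) hpQ (hfb.sub hfa)
  have e1 : Y 1 = y1 := yt_one y0 y1
  have e0 : Y 0 = y0 := yt_zero y0 y1
  simp only [ha, hb, e1, e0] at hr1 hr2
  rw [abs_le]
  constructor <;> linarith

end Vale.Agent.Lib.P074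

end

section

open MeasureTheory Set Filter Topology Function
open scoped ENNReal

namespace Vale.Agent.Lib.P074

variable {d : ℕ} {ι : Type*} [Fintype ι] [Nonempty ι]
variable {K : Set (Vec d)} {y : ι → Vec d} {M : ι → ℝ}

lemma dens_one (K : Set (Vec d)) : Dens K (fun _ => (1 : ℝ)) 1 :=
  ⟨measurable_const, fun _ _ => zero_le_one, fun _ _ => le_rfl⟩

lemma integrableOn_pot (hK : IsCompact K) (y : ι → Vec d) (h : ι → ℝ) :
    IntegrableOn (pot y h) K :=
  (continuous_pot y h).continuousOn.integrableOn_compact hK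

/-- Two minimizers of the Kantorovich functional have potentials differing by a constant a.e. -/
theorem pot_sub_ae_const (hK : IsCompact K) (hKc : Convex ℝ K) (hKi : (interior K).Nonempty)
    (hy : Injective y) (hsum : (volume K).toReal = ∑ i, M i)
    {h h' : ι → ℝ}
    (hmin : ∀ e, Phi K y (fun _ => 1) M h ≤ Phi K y (fun _ => 1) M e)
    (hmin' : ∀ e, Phi K y (fun _ => 1) M h' ≤ Phi K y (fun _ => 1) M e) :
    ∃ c : ℝ, ∀ᵐ x ∂(volume.restrict K), pot y h x - pot y h' x = c := by
  classical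
  have hD1 := dens_one K
  have hfin : volume K ≠ ∞ := hK.measure_lt_top.ne
  have hsum1 : ∫ x in K, (fun _ => (1 : ℝ)) x = ∑ i, M i := by
    rw [← hsum]
    simp [Measure.real]
  have hex' := exact_of_min hK hy hD1 hsum1 hmin'
  have hPhi : Phi K y (fun _ => 1) M h = Phi K y (fun _ => 1) M h' :=
    le_antisymm (hmin h') (hmin' h)
  simp only [Phi, mul_one] at hPhi
  set L' := cell K y h' with hL'
  have hL'm : ∀ i, MeasurableSet (L' i) := measurableSet_cell hK.measurableSet y h'
  have hL'sub : ∀ i, L' i ⊆ K := cell_subset K y h'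
  have hintK : ∀ {f : Vec d → ℝ}, Continuous f → ∀ i, IntegrableOn f (L' i) := fun hf i =>
    (hf.continuousOn.integrableOn_compact hK).mono_set (hL'sub i)
  -- the integral of the nonnegative gap vanishes
  have hgap : ∑ i, ∫ x in L' i, (pot y h x - aff y h i x) = 0 := by
    have h1 : ∀ i, ∫ x in L' i, (pot y h x - aff y h i x) =
        (∫ x in L' i, pot y h x) - (∫ x in L' i, pot y h' x) - M i * (h' i - h i) := by
      intro i
      have hm : volume.real (L' i) = M i := by simpa using hex' i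
      have hfin' : volume (L' i) ≠ ∞ :=
        ((measure_mono (hL'sub i)).trans_lt hK.measure_lt_top).ne
      have hc : IntegrableOn (fun _ : Vec d => h' i - h i) (L' i) :=
        integrableOn_const hfin' (by simp)
      have e1 : ∫ x in L' i, aff y h i x = (∫ x in L' i, pot y h' x) + M i * (h' i - h i) := by
        have e0 : ∫ x in L' i, aff y h i x = ∫ x in L' i, (pot y h' x + (h' i - h i)) :=
          setIntegral_congr_fun (hL'm i) fun x hx => by
            simp only [pot_eq_of_mem_cell y h' hx, aff]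
            ring
        rw [e0, integral_add (hintK (continuous_pot y h') i) hc, setIntegral_const, hm,
          smul_eq_mul]
      rw [integral_sub (hintK (continuous_pot y h) i) (hintK (continuous_aff y h i) i), e1]
      ring
    simp only [h1, Finset.sum_sub_distrib]
    rw [sum_setIntegral_cell hK hy h' (integrableOn_pot hK y h),
      sum_setIntegral_cell hK hy h' (integrableOn_pot hK y h')]
    have e2 : ∑ i, M i * (h' i - h i) = ∑ i, M i * h' i - ∑ i, M i * h i := by
      rw [← Finset.sum_sub_distrib]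
      exact Finset.sum_congr rfl fun i _ => by ring
    rw [e2]
    linarith
  have hnn : ∀ i, 0 ≤ ∫ x in L' i, (pot y h x - aff y h i x) := fun i =>
    setIntegral_nonneg (hL'm i) fun x _ => sub_nonneg.2 (aff_le_pot y h i x)
  have hzero : ∀ i, ∫ x in L' i, (pot y h x - aff y h i x) = 0 := fun i =>
    (Finset.sum_eq_zero_iff_of_nonneg fun i _ => hnn i).1 hgap i (Finset.mem_univ i)
  have hae : ∀ i, ∀ᵐ x ∂(volume.restrict (L' i)), pot y h x - aff y h i x = 0 := by
    intro i
    have hi : IntegrableOn (fun x => pot y h x - aff y h i x) (L' i) :=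
      (hintK (continuous_pot y h) i).sub (hintK (continuous_aff y h i) i)
    have h3 : 0 ≤ᵐ[volume.restrict (L' i)] fun x => pot y h x - aff y h i x :=
      ae_of_all _ fun x => sub_nonneg.2 (aff_le_pot y h i x)
    exact (integral_eq_zero_iff_of_nonneg_ae h3 hi).1 (hzero i)
  set f : Vec d → ℝ := fun x => pot y h x - pot y h' x with hf
  have hfc : Continuous f := (continuous_pot y h).sub (continuous_pot y h')
  set T : Set ℝ := range fun i => h' i - h i with hT
  have hTfin : T.Finite := finite_range _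
  have hTclosed : IsClosed T := hTfin.isClosed
  -- almost everywhere on K the values of f lie in T
  have hnull : volume (K ∩ (f ⁻¹' T)ᶜ) = 0 := by
    have hsub : K ∩ (f ⁻¹' T)ᶜ ⊆ ⋃ i, (L' i ∩ {x | pot y h x - aff y h i x ≠ 0}) := by
      rintro x ⟨hxK, hxT⟩
      have hxU : x ∈ ⋃ i, L' i := by rw [hL', iUnion_cell]; exact hxK
      obtain ⟨i, hi⟩ := mem_iUnion.1 hxU
      refine mem_iUnion.2 ⟨i, hi, ?_⟩
      intro h0
      apply hxT
      refine ⟨i, ?_⟩
      have e3 := pot_eq_of_mem_cell y h' hi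
      simp only [hf, e3]
      simp only [aff] at e3 h0 ⊢
      linarith
    refine measure_mono_null hsub (measure_iUnion_null fun i => ?_)
    have h4 := hae i
    rw [ae_iff, Measure.restrict_apply' (hL'm i)] at h4
    rw [inter_comm]
    exact h4
  -- on the interior of K the values of f lie in T
  have hint : ∀ x ∈ interior K, f x ∈ T := by
    intro x hx
    by_contra hxT
    have hopen : IsOpen (interior K ∩ (f ⁻¹' T)ᶜ) :=
      isOpen_interior.inter (hTclosed.preimage hfc).isOpen_compl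
    have hpos : 0 < volume (interior K ∩ (f ⁻¹' T)ᶜ) :=
      hopen.measure_pos _ ⟨x, hx, hxT⟩
    have hle : volume (interior K ∩ (f ⁻¹' T)ᶜ) ≤ volume (K ∩ (f ⁻¹' T)ᶜ) :=
      measure_mono (inter_subset_inter_left _ interior_subset)
    rw [hnull] at hle
    exact absurd (lt_of_lt_of_le hpos hle) (lt_irrefl _)
  obtain ⟨x₀, hx₀⟩ := hKi
  have hconn : IsPreconnected (interior K) := hKc.interior.isPreconnected
  have hconst : ∀ x ∈ interior K, f x = f x₀ := fun x hx =>
    hconn.constant_of_mapsTo hTfin.isDiscrete hfc.continuousOn hint hx hx₀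
  refine ⟨f x₀, ?_⟩
  have hfront : volume (frontier K) = 0 := hKc.addHaar_frontier volume
  have hae2 : ∀ᵐ x ∂volume, x ∉ frontier K := measure_eq_zero_iff_ae_notMem.1 hfront
  refine (ae_restrict_iff' hK.measurableSet).2 ?_
  filter_upwards [hae2] with x hx hxK
  refine hconst x ?_
  by_contra hxi
  exact hx ⟨subset_closure hxK, hxi⟩

end Vale.Agent.Lib.P074

end

section

open MeasureTheory Set Filter Topology Function
open scoped ENNReal

namespace Vale.Agent.Lib.P074

variable {d : ℕ} {ι P : Type*} [Fintype ι] [Nonempty ι] [Fintype P] [Nonempty P]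
variable {K : Set (Vec d)} {g : Vec d → ℝ} {G : ℝ}

section merge

variable {y : ι → Vec d} {m : ι → ℝ} {f : P → ι} {π : P → ℝ}

lemma sum_fiber [DecidableEq ι] (F : P → ℝ) (f : P → ι) :
    ∑ a, ∑ p with f p = a, F p = ∑ p, F p :=
  Finset.sum_fiberwise Finset.univ f F

/-- Merging the atoms with equal sites does not change the value. -/
theorem Aval_merge [DecidableEq ι] (hK : IsCompact K) (hg : Dens K g G) (hm : ∀ a, 0 < m a)
    (hsum : ∫ x in K, g x = ∑ a, m a) (hf : Surjective f) (hπ : ∀ p, 0 < π p)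
    (hπf : ∀ a, ∑ p with f p = a, π p = m a) :
    Aval K (fun p => y (f p)) g π = Aval K y g m := by
  have hsumπ : ∫ x in K, g x = ∑ p, π p := by
    rw [hsum, ← sum_fiber π f]
    exact Finset.sum_congr rfl fun a _ => (hπf a).symm
  apply le_antisymm
  · refine le_Aval fun h => ?_
    have h1 := Aval_le (y := fun p => y (f p)) hK hg hπ hsumπ (fun p => h (f p))
    refine h1.trans (le_of_eq ?_)
    have h2 : ∀ x, pot (fun p => y (f p)) (fun p => h (f p)) x = pot y h x := by
      intro x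
      apply le_antisymm
      · rw [pot_le_iff]
        intro p
        exact aff_le_pot y h (f p) x
      · rw [pot_le_iff]
        intro a
        obtain ⟨p, rfl⟩ := hf a
        exact aff_le_pot (fun p => y (f p)) (fun p => h (f p)) p x
    simp only [Phi, h2]
    congr 1
    rw [← sum_fiber (fun p => π p * h (f p)) f]
    refine Finset.sum_congr rfl fun a _ => ?_
    rw [← hπf a, Finset.sum_mul]
    refine Finset.sum_congr rfl fun p hp => ?_
    rw [(Finset.mem_filter.1 hp).2]
  · refine le_Aval fun h => ?_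
    have hex : ∀ a, ∃ p, f p = a ∧ ∀ p', f p' = a → h p ≤ h p' := by
      intro a
      have hne : (Finset.univ.filter fun p => f p = a).Nonempty := by
        obtain ⟨p, hp⟩ := hf a
        exact ⟨p, by simp [hp]⟩
      obtain ⟨p, hp, hmin⟩ := Finset.exists_min_image _ h hne
      exact ⟨p, (Finset.mem_filter.1 hp).2, fun p' hp' => hmin p' (by simp [hp'])⟩
    choose pa hpa hpamin using hex
    set e : ι → ℝ := fun a => h (pa a) with he
    have h1 := Aval_le (y := y) hK hg hm hsum e
    refine h1.trans ?_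
    simp only [Phi]
    have hpot : ∀ x, pot y e x ≤ pot (fun p => y (f p)) h x := by
      intro x
      rw [pot_le_iff]
      intro a
      have := aff_le_pot (fun p => y (f p)) h (pa a) x
      simp only [aff, hpa] at this ⊢
      exact this
    have h2 : ∫ x in K, pot y e x * g x ≤ ∫ x in K, pot (fun p => y (f p)) h x * g x :=
      setIntegral_mono_on (hg.integrableOn_mul hK (continuous_pot _ _))
        (hg.integrableOn_mul hK (continuous_pot _ _)) hK.measurableSet fun x hx =>
          mul_le_mul_of_nonneg_right (hpot x) (hg.nonneg x hx)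
    have h3 : ∑ a, m a * e a ≤ ∑ p, π p * h p := by
      rw [← sum_fiber (fun p => π p * h p) f]
      refine Finset.sum_le_sum fun a _ => ?_
      rw [← hπf a, Finset.sum_mul]
      refine Finset.sum_le_sum fun p hp => ?_
      exact mul_le_mul_of_nonneg_left (hpamin a p (Finset.mem_filter.1 hp).2) (hπ p).le
    linarith

end merge

section perturb

variable {y : ι → Vec d} {M : ι → ℝ}

lemma integrableOn_pot_mul (hK : IsCompact K) {w : Vec d → ℝ} (hw : Measurable w) {W : ℝ}
    (hwW : ∀ x ∈ K, |w x| ≤ W) {f : Vec d → ℝ} (hf : Continuous f) :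
    IntegrableOn (fun x => f x * w x) K := by
  obtain ⟨C, hC⟩ := hK.exists_bound_of_continuousOn hf.continuousOn
  have : IsFiniteMeasure (volume.restrict K) := ⟨by
    rw [Measure.restrict_apply_univ]; exact hK.measure_lt_top⟩
  refine Integrable.of_bound (hf.measurable.mul hw).aestronglyMeasurable (C * W) ?_
  refine (ae_restrict_iff' hK.measurableSet).2 (ae_of_all _ fun x hx => ?_)
  rw [norm_mul, Real.norm_eq_abs, Real.norm_eq_abs]
  have h1 : |f x| ≤ C := hC x hx
  exact mul_le_mul h1 (hwW x hx) (abs_nonneg _) ((abs_nonneg _).trans h1)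

lemma Phi_perturb (hK : IsCompact K) {w : Vec d → ℝ} (hw : Measurable w) {W : ℝ}
    (hwW : ∀ x ∈ K, |w x| ≤ W) (s : ℝ) (h : ι → ℝ) :
    Phi K y (fun x => 1 + s * w x) M h =
      Phi K y (fun _ => 1) M h + s * ∫ x in K, pot y h x * w x := by
  simp only [Phi, mul_one]
  have h1 : ∀ x, pot y h x * (1 + s * w x) = pot y h x + s * (pot y h x * w x) := fun x => by ring
  simp only [h1]
  have h2 : IntegrableOn (fun x => s * (pot y h x * w x)) K :=
    (integrableOn_pot_mul hK hw hwW (continuous_pot y h)).const_mul s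
  rw [integral_add (integrableOn_pot hK y h) h2, integral_const_mul]
  ring

lemma continuous_psi (hK : IsCompact K) {w : Vec d → ℝ} (hw : Measurable w) {W : ℝ}
    (hwW : ∀ x ∈ K, |w x| ≤ W) (y : ι → Vec d) :
    Continuous fun h : ι → ℝ => ∫ x in K, pot y h x * w x := by
  have hW0 : 0 ≤ W ∨ K = ∅ := by
    rcases K.eq_empty_or_nonempty with he | ⟨x, hx⟩
    · exact Or.inr he
    · exact Or.inl ((abs_nonneg _).trans (hwW x hx))
  rcases hW0 with hW0 | he
  · have hlip : ∀ h h' : ι → ℝ, dist (∫ x in K, pot y h x * w x) (∫ x in K, pot y h' x * w x) ≤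
        (W * (volume K).toReal) * dist h h' := by
      intro h h'
      rw [Real.dist_eq, ← integral_sub (integrableOn_pot_mul hK hw hwW (continuous_pot y h))
        (integrableOn_pot_mul hK hw hwW (continuous_pot y h')), dist_eq_norm]
      have h3 := norm_setIntegral_le_of_norm_le_const (μ := volume) (s := K)
        (f := fun x => pot y h x * w x - pot y h' x * w x) (C := W * ‖h - h'‖)
        hK.measure_lt_top (fun x hx => by
          rw [← sub_mul, norm_mul, mul_comm, Real.norm_eq_abs]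
          exact mul_le_mul (hwW x hx) (abs_pot_sub_h y h h' x) (norm_nonneg _) hW0)
      rw [Real.norm_eq_abs] at h3
      refine h3.trans (le_of_eq ?_)
      simp [Measure.real]
      ring
    have h0 : 0 ≤ W * (volume K).toReal := by positivity
    exact (LipschitzWith.of_dist_le_mul (K := ⟨_, h0⟩) (by
      intro h h'
      exact hlip h h')).continuous
  · subst he
    simp [continuous_const]

/-- Continuity of the first derivative of the value in the perturbation parameter. -/
theorem psi_lim (hK : IsCompact K) (hKc : Convex ℝ K) (hKi : (interior K).Nonempty)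
    (hy : Injective y) (hsum : (volume K).toReal = ∑ i, M i) {w : Vec d → ℝ} (hw : Measurable w)
    {W : ℝ} (hwW : ∀ x ∈ K, |w x| ≤ W) (hw0 : ∫ x in K, w x = 0) {B : ℝ} {h0 : ι → ℝ}
    (hmin0 : ∀ e, Phi K y (fun _ => 1) M h0 ≤ Phi K y (fun _ => 1) M e)
    {δ : ℝ} (hδ : 0 < δ) :
    ∃ s₀ : ℝ, 0 < s₀ ∧ ∀ s, 0 < s → s < s₀ → ∀ h : ι → ℝ, (∀ i, 0 ≤ h i ∧ h i ≤ B) →
      (∀ e, Phi K y (fun x => 1 + s * w x) M h ≤ Phi K y (fun x => 1 + s * w x) M e) →
      (∫ x in K, pot y h0 x * w x) - δ ≤ ∫ x in K, pot y h x * w x := by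
  set Ψ : (ι → ℝ) → ℝ := fun h => ∫ x in K, pot y h x * w x with hΨ
  have hΨc : Continuous Ψ := continuous_psi hK hw hwW y
  set Φ₀ : (ι → ℝ) → ℝ := Phi K y (fun _ => 1) M with hΦ₀
  have hΦc : Continuous Φ₀ := continuous_Phi hK (dens_one K) y
  set S : Set (ι → ℝ) := Set.pi univ fun _ => Icc 0 B with hS
  have hScomp : IsCompact S := isCompact_univ_pi fun _ => isCompact_Icc
  set U : Set (ι → ℝ) := S ∩ {h | Ψ h ≤ Ψ h0 - δ} with hU
  have hUcomp : IsCompact U := hScomp.inter_right (isClosed_le hΨc continuous_const)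
  rcases U.eq_empty_or_nonempty with hUe | hUne
  · refine ⟨1, one_pos, fun s _ _ h hbox _ => ?_⟩
    by_contra hcon
    push Not at hcon
    have : h ∈ U := ⟨fun i _ => hbox i, hcon.le⟩
    rw [hUe] at this
    exact this
  obtain ⟨hU₀, hU₀mem, hU₀min⟩ := hUcomp.exists_isMinOn hUne hΦc.continuousOn
  set η := Φ₀ hU₀ - Φ₀ h0 with hη
  have hη0 : 0 < η := by
    have hle : 0 ≤ η := sub_nonneg.2 (hmin0 hU₀)
    rcases hle.eq_or_lt with heq | hlt
    · exfalso
      have hmin1 : ∀ e, Phi K y (fun _ => 1) M hU₀ ≤ Phi K y (fun _ => 1) M e := by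
        intro e
        have h2 : Φ₀ hU₀ = Φ₀ h0 := by linarith
        change Φ₀ hU₀ ≤ Φ₀ e
        rw [h2]
        exact hmin0 e
      obtain ⟨c, hc⟩ := pot_sub_ae_const hK hKc hKi hy hsum hmin1 hmin0
      have h3 : Ψ hU₀ - Ψ h0 = 0 := by
        simp only [hΨ]
        rw [← integral_sub (integrableOn_pot_mul hK hw hwW (continuous_pot y hU₀))
          (integrableOn_pot_mul hK hw hwW (continuous_pot y h0))]
        have h4 : ∫ x in K, (pot y hU₀ x * w x - pot y h0 x * w x) = ∫ x in K, c * w x := by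
          refine integral_congr_ae ?_
          filter_upwards [hc] with x hx
          rw [← sub_mul, hx]
        rw [h4, integral_const_mul, hw0, mul_zero]
      have h5 := hU₀mem.2
      simp only [mem_setOf_eq] at h5
      linarith
    · exact hlt
  obtain ⟨C₁, hC₁⟩ := hScomp.exists_bound_of_continuousOn hΨc.continuousOn
  set C := max C₁ |Ψ h0| with hC
  have hC0 : 0 ≤ C := (abs_nonneg _).trans (le_max_right _ _)
  refine ⟨η / (2 * C + 1), by positivity, fun s hs0 hs h hbox hmins => ?_⟩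
  by_contra hcon
  push Not at hcon
  have hhU : h ∈ U := ⟨fun i _ => hbox i, hcon.le⟩
  have h2 := hmins h0
  rw [Phi_perturb hK hw hwW, Phi_perturb hK hw hwW] at h2
  have h3 : Φ₀ hU₀ ≤ Φ₀ h := hU₀min hhU
  have h4 : |Ψ h| ≤ C := (hC₁ h hhU.1).trans (le_max_left _ _)
  have h5 : |Ψ h0| ≤ C := le_max_right _ _
  have h6 : Ψ h0 - Ψ h ≤ 2 * C := by
    have := (abs_le.1 h4).1
    have := (abs_le.1 h5).2
    linarith
  have h7 : s * (Ψ h0 - Ψ h) ≤ s * (2 * C) := mul_le_mul_of_nonneg_left h6 hs0.le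
  have h8 : η ≤ s * (2 * C) := by
    have : Φ₀ h + s * Ψ h ≤ Φ₀ h0 + s * Ψ h0 := h2
    have e : s * (Ψ h0 - Ψ h) = s * Ψ h0 - s * Ψ h := by ring
    rw [hη]
    linarith
  have h9 : s * (2 * C + 1) < η := by
    rwa [lt_div_iff₀ (by positivity)] at hs
  nlinarith

end perturb

end Vale.Agent.Lib.P074

end

section

open MeasureTheory Set Filter Topology Function
open scoped ENNReal

namespace Vale.Agent.Lib.P074

variable {d : ℕ} {K : Set (Vec d)}

section basic

variable {ι : Type*} [Fintype ι] [Nonempty ι] {y : ι → Vec d} {M : ι → ℝ} {g : Vec d → ℝ} {G : ℝ}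

lemma min_of_exact (hK : IsCompact K) (hy : Injective y) (hg : Dens K g G) {h : ι → ℝ}
    (hex : IsExact K y g M h) (e : ι → ℝ) : Phi K y g M h ≤ Phi K y g M e := by
  rw [Phi_eq_of_exact hK hy hg hex]
  exact mom_dot_le_Phi hK hy hg hex y e

lemma Aval_eq_of_min (hK : IsCompact K) (hg : Dens K g G) (hM : ∀ i, 0 < M i)
    (hsum : ∫ x in K, g x = ∑ i, M i) {h : ι → ℝ} (hmin : ∀ e, Phi K y g M h ≤ Phi K y g M e) :
    Aval K y g M = Phi K y g M h :=
  le_antisymm (Aval_le hK hg hM hsum h) (le_Aval hmin)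

lemma dens_perturb {w : Vec d → ℝ} (hw : Measurable w) {W s : ℝ} (hwW : ∀ x ∈ K, |w x| ≤ W)
    (hsW : |s| * W ≤ 1 / 2) : Dens K (fun x => 1 + s * w x) (3 / 2) := by
  have hsw : ∀ x ∈ K, |s * w x| ≤ 1 / 2 := fun x hx => by
    rw [abs_mul]
    exact (mul_le_mul_of_nonneg_left (hwW x hx) (abs_nonneg _)).trans hsW
  refine ⟨measurable_const.add (hw.const_mul s), fun x hx => ?_, fun x hx => ?_⟩
  · have := (abs_le.1 (hsw x hx)).1
    linarith
  · have := (abs_le.1 (hsw x hx)).2
    linarith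

lemma integral_perturb (hK : IsCompact K) {w : Vec d → ℝ} (hw : Measurable w) {W : ℝ}
    (hwW : ∀ x ∈ K, |w x| ≤ W) (hw0 : ∫ x in K, w x = 0) (s : ℝ) :
    ∫ x in K, (1 + s * w x) = (volume K).toReal := by
  have hwint : IntegrableOn w K := by
    have : IsFiniteMeasure (volume.restrict K) := ⟨by
      rw [Measure.restrict_apply_univ]; exact hK.measure_lt_top⟩
    refine Integrable.of_bound hw.aestronglyMeasurable W ?_
    exact (ae_restrict_iff' hK.measurableSet).2 (ae_of_all _ fun x hx => hwW x hx)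
  have hc1 : IntegrableOn (fun _ : Vec d => (1 : ℝ)) K :=
    integrableOn_const hK.measure_lt_top.ne (by simp)
  have hc2 : IntegrableOn (fun x => s * w x) K := hwint.const_mul s
  rw [integral_add hc1 hc2, integral_const_mul, hw0, mul_zero, add_zero]
  simp [Measure.real]

end basic

/-- **Linear stability of the potentials for finite targets.** -/
theorem pot_stability {n : ℕ} {K : Set (Vec (n + 1))} (hK : IsCompact K) (hKc : Convex ℝ K)
    (hKi : (interior K).Nonempty) {ιF ιG P : Type*} [Fintype ιF] [Nonempty ιF] [Fintype ιG]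
    [Nonempty ιG] [Fintype P] [Nonempty P] [DecidableEq ιF] [DecidableEq ιG]
    {y : ιF → Vec (n + 1)} (hy : Injective y) {z : ιG → Vec (n + 1)} (hz : Injective z)
    {m : ιF → ℝ} (hm : ∀ a, 0 < m a) {m' : ιG → ℝ} (hm' : ∀ b, 0 < m' b)
    (hsum : (volume K).toReal = ∑ a, m a) (hsum' : (volume K).toReal = ∑ b, m' b)
    {f : P → ιF} (hf : Surjective f) {g : P → ιG} (hg : Surjective g)
    (hfg : ∀ p q, p ≠ q → f p ≠ f q ∨ g p ≠ g q)
    {π : P → ℝ} (hπ : ∀ p, 0 < π p) (hπf : ∀ a, ∑ p with f p = a, π p = m a)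
    (hπg : ∀ b, ∑ p with g p = b, π p = m' b)
    {R : ℝ} (hR : ∀ x ∈ K, ∀ k, |x k| ≤ R)
    {h : ιF → ℝ} (hex : IsExact K y (fun _ => 1) m h)
    {h' : ιG → ℝ} (hex' : IsExact K z (fun _ => 1) m' h') :
    ∃ c : ℝ, ∫ x in K, (pot y h x - pot z h' x - c) ^ 2 ≤
      36 * (n + 1) * R ^ 2 * ∑ p, π p * ((z (g p) - y (f p)) ⬝ᵥ (z (g p) - y (f p))) := by
  have hKpos : 0 < (volume K).toReal := by
    refine ENNReal.toReal_pos ?_ hK.measure_lt_top.ne
    have h1 : 0 < volume (interior K) := isOpen_interior.measure_pos _ hKi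
    exact (lt_of_lt_of_le h1 (measure_mono interior_subset)).ne'
  set φ₀ := pot y h with hφ₀
  set φ₁ := pot z h' with hφ₁
  have hφc : Continuous fun x => φ₀ x - φ₁ x :=
    (continuous_pot y h).sub (continuous_pot z h')
  set c := (∫ x in K, (φ₀ x - φ₁ x)) / (volume K).toReal with hc
  refine ⟨c, ?_⟩
  set w : Vec (n + 1) → ℝ := fun x => φ₀ x - φ₁ x - c with hwdef
  have hwc : Continuous w := hφc.sub continuous_const
  have hw : Measurable w := hwc.measurable
  obtain ⟨W₀, hW₀⟩ := hK.exists_bound_of_continuousOn hwc.continuousOn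
  set W := max W₀ 1 with hW
  have hW1 : 1 ≤ W := le_max_right _ _
  have hwW : ∀ x ∈ K, |w x| ≤ W := fun x hx => (hW₀ x hx).trans (le_max_left _ _)
  have hw0 : ∫ x in K, w x = 0 := by
    have h1 : IntegrableOn (fun x => φ₀ x - φ₁ x) K :=
      hφc.continuousOn.integrableOn_compact hK
    have h2 : IntegrableOn (fun _ : Vec (n + 1) => c) K :=
      integrableOn_const hK.measure_lt_top.ne (by simp)
    simp only [hwdef]
    rw [integral_sub h1 h2, setIntegral_const, smul_eq_mul, hc, Measure.real]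
    field_simp
    ring
  set W2 := ∫ x in K, (w x) ^ 2 with hW2
  have hW20 : 0 ≤ W2 := setIntegral_nonneg hK.measurableSet fun x _ => sq_nonneg _
  set V := ∑ p, π p * ((z (g p) - y (f p)) ⬝ᵥ (z (g p) - y (f p))) with hV
  have hV0 : 0 ≤ V := Finset.sum_nonneg fun i _ => mul_nonneg (hπ i).le
    (Finset.sum_nonneg fun k _ => mul_self_nonneg _)
  set Z := 36 * ((n : ℝ) + 1) * R ^ 2 * W2 * V with hZ
  have hZ0 : 0 ≤ Z := by positivity
  have hφint : ∀ {φ : Vec (n + 1) → ℝ}, Continuous φ → IntegrableOn (fun x => φ x * w x) K :=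
    fun hφ => integrableOn_pot_mul hK hw hwW hφ
  -- the bound for every positive δ
  have hdelta : ∀ δ : ℝ, 0 < δ → W2 - δ ≤ Real.sqrt Z := by
    intro δ hδ
    obtain ⟨D, hD0, hD⟩ := exists_dot_bound hK y
    obtain ⟨mm, hmm, hmle⟩ := exists_min_mass hm
    have hD1 := dens_one K
    have hsum1 : ∫ x in K, (fun _ => (1 : ℝ)) x = ∑ a, m a := by
      rw [← hsum]
      simp [Measure.real]
    have hsum1' : ∫ x in K, (fun _ => (1 : ℝ)) x = ∑ b, m' b := by
      rw [← hsum']
      simp [Measure.real]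
    have hmin0 := min_of_exact hK hy hD1 hex
    have hmin0' := min_of_exact hK hz hD1 hex'
    obtain ⟨s₀, hs₀, hlim⟩ := psi_lim hK hKc hKi hy hsum hw hwW hw0
      (B := 2 * D * (∑ a, m a) / mm) hmin0 hδ
    set s := min (s₀ / 2) (1 / (2 * W)) with hs
    have hs0 : 0 < s := lt_min (by positivity) (by positivity)
    have hss : s < s₀ := lt_of_le_of_lt (min_le_left _ _) (by linarith)
    have hsW : |s| * W ≤ 1 / 2 := by
      rw [abs_of_pos hs0]
      have h2 : s ≤ 1 / (2 * W) := min_le_right _ _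
      have h3 : 0 < W := by linarith
      calc s * W ≤ 1 / (2 * W) * W := mul_le_mul_of_nonneg_right h2 h3.le
        _ = 1 / 2 := by field_simp
    have hDs := dens_perturb hw hwW hsW (K := K)
    have hsums : ∫ x in K, (fun x => 1 + s * w x) x = ∑ a, m a := by
      rw [← hsum]
      exact integral_perturb hK hw hwW hw0 s
    have hsums' : ∫ x in K, (fun x => 1 + s * w x) x = ∑ b, m' b := by
      rw [← hsum']
      exact integral_perturb hK hw hwW hw0 s
    obtain ⟨hs', hbox, _, hmins⟩ := exists_exact hK hy hDs hm hsums hD0 hD hmm hmle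
    have hΨ := hlim s hs0 hss hs' hbox hmins
    -- upper and lower bounds for the values
    have h1 : Aval K y (fun _ => 1) m + s * ∫ x in K, pot y hs' x * w x ≤
        Aval K y (fun x => 1 + s * w x) m := by
      rw [Aval_eq_of_min hK hDs hm hsums hmins, Phi_perturb hK hw hwW]
      have := Aval_le (y := y) hK hD1 hm hsum1 hs'
      linarith
    have h2 : Aval K z (fun x => 1 + s * w x) m' ≤
        Aval K z (fun _ => 1) m' + s * ∫ x in K, φ₁ x * w x := by
      have h3 := Aval_le (y := z) hK hDs hm' hsums' h'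
      rw [Phi_perturb hK hw hwW] at h3
      rwa [Aval_eq_of_min hK hD1 hm' hsum1' hmin0']
    have hsumπ : (volume K).toReal = ∑ p, π p := by
      rw [hsum, ← sum_fiber π f]
      exact Finset.sum_congr rfl fun a _ => (hπf a).symm
    have hne : ∀ p q, p ≠ q → y (f p) ≠ y (f q) ∨ z (g p) ≠ z (g q) := by
      intro p q hpq
      rcases hfg p q hpq with h3 | h3
      · exact Or.inl (hy.ne h3)
      · exact Or.inr (hz.ne h3)
    have hchain := chain_bound hK hKc hπ hsumπ hw hwW hw0 hsW hR
      (fun p => y (f p)) (fun p => z (g p)) hne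
    rw [Aval_merge hK hDs hm hsums hf hπ hπf, Aval_merge hK hD1 hm hsum1 hf hπ hπf,
      Aval_merge hK hDs hm' hsums' hg hπ hπg, Aval_merge hK hD1 hm' hsum1' hg hπ hπg,
      abs_of_pos hs0] at hchain
    have h3 := (abs_le.1 hchain).1
    have h4 : s * ((∫ x in K, φ₀ x * w x) - δ - ∫ x in K, φ₁ x * w x) ≤ s * Real.sqrt Z := by
      have h5 : s * ((∫ x in K, φ₀ x * w x) - δ) ≤ s * ∫ x in K, pot y hs' x * w x :=
        mul_le_mul_of_nonneg_left hΨ hs0.le
      rw [mul_sub]
      linarith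
    have h6 := le_of_mul_le_mul_left h4 hs0
    have h7 : (∫ x in K, φ₀ x * w x) - (∫ x in K, φ₁ x * w x) = W2 := by
      rw [← integral_sub (hφint (continuous_pot y h)) (hφint (continuous_pot z h'))]
      have e1 : ∀ x, φ₀ x * w x - φ₁ x * w x = (w x) ^ 2 + c * w x := fun x => by
        simp only [hwdef]
        ring
      refine (integral_congr_ae (ae_of_all _ e1)).trans ?_
      have i1 : IntegrableOn (fun x => (w x) ^ 2) K :=
        (hwc.pow 2).continuousOn.integrableOn_compact hK
      have i2 : IntegrableOn (fun x => c * w x) K :=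
        (hwc.continuousOn.integrableOn_compact hK).const_mul c
      rw [integral_add i1 i2, integral_const_mul, hw0, mul_zero, add_zero]
    linarith
  have hle : W2 ≤ Real.sqrt Z := by
    refine le_of_forall_pos_le_add fun δ hδ => ?_
    linarith [hdelta δ hδ]
  have hsq : W2 ^ 2 ≤ Z := by
    have := Real.sq_sqrt hZ0
    nlinarith [Real.sqrt_nonneg Z]
  rcases hW20.eq_or_lt with h0 | hpos
  · rw [← h0]
    positivity
  · have e : Z = (36 * ((n : ℝ) + 1) * R ^ 2 * V) * W2 := by rw [hZ]; ring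
    rw [e, pow_two] at hsq
    exact le_of_mul_le_mul_right hsq hpos

end Vale.Agent.Lib.P074

end
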