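import Vale.Agent.Lib.P074.Part2

section

open MeasureTheory Set Filter Topology
open scoped ENNReal

namespace Vale.Agent.Lib.P074

/-- One dimensional data: `u` is a bounded monotone selection of subgradients of `φ`. -/
structure Sub1 (φ u : ℝ → ℝ) (L : ℝ) : Prop where
  mono : Monotone u
  bound : ∀ t, |u t| ≤ L
  sub : ∀ s t, φ s + (t - s) * u s ≤ φ t

namespace Sub1

variable {φ u : ℝ → ℝ} {L : ℝ}

lemma L_nonneg (h : Sub1 φ u L) : 0 ≤ L := (abs_nonneg _).trans (h.bound 0)

lemma lip (h : Sub1 φ u L) (s t : ℝ) : |φ t - φ s| ≤ L * |t - s| := by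
  have h1 := h.sub s t
  have h2 := h.sub t s
  have hs := abs_le.1 (h.bound s)
  have ht := abs_le.1 (h.bound t)
  rcases le_total s t with hst | hst
  · rw [abs_of_nonneg (sub_nonneg.2 hst), abs_le]
    constructor <;> nlinarith
  · rw [abs_of_nonpos (sub_nonpos.2 hst), abs_le]
    constructor <;> nlinarith

lemma continuous (h : Sub1 φ u L) : Continuous φ := by
  have : LipschitzWith ⟨L, h.L_nonneg⟩ φ := LipschitzWith.of_dist_le_mul fun x y => by
    rw [Real.dist_eq, Real.dist_eq]
    exact h.lip y x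
  exact this.continuous

lemma hasDerivAt (h : Sub1 φ u L) {x : ℝ} (hx : ContinuousAt u x) : HasDerivAt φ (u x) x := by
  rw [hasDerivAt_iff_isLittleO, Asymptotics.isLittleO_iff]
  intro ε hε
  have hnear : ∀ᶠ t in 𝓝 x, |u t - u x| < ε := by
    have := Metric.continuousAt_iff'.1 hx ε hε
    simpa [Real.dist_eq] using this
  filter_upwards [hnear] with t ht
  have h1 := h.sub x t
  have h2 := h.sub t x
  have ht' := abs_lt.1 ht
  simp only [smul_eq_mul, Real.norm_eq_abs]
  rcases le_total x t with hxt | hxt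
  · rw [abs_of_nonneg (sub_nonneg.2 hxt), abs_le]
    constructor <;> nlinarith
  · rw [abs_of_nonpos (sub_nonpos.2 hxt), abs_le]
    constructor <;> nlinarith

lemma ftc (h : Sub1 φ u L) {p b : ℝ} (hpb : p ≤ b) : ∫ t in Ioc p b, u t = φ b - φ p := by
  rw [← intervalIntegral.integral_of_le hpb]
  refine integral_eq_of_hasDerivAt_off_countable_of_le φ u hpb
    (s := {t | ¬ ContinuousAt u t}) h.mono.countable_not_continuousAt
    h.continuous.continuousOn (fun x hx => h.hasDerivAt ?_) (h.mono.intervalIntegrable)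
  simpa using hx.2

end Sub1

lemma integrable_bdd_Ioc {G : ℝ → ℝ} {a b M : ℝ} (hG : Measurable G) (hM : ∀ t, |G t| ≤ M) :
    IntegrableOn G (Ioc a b) := by
  refine Measure.integrableOn_of_bounded (M := M) (by simp) hG.aestronglyMeasurable ?_
  exact Eventually.of_forall fun t => by simpa using hM t

lemma layer_inner {G u : ℝ → ℝ} {a b S : ℝ} (hab : a ≤ b) (hG : Measurable G)
    (hu : Monotone u) (hS : ∀ p ∈ Icc a b, |∫ t in Ioc p b, G t| ≤ S) (c : ℝ) :
    |∫ t in Ioc a b, G t * (if c < u t then (1 : ℝ) else 0)| ≤ S := by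
  have hS0 : 0 ≤ S := (abs_nonneg _).trans (hS a ⟨le_rfl, hab⟩)
  have hmeas : MeasurableSet {t | c < u t} := measurableSet_lt measurable_const hu.measurable
  have h1 : ∀ t, G t * (if c < u t then (1 : ℝ) else 0) = {t | c < u t}.indicator G t := by
    intro t
    by_cases ht : c < u t <;> simp [ht, indicator]
  simp_rw [h1]
  rw [setIntegral_indicator hmeas]
  set A := Ioc a b ∩ {t | c < u t} with hA
  by_cases hne : A.Nonempty
  · have hbdd : BddBelow A := ⟨a, fun t ht => ht.1.1.le⟩
    set p := sInf A with hp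
    have hpa : a ≤ p := le_csInf hne fun t ht => ht.1.1.le
    obtain ⟨t₀, ht₀⟩ := hne
    have hpb : p ≤ b := (csInf_le hbdd ht₀).trans ht₀.1.2
    have h2 : Ioc p b ⊆ A := by
      intro t ht
      obtain ⟨s, hs, hst⟩ := exists_lt_of_csInf_lt ⟨t₀, ht₀⟩ ht.1
      exact ⟨⟨hpa.trans_lt ht.1, ht.2⟩, lt_of_lt_of_le hs.2 (hu hst.le)⟩
    have h3 : A ⊆ Icc p b := fun t ht => ⟨csInf_le hbdd ht, ht.1.2⟩
    have h4 : A =ᵐ[volume] Ioc p b :=
      EventuallyLE.antisymm ((HasSubset.Subset.eventuallyLE h3).trans Ioc_ae_eq_Icc.symm.le)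
        (HasSubset.Subset.eventuallyLE h2)
    rw [setIntegral_congr_set h4]
    exact hS p ⟨hpa, hpb⟩
  · rw [not_nonempty_iff_eq_empty.1 hne]
    simpa using hS0

lemma layer_rep {u : ℝ} {L : ℝ} (hL : |u| ≤ L) :
    u = -L + ∫ c in Ioc (-L) L, (if c < u then (1 : ℝ) else 0) := by
  have h1 : ∀ c : ℝ, (if c < u then (1 : ℝ) else 0) = (Iio u).indicator (fun _ => (1 : ℝ)) c := by
    intro c
    by_cases ht : c < u <;> simp [ht, indicator]
  simp_rw [h1]
  rw [setIntegral_indicator measurableSet_Iio]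
  have h2 : Ioc (-L) L ∩ Iio u = Ioo (-L) u := by
    ext c
    have := (abs_le.1 hL).2
    simp only [mem_inter_iff, mem_Ioc, mem_Iio, mem_Ioo]
    constructor
    · rintro ⟨⟨a, _⟩, b⟩
      exact ⟨a, b⟩
    · rintro ⟨a, b⟩
      exact ⟨⟨a, by linarith⟩, b⟩
  rw [h2, setIntegral_const, smul_eq_mul, mul_one, Measure.real, Real.volume_Ioo,
    ENNReal.toReal_ofReal]
  · ring
  · have := (abs_le.1 hL).1
    linarith

lemma layer_cake {G u : ℝ → ℝ} {a b L S M : ℝ} (hab : a ≤ b) (hG : Measurable G)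
    (hGM : ∀ t, |G t| ≤ M) (hu : Monotone u) (hL : ∀ t, |u t| ≤ L)
    (hS : ∀ p ∈ Icc a b, |∫ t in Ioc p b, G t| ≤ S) :
    |∫ t in Ioc a b, G t * u t| ≤ 3 * L * S := by
  have hL0 : 0 ≤ L := (abs_nonneg _).trans (hL 0)
  have hS0 : 0 ≤ S := (abs_nonneg _).trans (hS a ⟨le_rfl, hab⟩)
  have hM0 : 0 ≤ M := (abs_nonneg _).trans (hGM 0)
  have hum := hu.measurable
  set H : ℝ → ℝ → ℝ := fun t c => G t * (if c < u t then (1 : ℝ) else 0) with hH
  have hHm : Measurable (Function.uncurry H) := by
    refine (hG.comp measurable_fst).mul (Measurable.ite ?_ measurable_const measurable_const)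
    exact measurableSet_lt measurable_snd (hum.comp measurable_fst)
  have hHb : ∀ t c, |H t c| ≤ M := by
    intro t c
    simp only [hH]
    by_cases h : c < u t
    · simpa [h] using hGM t
    · simp [h, hM0]
  have hint : Integrable (Function.uncurry H)
      ((volume.restrict (Ioc a b)).prod (volume.restrict (Ioc (-L) L))) := by
    refine Integrable.of_bound (C := M) hHm.aestronglyMeasurable ?_
    exact Eventually.of_forall fun p => by simpa [Function.uncurry] using hHb p.1 p.2
  have hinner : ∀ t, IntegrableOn (H t) (Ioc (-L) L) := fun t =>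
    integrable_bdd_Ioc (hHm.comp (measurable_const.prodMk measurable_id)) fun c => hHb t c
  have hrep : ∀ t, G t * u t = G t * (-L) + ∫ c in Ioc (-L) L, H t c := by
    intro t
    conv_lhs => rw [layer_rep (hL t)]
    simp only [hH]
    rw [integral_const_mul]
    ring
  have hGi : IntegrableOn G (Ioc a b) := integrable_bdd_Ioc hG hGM
  have hout : IntegrableOn (fun t => ∫ c in Ioc (-L) L, H t c) (Ioc a b) := by
    exact hint.integral_prod_left
  simp_rw [hrep]
  rw [integral_add (hGi.mul_const _) hout, integral_mul_const, integral_integral_swap hint]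
  have hb1 : |(∫ t in Ioc a b, G t) * (-L)| ≤ L * S := by
    rw [abs_mul, abs_neg, abs_of_nonneg hL0, mul_comm]
    exact mul_le_mul_of_nonneg_left (hS a ⟨le_rfl, hab⟩) hL0
  have hb2 : |∫ c in Ioc (-L) L, ∫ t in Ioc a b, H t c| ≤ S * (2 * L) := by
    have := norm_setIntegral_le_of_norm_le_const (μ := volume) (s := Ioc (-L) L)
      (f := fun c => ∫ t in Ioc a b, H t c) (C := S) (by simp)
      (fun c _ => by
        simpa [hH] using layer_inner hab hG hu hS c)
    simp only [Real.norm_eq_abs, Measure.real, Real.volume_Ioc] at this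
    rw [ENNReal.toReal_ofReal (by linarith)] at this
    calc _ ≤ _ := this
      _ = S * (2 * L) := by ring
  calc _ ≤ _ := abs_add_le _ _
    _ ≤ L * S + S * (2 * L) := add_le_add hb1 hb2
    _ = 3 * L * S := by ring

/-- The one dimensional interpolation inequality between potentials and subgradients. -/
theorem gn_one_dim {φ₀ φ₁ u₀ u₁ : ℝ → ℝ} {L a b : ℝ} (h₀ : Sub1 φ₀ u₀ L) (h₁ : Sub1 φ₁ u₁ L)
    (hab : a ≤ b) (c : ℝ) :
    (∫ t in Ioc a b, (u₁ t - u₀ t) ^ 2) ^ 3 ≤
      32768 * L ^ 4 * ∫ t in Ioc a b, (φ₁ t - φ₀ t - c) ^ 2 := by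
  have hL0 := h₀.L_nonneg
  set f : ℝ → ℝ := fun t => φ₁ t - φ₀ t - c with hf
  have hfc : Continuous f := (h₁.continuous.sub h₀.continuous).sub continuous_const
  set G : ℝ → ℝ := fun t => u₁ t - u₀ t with hGdef
  have hu₀m := h₀.mono.measurable
  have hu₁m := h₁.mono.measurable
  have hGm : Measurable G := hu₁m.sub hu₀m
  have hGb : ∀ t, |G t| ≤ 2 * L := by
    intro t
    have h1 := abs_le.1 (h₀.bound t)
    have h2 := abs_le.1 (h₁.bound t)
    simp only [hGdef]
    rw [abs_le]
    constructor <;> linarith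
  -- the maximum of `|f|`
  obtain ⟨t₀, ht₀, hmax⟩ := isCompact_Icc.exists_isMaxOn (nonempty_Icc.2 hab)
    (hfc.abs.continuousOn (s := Icc a b))
  set S := |f t₀| with hSdef
  have hS0 : 0 ≤ S := abs_nonneg _
  have hfS : ∀ t ∈ Icc a b, |f t| ≤ S := fun t ht => hmax ht
  -- integrals of `G`
  have hGint : ∀ p ∈ Icc a b, |∫ t in Ioc p b, G t| ≤ 2 * S := by
    intro p hp
    have i₀ : IntegrableOn u₀ (Ioc p b) := integrable_bdd_Ioc hu₀m h₀.bound
    have i₁ : IntegrableOn u₁ (Ioc p b) := integrable_bdd_Ioc hu₁m h₁.bound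
    simp only [hGdef]
    rw [integral_sub i₁ i₀, h₀.ftc hp.2, h₁.ftc hp.2]
    have e : φ₁ b - φ₁ p - (φ₀ b - φ₀ p) = f b - f p := by
      simp only [hf]; ring
    rw [e]
    calc _ ≤ |f b| + |f p| := abs_sub _ _
      _ ≤ S + S := add_le_add (hfS b ⟨hab, le_rfl⟩) (hfS p hp)
      _ = 2 * S := by ring
  -- first bound
  set X := ∫ t in Ioc a b, G t ^ 2 with hX
  have hX0 : 0 ≤ X := setIntegral_nonneg measurableSet_Ioc fun t _ => sq_nonneg _
  have hX1 : X ≤ 12 * L * S := by
    have i₀ : IntegrableOn (fun t => G t * u₀ t) (Ioc a b) :=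
      integrable_bdd_Ioc (M := 2 * L * L) (hGm.mul hu₀m) fun t => by
        rw [abs_mul]; exact mul_le_mul (hGb t) (h₀.bound t) (abs_nonneg _) (by linarith)
    have i₁ : IntegrableOn (fun t => G t * u₁ t) (Ioc a b) :=
      integrable_bdd_Ioc (M := 2 * L * L) (hGm.mul hu₁m) fun t => by
        rw [abs_mul]; exact mul_le_mul (hGb t) (h₁.bound t) (abs_nonneg _) (by linarith)
    have e : X = (∫ t in Ioc a b, G t * u₁ t) - ∫ t in Ioc a b, G t * u₀ t := by
      rw [← integral_sub i₁ i₀, hX]
      refine integral_congr_ae (Eventually.of_forall fun t => ?_)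
      simp only [hGdef]; ring
    have b₀ := abs_le.1 (layer_cake hab hGm hGb h₀.mono h₀.bound hGint)
    have b₁ := abs_le.1 (layer_cake hab hGm hGb h₁.mono h₁.bound hGint)
    rw [e]
    nlinarith [b₀.1, b₁.2]
  -- second bound
  have hX2 : X ≤ 4 * L ^ 2 * (b - a) := by
    have := setIntegral_mono_on (μ := volume) (s := Ioc a b) (f := fun t => G t ^ 2)
      (g := fun _ => 4 * L ^ 2) ?_ (integrableOn_const (by simp) enorm_ne_top) measurableSet_Ioc
      (fun t _ => by
        have := hGb t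
        have h3 : G t ^ 2 ≤ (2 * L) ^ 2 := by
          rw [← sq_abs]
          exact pow_le_pow_left₀ (abs_nonneg _) this 2
        linarith)
    · rw [setIntegral_const, smul_eq_mul, Measure.real, Real.volume_Ioc,
        ENNReal.toReal_ofReal (by linarith), mul_comm] at this
      exact this
    · refine integrable_bdd_Ioc (M := (2 * L) ^ 2) (hGm.pow_const 2) fun t => ?_
      rw [abs_pow]
      exact pow_le_pow_left₀ (abs_nonneg _) (hGb t) 2
  -- Lipschitz bound of `f`
  have hflip : ∀ s t, |f t - f s| ≤ 2 * L * |t - s| := by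
    intro s t
    have e : f t - f s = (φ₁ t - φ₁ s) - (φ₀ t - φ₀ s) := by
      simp only [hf]; ring
    rw [e]
    calc _ ≤ |φ₁ t - φ₁ s| + |φ₀ t - φ₀ s| := abs_sub _ _
      _ ≤ L * |t - s| + L * |t - s| := add_le_add (h₁.lip s t) (h₀.lip s t)
      _ = _ := by ring
  set I := ∫ t in Ioc a b, f t ^ 2 with hI
  have hI0 : 0 ≤ I := setIntegral_nonneg measurableSet_Ioc fun t _ => sq_nonneg _
  -- lower bound on subintervals
  have hsub : ∀ p q, a ≤ p → p ≤ q → q ≤ b → (∀ t ∈ Ioc p q, S ≤ 2 * |f t|) →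
      S ^ 2 / 4 * (q - p) ≤ I := by
    intro p q hap hpq hqb hnear
    have hfi : IntegrableOn (fun t => f t ^ 2) (Ioc a b) :=
      ((hfc.pow 2).continuousOn (s := Icc a b)).integrableOn_compact isCompact_Icc |>.mono_set
        Ioc_subset_Icc_self
    have h1 : ∫ t in Ioc p q, f t ^ 2 ≤ I := by
      refine setIntegral_mono_set hfi ?_ ?_
      · exact (ae_restrict_iff' measurableSet_Ioc).2 (Eventually.of_forall fun t _ => sq_nonneg _)
      · exact (Ioc_subset_Ioc hap hqb).eventuallyLE
    have h2 : ∫ _ in Ioc p q, S ^ 2 / 4 ≤ ∫ t in Ioc p q, f t ^ 2 := by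
      refine setIntegral_mono_on (integrableOn_const (by simp) enorm_ne_top)
        (hfi.mono_set (Ioc_subset_Ioc hap hqb)) measurableSet_Ioc fun t ht => ?_
      have h3 := hnear t ht
      have h4 : (S / 2) ^ 2 ≤ |f t| ^ 2 := pow_le_pow_left₀ (by positivity) (by linarith) 2
      rw [sq_abs] at h4
      calc S ^ 2 / 4 = (S / 2) ^ 2 := by ring
        _ ≤ _ := h4
    rw [setIntegral_const, smul_eq_mul, Measure.real, Real.volume_Ioc,
      ENNReal.toReal_ofReal (by linarith)] at h2
    linarith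
  rcases hL0.eq_or_lt with hL | hL
  · -- `L = 0`
    have h1 : X ≤ 0 := by
      rw [← hL] at hX2
      simpa using hX2
    have h2 : X = 0 := le_antisymm h1 hX0
    rw [← hL]
    simp [h2]
  -- near the maximum
  have hnear : ∀ t, |t - t₀| ≤ S / (4 * L) → S ≤ 2 * |f t| := by
    intro t ht
    have h1 := hflip t t₀
    have h2 : 2 * L * |t₀ - t| ≤ S / 2 := by
      rw [abs_sub_comm]
      calc 2 * L * |t - t₀| ≤ 2 * L * (S / (4 * L)) :=
            mul_le_mul_of_nonneg_left ht (by positivity)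
        _ = S / 2 := by field_simp; ring
    have h3 : S ≤ |f t| + |f t₀ - f t| := by
      rw [hSdef]
      have := abs_sub_abs_le_abs_sub (f t₀) (f t)
      linarith
    linarith
  set η := S / (4 * L) with hη
  have hη0 : 0 ≤ η := by positivity
  have hSη : S = 4 * L * η := by
    rw [hη]; field_simp
  have hX3 : 0 ≤ X ^ 3 := by positivity
  by_cases hcase : η ≤ b - a
  · -- the interval is long
    have hI1 : S ^ 2 / 4 * η ≤ I := by
      by_cases h1 : t₀ + η ≤ b
      · have := hsub t₀ (t₀ + η) ht₀.1 (by linarith) h1 fun t ht => hnear t (by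
          rw [abs_le]; constructor <;> linarith [ht.1, ht.2])
        simpa using this
      · have h1' : b < t₀ + η := not_le.1 h1
        have := hsub (b - η) b (by linarith) (by linarith) le_rfl fun t ht => hnear t (by
          rw [abs_le]; constructor <;> linarith [ht.1, ht.2, ht₀.2])
        simpa using this
    have h3 : X ^ 3 ≤ (12 * L * S) ^ 3 := pow_le_pow_left₀ hX0 hX1 3
    have h4 : (12 * L * S) ^ 3 ≤ 27648 * L ^ 4 * (S ^ 2 / 4 * η) := by
      rw [hSη]
      have : 0 ≤ L ^ 6 * η ^ 3 := by positivity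
      apply le_of_eq
      ring
    have h5 : 27648 * L ^ 4 * (S ^ 2 / 4 * η) ≤ 27648 * L ^ 4 * I :=
      mul_le_mul_of_nonneg_left hI1 (by positivity)
    have h6 : 27648 * L ^ 4 * I ≤ 32768 * L ^ 4 * I :=
      mul_le_mul_of_nonneg_right (mul_le_mul_of_nonneg_right (by norm_num) (by positivity)) hI0
    linarith
  · -- the interval is short
    have hcase' : b - a < η := not_le.1 hcase
    have hI1 : S ^ 2 / 4 * (b - a) ≤ I :=
      hsub a b le_rfl hab le_rfl fun t ht => hnear t (by
        rw [abs_le]; constructor <;> linarith [ht.1, ht.2, ht₀.1, ht₀.2])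
    have hl0 : 0 ≤ b - a := by linarith
    have hS2 : (4 * L * (b - a)) ^ 2 ≤ S ^ 2 := by
      refine pow_le_pow_left₀ (by positivity) ?_ 2
      rw [hSη]
      exact mul_le_mul_of_nonneg_left hcase'.le (by positivity)
    have hI2 : 4 * L ^ 2 * (b - a) ^ 3 ≤ I := by
      have : (4 * L * (b - a)) ^ 2 / 4 * (b - a) ≤ S ^ 2 / 4 * (b - a) :=
        mul_le_mul_of_nonneg_right (by linarith) hl0
      calc 4 * L ^ 2 * (b - a) ^ 3 = (4 * L * (b - a)) ^ 2 / 4 * (b - a) := by ring
        _ ≤ _ := this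
        _ ≤ I := hI1
    have h3 : X ^ 3 ≤ (4 * L ^ 2 * (b - a)) ^ 3 := pow_le_pow_left₀ hX0 hX2 3
    have h4 : (4 * L ^ 2 * (b - a)) ^ 3 = 16 * L ^ 4 * (4 * L ^ 2 * (b - a) ^ 3) := by ring
    have h5 : 16 * L ^ 4 * (4 * L ^ 2 * (b - a) ^ 3) ≤ 16 * L ^ 4 * I :=
      mul_le_mul_of_nonneg_left hI2 (by positivity)
    have h6 : 16 * L ^ 4 * I ≤ 32768 * L ^ 4 * I :=
      mul_le_mul_of_nonneg_right (mul_le_mul_of_nonneg_right (by norm_num) (by positivity)) hI0
    linarith

end Vale.Agent.Lib.P074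

end

section

open MeasureTheory Set Filter Topology Function
open scoped ENNReal

namespace Vale.Agent.Lib.P074

/-- `T` is a bounded Borel selection of subgradients of the continuous function `φ`. -/
structure IsSubgrad {d : ℕ} (φ : Vec d → ℝ) (T : Vec d → Vec d) (L : ℝ) : Prop where
  cont : Continuous φ
  meas : Measurable T
  bound : ∀ x k, |T x k| ≤ L
  sub : ∀ x z, φ x + (z - x) ⬝ᵥ T x ≤ φ z

lemma ins_sub_dot {n : ℕ} (k : Fin (n + 1)) (s t : ℝ) (x : Vec n) (v : Vec (n + 1)) :
    (ins k t x - ins k s x) ⬝ᵥ v = (t - s) * v k := by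
  unfold dotProduct
  rw [Fin.sum_univ_succAbove _ k]
  simp

lemma IsSubgrad.line {n : ℕ} {φ : Vec (n + 1) → ℝ} {T : Vec (n + 1) → Vec (n + 1)} {L : ℝ}
    (h : IsSubgrad φ T L) (k : Fin (n + 1)) (x : Vec n) :
    Sub1 (fun t => φ (ins k t x)) (fun t => T (ins k t x) k) L := by
  have hsub : ∀ s t : ℝ, φ (ins k s x) + (t - s) * T (ins k s x) k ≤ φ (ins k t x) := by
    intro s t
    have := h.sub (ins k s x) (ins k t x)
    rwa [ins_sub_dot] at this
  refine ⟨fun s t hst => ?_, fun t => h.bound _ _, hsub⟩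
  rcases hst.eq_or_lt with rfl | hlt
  · exact le_rfl
  have h1 := hsub s t
  have h2 := hsub t s
  have h3 : 0 ≤ (t - s) * (T (ins k t x) k - T (ins k s x) k) := by nlinarith
  by_contra hcon
  have h4 : T (ins k t x) k - T (ins k s x) k < 0 := by
    have := not_le.1 hcon
    linarith
  have h5 : (t - s) * (T (ins k t x) k - T (ins k s x) k) < 0 :=
    mul_neg_of_pos_of_neg (sub_pos.2 hlt) h4
  linarith

/-- Slicing formula with the coordinate integrated first. -/
lemma lintegral_slice' {n : ℕ} (k : Fin (n + 1)) {F : Vec (n + 1) → ℝ≥0∞} (hF : Measurable F) :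
    ∫⁻ x, F x = ∫⁻ x : Vec n, ∫⁻ t : ℝ, F (ins k t x) := by
  rw [lintegral_slice k hF]
  have h2 : Measurable fun p : ℝ × Vec n => F (ins k p.1 p.2) := hF.comp (measurable_ins_pair k)
  exact lintegral_lintegral_swap h2.aemeasurable

/-- Hölder inequality on a set of finite measure, in the form needed for the slices. -/
lemma lintegral_cube_le {α : Type*} [MeasurableSpace α] (μ : Measure α) {A : α → ℝ≥0∞}
    (hA : Measurable A) {P : Set α} (hP : MeasurableSet P) (h0 : ∀ x, x ∉ P → A x = 0) :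
    (∫⁻ x, A x ∂μ) ^ 3 ≤ μ P ^ 2 * ∫⁻ x, A x ^ 3 ∂μ := by
  have hpq : (3 : ℝ).HolderConjugate (3 / 2) := (Real.holderConjugate_iff).2 ⟨by norm_num, by norm_num⟩
  have hone : Measurable (P.indicator (fun _ => (1 : ℝ≥0∞))) := measurable_const.indicator hP
  have h1 := ENNReal.lintegral_mul_le_Lp_mul_Lq μ hpq hA.aemeasurable hone.aemeasurable
  have h2 : ∫⁻ a, (A * P.indicator (fun _ => (1 : ℝ≥0∞))) a ∂μ = ∫⁻ x, A x ∂μ := by
    refine lintegral_congr fun x => ?_
    by_cases hx : x ∈ P
    · simp [hx]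
    · simp [hx, h0 x hx]
  have h3 : ∫⁻ a, (P.indicator (fun _ => (1 : ℝ≥0∞))) a ^ (3 / 2 : ℝ) ∂μ = μ P := by
    have : ∀ a, (P.indicator (fun _ => (1 : ℝ≥0∞))) a ^ (3 / 2 : ℝ) =
        P.indicator (fun _ => (1 : ℝ≥0∞)) a := by
      intro a
      by_cases ha : a ∈ P <;> simp [ha]
    simp_rw [this]
    rw [lintegral_indicator hP]
    simp
  rw [h2, h3] at h1
  have h4 := pow_le_pow_left' h1 3
  refine h4.trans (le_of_eq ?_)
  have hX : ∫⁻ a, A a ^ (3 : ℝ) ∂μ = ∫⁻ x, A x ^ 3 ∂μ := by
    refine lintegral_congr fun a => ?_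
    exact_mod_cast ENNReal.rpow_natCast (A a) 3
  rw [hX, mul_pow, mul_comm]
  congr 1
  · rw [← ENNReal.rpow_natCast, ← ENNReal.rpow_mul, ← ENNReal.rpow_natCast, ]
    norm_num
  · rw [← ENNReal.rpow_natCast, ← ENNReal.rpow_mul]
    norm_num

section coord

variable {n : ℕ} {K : Set (Vec (n + 1))} {φ₀ φ₁ : Vec (n + 1) → ℝ}
  {T₀ T₁ : Vec (n + 1) → Vec (n + 1)} {L : ℝ}

/-- Sections of a compact convex set by lines parallel to a coordinate axis. -/
lemma line_section (hK : IsCompact K) (hKc : Convex ℝ K) (k : Fin (n + 1)) (x : Vec n) :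
    {t : ℝ | ins k t x ∈ K} = ∅ ∨ ∃ a b : ℝ, a ≤ b ∧ {t : ℝ | ins k t x ∈ K} = Icc a b := by
  set S := {t : ℝ | ins k t x ∈ K} with hS
  by_cases hne : S.Nonempty
  · right
    have hclosed : IsClosed S := hK.isClosed.preimage (continuous_ins_left k x)
    obtain ⟨R, hR⟩ := hK.isBounded.subset_closedBall (0 : Vec (n + 1))
    have hbdd : Bornology.IsBounded S := by
      refine (Metric.isBounded_closedBall (x := (0 : ℝ)) (r := R)).subset ?_
      intro t ht
      have h1 := hR ht
      rw [mem_closedBall_zero_iff] at h1 ⊢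
      have h2 := norm_le_pi_norm (ins k t x) k
      simp only [ins_same] at h2
      exact h2.trans h1
    have hcomp : IsCompact S := Metric.isCompact_of_isClosed_isBounded hclosed hbdd
    have hconv : Convex ℝ S := by
      intro s hs t ht a b ha hb hab
      have h := hKc hs ht ha hb hab
      rw [ins_combo, ← add_smul, hab, one_smul] at h
      exact h
    have hconn : IsConnected S := ⟨hne, hconv.isPreconnected⟩
    have heq := eq_Icc_of_connected_compact hconn hcomp
    refine ⟨_, _, ?_, heq⟩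
    exact csInf_le_csSup hne hcomp.bddBelow hcomp.bddAbove
  · left
    exact not_nonempty_iff_eq_empty.1 hne

lemma line_lintegral_aux (hK : IsCompact K) (hKc : Convex ℝ K) (k : Fin (n + 1)) (x : Vec n)
    {f : Vec (n + 1) → ℝ} {a b : ℝ} (hS : {t : ℝ | ins k t x ∈ K} = Icc a b)
    (hf : Measurable f) (hf0 : ∀ y, 0 ≤ f y) {M : ℝ} (hM : ∀ t, |f (ins k t x)| ≤ M) :
    ∫⁻ t : ℝ, K.indicator (fun y => ENNReal.ofReal (f y)) (ins k t x) =
      ENNReal.ofReal (∫ t in Ioc a b, f (ins k t x)) := by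
  have h1 : (fun t : ℝ => K.indicator (fun y => ENNReal.ofReal (f y)) (ins k t x)) =
      (Icc a b).indicator (fun t => ENNReal.ofReal (f (ins k t x))) := by
    ext t
    by_cases ht : ins k t x ∈ K
    · have : t ∈ Icc a b := by rw [← hS]; exact ht
      simp [ht, this]
    · have : t ∉ Icc a b := by rw [← hS]; exact ht
      simp [ht, this]
  rw [h1, lintegral_indicator measurableSet_Icc, ← setLIntegral_congr Ioc_ae_eq_Icc]
  have hm : Measurable fun t => f (ins k t x) := hf.comp (continuous_ins_left k x).measurable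
  rw [ofReal_integral_eq_lintegral_ofReal (integrable_bdd_Ioc hm hM)
    (Eventually.of_forall fun t => hf0 _)]

lemma line_ineq (hK : IsCompact K) (hKc : Convex ℝ K) (h₀ : IsSubgrad φ₀ T₀ L)
    (h₁ : IsSubgrad φ₁ T₁ L) (c : ℝ) (k : Fin (n + 1)) (x : Vec n) :
    (∫⁻ t : ℝ, K.indicator (fun y => ENNReal.ofReal ((T₁ y k - T₀ y k) ^ 2)) (ins k t x)) ^ 3 ≤
      ENNReal.ofReal (32768 * L ^ 4) *
        ∫⁻ t : ℝ, K.indicator (fun y => ENNReal.ofReal ((φ₁ y - φ₀ y - c) ^ 2)) (ins k t x) := by
  rcases line_section hK hKc k x with hS | ⟨a, b, hab, hS⟩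
  · have h1 : ∀ (F : Vec (n + 1) → ℝ≥0∞) (t : ℝ), K.indicator F (ins k t x) = 0 := by
      intro F t
      have : ins k t x ∉ K := fun ht => by
        have : t ∈ {t : ℝ | ins k t x ∈ K} := ht
        rw [hS] at this
        exact this
      simp [this]
    simp [h1]
  · have hL0 : 0 ≤ L := (abs_nonneg _).trans (h₀.bound 0 k)
    have hm₀ : Measurable fun y : Vec (n + 1) => T₀ y k := (measurable_pi_apply k).comp h₀.meas
    have hm₁ : Measurable fun y : Vec (n + 1) => T₁ y k := (measurable_pi_apply k).comp h₁.meas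
    have hc : Continuous fun y => (φ₁ y - φ₀ y - c) ^ 2 :=
      ((h₁.cont.sub h₀.cont).sub continuous_const).pow 2
    have hG : ∀ t, |(T₁ (ins k t x) k - T₀ (ins k t x) k) ^ 2| ≤ (2 * L) ^ 2 := by
      intro t
      rw [abs_pow]
      refine pow_le_pow_left₀ (abs_nonneg _) ?_ 2
      have h1 := abs_le.1 (h₀.bound (ins k t x) k)
      have h2 := abs_le.1 (h₁.bound (ins k t x) k)
      rw [abs_le]
      constructor <;> linarith
    have hcomp : IsCompact (Icc a b) := isCompact_Icc
    have hI1 := line_lintegral_aux (f := fun y => (T₁ y k - T₀ y k) ^ 2) hK hKc k x hS ((hm₁.sub hm₀).pow_const 2)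
      (fun y => sq_nonneg _) hG
    -- the potential part is only bounded on the section, so we treat it directly
    have hI2 : ∫⁻ t : ℝ, K.indicator (fun y => ENNReal.ofReal ((φ₁ y - φ₀ y - c) ^ 2)) (ins k t x) =
        ENNReal.ofReal (∫ t in Ioc a b, (φ₁ (ins k t x) - φ₀ (ins k t x) - c) ^ 2) := by
      have h1 : (fun t : ℝ => K.indicator (fun y => ENNReal.ofReal ((φ₁ y - φ₀ y - c) ^ 2))
          (ins k t x)) = (Icc a b).indicator
            (fun t => ENNReal.ofReal ((φ₁ (ins k t x) - φ₀ (ins k t x) - c) ^ 2)) := by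
        ext t
        by_cases ht : ins k t x ∈ K
        · have : t ∈ Icc a b := by rw [← hS]; exact ht
          simp [ht, this]
        · have : t ∉ Icc a b := by rw [← hS]; exact ht
          simp [ht, this]
      rw [h1, lintegral_indicator measurableSet_Icc, ← setLIntegral_congr Ioc_ae_eq_Icc]
      have hcont : Continuous fun t => (φ₁ (ins k t x) - φ₀ (ins k t x) - c) ^ 2 :=
        hc.comp (continuous_ins_left k x)
      have hint : IntegrableOn (fun t => (φ₁ (ins k t x) - φ₀ (ins k t x) - c) ^ 2) (Ioc a b) :=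
        (hcont.continuousOn.integrableOn_compact isCompact_Icc).mono_set Ioc_subset_Icc_self
      rw [ofReal_integral_eq_lintegral_ofReal hint (Eventually.of_forall fun t => sq_nonneg _)]
    rw [hI1, hI2, ← ENNReal.ofReal_mul (by positivity), ← ENNReal.ofReal_pow
      (setIntegral_nonneg measurableSet_Ioc fun t _ => sq_nonneg _)]
    exact ENNReal.ofReal_le_ofReal (gn_one_dim (h₀.line k x) (h₁.line k x) hab c)

/-- The interpolation inequality for one coordinate of the gradient. -/
theorem gn_coord (hK : IsCompact K) (hKc : Convex ℝ K) (h₀ : IsSubgrad φ₀ T₀ L)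
    (h₁ : IsSubgrad φ₁ T₁ L) (c : ℝ) (k : Fin (n + 1)) {P : Set (Vec n)} (hP : MeasurableSet P)
    (hPfin : volume P < ⊤) (hKP : ∀ t x, ins k t x ∈ K → x ∈ P) :
    (∫ x in K, (T₁ x k - T₀ x k) ^ 2) ^ 3 ≤
      (volume P).toReal ^ 2 * (32768 * L ^ 4) * ∫ x in K, (φ₁ x - φ₀ x - c) ^ 2 := by
  have hL0 : 0 ≤ L := (abs_nonneg _).trans (h₀.bound 0 k)
  have hKm := hK.measurableSet
  have hm₀ : Measurable fun y : Vec (n + 1) => T₀ y k := (measurable_pi_apply k).comp h₀.meas
  have hm₁ : Measurable fun y : Vec (n + 1) => T₁ y k := (measurable_pi_apply k).comp h₁.meas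
  have hc : Continuous fun y => (φ₁ y - φ₀ y - c) ^ 2 :=
    ((h₁.cont.sub h₀.cont).sub continuous_const).pow 2
  set Fg : Vec (n + 1) → ℝ≥0∞ := fun y => ENNReal.ofReal ((T₁ y k - T₀ y k) ^ 2) with hFg
  set Fh : Vec (n + 1) → ℝ≥0∞ := fun y => ENNReal.ofReal ((φ₁ y - φ₀ y - c) ^ 2) with hFh
  have hFgm : Measurable Fg := ((hm₁.sub hm₀).pow_const 2).ennreal_ofReal
  have hFhm : Measurable Fh := hc.measurable.ennreal_ofReal
  have hFgi : Measurable (K.indicator Fg) := hFgm.indicator hKm
  have hFhi : Measurable (K.indicator Fh) := hFhm.indicator hKm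
  have hfin : IsFiniteMeasure (volume.restrict K) := ⟨by
    rw [Measure.restrict_apply_univ]; exact hK.measure_lt_top⟩
  have hint1 : Integrable (fun x => (T₁ x k - T₀ x k) ^ 2) (volume.restrict K) := by
    refine Integrable.of_bound (C := (2 * L) ^ 2)
      ((hm₁.sub hm₀).pow_const 2).aestronglyMeasurable (Eventually.of_forall fun x => ?_)
    rw [Real.norm_eq_abs, abs_pow]
    refine pow_le_pow_left₀ (abs_nonneg _) ?_ 2
    have h1 := abs_le.1 (h₀.bound x k)
    have h2 := abs_le.1 (h₁.bound x k)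
    rw [abs_le]
    constructor <;> linarith
  have hint2 : Integrable (fun x => (φ₁ x - φ₀ x - c) ^ 2) (volume.restrict K) :=
    hc.continuousOn.integrableOn_compact hK
  set E := ∫ x in K, (T₁ x k - T₀ x k) ^ 2 with hE
  set I := ∫ x in K, (φ₁ x - φ₀ x - c) ^ 2 with hI
  have hE0 : 0 ≤ E := setIntegral_nonneg hKm fun x _ => sq_nonneg _
  have hI0 : 0 ≤ I := setIntegral_nonneg hKm fun x _ => sq_nonneg _
  have e1 : ENNReal.ofReal E = ∫⁻ x, K.indicator Fg x := by
    rw [hE, ofReal_integral_eq_lintegral_ofReal hint1 (Eventually.of_forall fun t => sq_nonneg _),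
      lintegral_indicator hKm]
  have e2 : ENNReal.ofReal I = ∫⁻ x, K.indicator Fh x := by
    rw [hI, ofReal_integral_eq_lintegral_ofReal hint2 (Eventually.of_forall fun t => sq_nonneg _),
      lintegral_indicator hKm]
  set A : Vec n → ℝ≥0∞ := fun x => ∫⁻ t : ℝ, K.indicator Fg (ins k t x) with hA
  set B : Vec n → ℝ≥0∞ := fun x => ∫⁻ t : ℝ, K.indicator Fh (ins k t x) with hB
  have hAm : Measurable A := by
    have : Measurable fun p : Vec n × ℝ => K.indicator Fg (ins k p.2 p.1) :=
      hFgi.comp ((measurable_ins_pair k).comp measurable_swap)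
    exact this.lintegral_prod_right'
  have e3 : ∫⁻ x, K.indicator Fg x = ∫⁻ x, A x := lintegral_slice' k hFgi
  have e4 : ∫⁻ x, K.indicator Fh x = ∫⁻ x, B x := lintegral_slice' k hFhi
  have hA0 : ∀ x, x ∉ P → A x = 0 := by
    intro x hx
    have : ∀ t : ℝ, K.indicator Fg (ins k t x) = 0 := by
      intro t
      have : ins k t x ∉ K := fun ht => hx (hKP t x ht)
      simp [this]
    simp [hA, this]
  have hkey := lintegral_cube_le volume hAm hP hA0
  have hpt : ∀ x, A x ^ 3 ≤ ENNReal.ofReal (32768 * L ^ 4) * B x :=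
    fun x => line_ineq hK hKc h₀ h₁ c k x
  have h5 : ∫⁻ x, A x ^ 3 ≤ ENNReal.ofReal (32768 * L ^ 4) * ∫⁻ x, B x := by
    calc ∫⁻ x, A x ^ 3 ≤ ∫⁻ x, ENNReal.ofReal (32768 * L ^ 4) * B x := lintegral_mono hpt
      _ ≤ _ := by
        rw [lintegral_const_mul' _ _ ENNReal.ofReal_ne_top]
  have h6 : ENNReal.ofReal (E ^ 3) ≤
      ENNReal.ofReal ((volume P).toReal ^ 2 * (32768 * L ^ 4) * I) := by
    rw [ENNReal.ofReal_pow hE0, e1, e3]
    refine hkey.trans ?_
    rw [ENNReal.ofReal_mul (by positivity), ENNReal.ofReal_mul (by positivity),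
      ENNReal.ofReal_pow (by positivity), ENNReal.ofReal_toReal hPfin.ne, e2, e4, mul_assoc]
    gcongr
  exact (ENNReal.ofReal_le_ofReal_iff (by positivity)).1 h6

/-- The interpolation inequality for the whole gradient. -/
theorem gn_full (hK : IsCompact K) (hKc : Convex ℝ K) (h₀ : IsSubgrad φ₀ T₀ L)
    (h₁ : IsSubgrad φ₁ T₁ L) (c : ℝ) {R : ℝ} (hR : ∀ x ∈ K, ∀ k, |x k| ≤ R) :
    (∫ x in K, (T₁ x - T₀ x) ⬝ᵥ (T₁ x - T₀ x)) ^ 3 ≤
      ((n : ℝ) + 1) ^ 3 * ((volume (Metric.closedBall (0 : Vec n) (max R 0))).toReal ^ 2 *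
        (32768 * L ^ 4) * ∫ x in K, (φ₁ x - φ₀ x - c) ^ 2) := by
  have hL0 : 0 ≤ L := (abs_nonneg _).trans (h₀.bound 0 0)
  have hKm := hK.measurableSet
  set V := (volume (Metric.closedBall (0 : Vec n) (max R 0))).toReal with hV
  set I := ∫ x in K, (φ₁ x - φ₀ x - c) ^ 2 with hI
  have hI0 : 0 ≤ I := setIntegral_nonneg hKm fun x _ => sq_nonneg _
  have hfin : IsFiniteMeasure (volume.restrict K) := ⟨by
    rw [Measure.restrict_apply_univ]; exact hK.measure_lt_top⟩
  have hm : ∀ k, Measurable fun y : Vec (n + 1) => (T₁ y k - T₀ y k) ^ 2 := fun k =>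
    (((measurable_pi_apply k).comp h₁.meas).sub ((measurable_pi_apply k).comp h₀.meas)).pow_const 2
  have hint1 : ∀ k, Integrable (fun x => (T₁ x k - T₀ x k) ^ 2) (volume.restrict K) := by
    intro k
    refine Integrable.of_bound (C := (2 * L) ^ 2) (hm k).aestronglyMeasurable
      (Eventually.of_forall fun x => ?_)
    rw [Real.norm_eq_abs, abs_pow]
    refine pow_le_pow_left₀ (abs_nonneg _) ?_ 2
    have h1 := abs_le.1 (h₀.bound x k)
    have h2 := abs_le.1 (h₁.bound x k)
    rw [abs_le]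
    constructor <;> linarith
  have hsum : ∫ x in K, (T₁ x - T₀ x) ⬝ᵥ (T₁ x - T₀ x) =
      ∑ k, ∫ x in K, (T₁ x k - T₀ x k) ^ 2 := by
    rw [← integral_finset_sum _ fun k _ => hint1 k]
    refine integral_congr_ae (Eventually.of_forall fun x => ?_)
    simp [dotProduct, sq]
  rw [hsum]
  have hcoord : ∀ k, (∫ x in K, (T₁ x k - T₀ x k) ^ 2) ^ 3 ≤ V ^ 2 * (32768 * L ^ 4) * I := by
    intro k
    refine gn_coord hK hKc h₀ h₁ c k measurableSet_closedBall measure_closedBall_lt_top ?_
    intro t x hx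
    rw [mem_closedBall_zero_iff]
    refine (pi_norm_le_iff_of_nonneg (le_max_right _ _)).2 fun j => ?_
    have := hR _ hx (k.succAbove j)
    simp only [ins_succAbove] at this
    rw [Real.norm_eq_abs]
    exact this.trans (le_max_left _ _)
  set W := V ^ 2 * (32768 * L ^ 4) * I with hW
  have hW0 : 0 ≤ W := by positivity
  set r := W ^ (1 / 3 : ℝ) with hr
  have hr0 : 0 ≤ r := by positivity
  have hr3 : r ^ 3 = W := by
    rw [hr, ← Real.rpow_natCast, ← Real.rpow_mul hW0]
    norm_num
  have hcoord' : ∀ k, ∫ x in K, (T₁ x k - T₀ x k) ^ 2 ≤ r := by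
    intro k
    have h1 := hcoord k
    rw [← hr3] at h1
    exact le_of_pow_le_pow_left₀ (by norm_num) hr0 h1
  have h2 : ∑ k, ∫ x in K, (T₁ x k - T₀ x k) ^ 2 ≤ ((n : ℝ) + 1) * r := by
    calc _ ≤ ∑ _k : Fin (n + 1), r := Finset.sum_le_sum fun k _ => hcoord' k
      _ = _ := by simp
  have h3 : 0 ≤ ∑ k, ∫ x in K, (T₁ x k - T₀ x k) ^ 2 :=
    Finset.sum_nonneg fun k _ => setIntegral_nonneg hKm fun x _ => sq_nonneg _
  calc _ ≤ (((n : ℝ) + 1) * r) ^ 3 := pow_le_pow_left₀ h3 h2 3
    _ = _ := by rw [mul_pow, hr3]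

end coord

section selection

variable {d : ℕ} {ι : Type*} [Fintype ι] [Nonempty ι]

open Classical in
/-- A Borel selection of maximizing indices. -/
lemma exists_selection (y : ι → Vec d) (h : ι → ℝ) :
    ∃ T : Vec d → Vec d, Measurable T ∧ ∀ x, ∃ i, T x = y i ∧ pot y h x = aff y h i x := by
  set N := Fintype.card ι with hN
  let e : ι ≃ Fin N := Fintype.equivFin ι
  let i₀ : ι := Classical.arbitrary ι
  let f : ℕ → Vec d → Vec d := fun n _ => if hn : n < N then y (e.symm ⟨n, hn⟩) else y i₀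
  let p : ℕ → Vec d → Prop := fun n x => ∃ hn : n < N, pot y h x = aff y h (e.symm ⟨n, hn⟩) x
  have hp : ∀ n, MeasurableSet {x | p n x} := by
    intro n
    by_cases hn : n < N
    · have : {x | p n x} = {x | pot y h x = aff y h (e.symm ⟨n, hn⟩) x} := by
        ext x
        simp [p, hn]
      rw [this]
      exact (isClosed_eq (continuous_pot y h) (continuous_aff y h _)).measurableSet
    · have : {x | p n x} = ∅ := by
        ext x
        simp [p, hn]
      rw [this]
      exact MeasurableSet.empty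
  have hex : ∀ x, ∃ n, p n x := by
    intro x
    obtain ⟨i, hi⟩ := exists_pot_eq y h x
    refine ⟨e i, (e i).2, ?_⟩
    simpa using hi
  refine ⟨fun x => f (Nat.find (hex x)) x, Measurable.find (f := f) (p := p) (fun n => measurable_const) hp hex, ?_⟩
  intro x
  obtain ⟨hn, hi⟩ := Nat.find_spec (hex x)
  refine ⟨e.symm ⟨_, hn⟩, ?_, hi⟩
  simp only [f, hn, dite_true]

lemma isSubgrad_of_selection (y : ι → Vec d) (h : ι → ℝ) {T : Vec d → Vec d}
    (hT : Measurable T) (hTy : ∀ x, ∃ i, T x = y i ∧ pot y h x = aff y h i x)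
    {L : ℝ} (hL : ∀ i k, |y i k| ≤ L) : IsSubgrad (pot y h) T L := by
  refine ⟨continuous_pot y h, hT, fun x k => ?_, fun x z => ?_⟩
  · obtain ⟨i, hi, _⟩ := hTy x
    rw [hi]
    exact hL i k
  · obtain ⟨i, hi, hp⟩ := hTy x
    rw [hp, hi]
    have h1 := aff_le_pot y h i z
    have h2 : aff y h i x + (z - x) ⬝ᵥ y i = aff y h i z := by
      simp only [aff, sub_dotProduct]
      ring
    rw [h2]
    exact h1

end selection

end Vale.Agent.Lib.P074

end

section

open MeasureTheory Set Filter Topology Function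
open scoped ENNReal

namespace Vale.Agent.Lib.P074

lemma ins_add_single {n : ℕ} (k : Fin (n + 1)) (t η : ℝ) (x : Vec n) :
    ins k t x + Pi.single k η = ins k (t + η) x := by
  ext j
  rcases Fin.eq_self_or_eq_succAbove k j with rfl | ⟨i, rfl⟩
  · simp
  · simp [Pi.single_apply, (Fin.succAbove_ne k i)]

lemma add_single_sub_dot {d : ℕ} (k : Fin d) (η : ℝ) (x v : Vec d) :
    (x + Pi.single k η - x) ⬝ᵥ v = η * v k := by
  simp [add_sub_cancel_left, single_dotProduct]

lemma sub_add_single_dot {d : ℕ} (k : Fin d) (η : ℝ) (x v : Vec d) :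
    (x - (x + Pi.single k η)) ⬝ᵥ v = -(η * v k) := by
  have : x - (x + Pi.single k η) = -(Pi.single k η) := by
    ext j
    simp
  rw [this, neg_dotProduct, single_dotProduct]

section

variable {n : ℕ} {K : Set (Vec (n + 1))} {φ : Vec (n + 1) → ℝ}
  {T T' : Vec (n + 1) → Vec (n + 1)} {L : ℝ} {e : Vec (n + 1) → ℝ} {η : ℝ}

lemma IsSubgrad.mono_single (h : IsSubgrad φ T L) (hη : 0 ≤ η) (k : Fin (n + 1))
    (x : Vec (n + 1)) : T x k ≤ T (x + Pi.single k η) k := by
  rcases hη.eq_or_lt with rfl | hη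
  · simp
  have h1 := h.sub x (x + Pi.single k η)
  have h2 := h.sub (x + Pi.single k η) x
  rw [add_single_sub_dot] at h1
  rw [sub_add_single_dot] at h2
  by_contra hcon
  have h3 := not_le.1 hcon
  have h4 := mul_lt_mul_of_pos_left h3 hη
  linarith

lemma shift_diff_line_le {u : ℝ → ℝ} (hu : Monotone u) (hL : ∀ t, |u t| ≤ L) (hη : 0 ≤ η)
    {a b : ℝ} (hab : a ≤ b) :
    ∫ t in Ioc a b, (u (t + η) - u (t + -η)) ≤ 4 * η * L := by
  have hmono : ∀ s : ℝ, Monotone fun t => u (t + s) := fun s x y hxy => hu (by linarith)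
  have hii : ∀ s : ℝ, IntervalIntegrable (fun t => u (t + s)) volume a b :=
    fun s => (hmono s).intervalIntegrable
  rw [← intervalIntegral.integral_of_le hab, intervalIntegral.integral_sub (hii _) (hii _),
    intervalIntegral.integral_comp_add_right, intervalIntegral.integral_comp_add_right,
    intervalIntegral.integral_interval_sub_interval_comm (hu.intervalIntegrable)
      (hu.intervalIntegrable) (hu.intervalIntegrable)]
  have hb : ∀ p q : ℝ, |∫ t in p..q, u t| ≤ L * |q - p| := fun p q => by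
    have := intervalIntegral.norm_integral_le_of_norm_le_const (a := p) (b := q) (f := u)
      (C := L) (fun t _ => by simpa using hL t)
    simpa using this
  have h1 := abs_le.1 (hb (a + η) (a + -η))
  have h2 := abs_le.1 (hb (b + η) (b + -η))
  have e1 : |a + -η - (a + η)| = 2 * η := by
    rw [show a + -η - (a + η) = -(2 * η) by ring, abs_neg, abs_of_nonneg (by linarith)]
  have e2 : |b + -η - (b + η)| = 2 * η := by
    rw [show b + -η - (b + η) = -(2 * η) by ring, abs_neg, abs_of_nonneg (by linarith)]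
  rw [e1] at h1
  rw [e2] at h2
  nlinarith [h1.2, h2.1]

lemma integral_shift_le (hK : IsCompact K) (hKc : Convex ℝ K) (h : IsSubgrad φ T L)
    (hη : 0 ≤ η) (k : Fin (n + 1)) {P : Set (Vec n)} (hP : MeasurableSet P)
    (hKP : ∀ t x, ins k t x ∈ K → x ∈ P) (hPfin : volume P < ⊤) :
    ∫ x in K, (T (x + Pi.single k η) k - T (x + Pi.single k (-η)) k) ≤
      4 * η * L * (volume P).toReal := by
  have hL0 : 0 ≤ L := (abs_nonneg _).trans (h.bound 0 k)
  have hKm := hK.measurableSet
  set D : Vec (n + 1) → ℝ := fun x => T (x + Pi.single k η) k - T (x + Pi.single k (-η)) k with hD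
  have hm : ∀ s : ℝ, Measurable fun x : Vec (n + 1) => T (x + Pi.single k s) k := fun s =>
    (measurable_pi_apply k).comp (h.meas.comp (measurable_add_const _))
  have hDm : Measurable D := (hm η).sub (hm (-η))
  have hD0 : ∀ x, 0 ≤ D x := by
    intro x
    have h1 := h.mono_single (η := 2 * η) (by linarith) k (x + Pi.single k (-η))
    have h2 : x + Pi.single k (-η) + Pi.single k (2 * η) = x + Pi.single k η := by
      ext j
      by_cases hj : j = k
      · subst hj
        simp
        ring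
      · simp [Pi.single_apply, hj]
    rw [h2] at h1
    simp only [hD]
    linarith
  have hDb : ∀ x, |D x| ≤ 2 * L := by
    intro x
    have h1 := abs_le.1 (h.bound (x + Pi.single k η) k)
    have h2 := abs_le.1 (h.bound (x + Pi.single k (-η)) k)
    simp only [hD]
    rw [abs_le]
    constructor <;> linarith
  have hfin : IsFiniteMeasure (volume.restrict K) := ⟨by
    rw [Measure.restrict_apply_univ]; exact hK.measure_lt_top⟩
  have hint : Integrable D (volume.restrict K) :=
    Integrable.of_bound (C := 2 * L) hDm.aestronglyMeasurable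
      (Eventually.of_forall fun x => by simpa using hDb x)
  set F : Vec (n + 1) → ℝ≥0∞ := fun x => ENNReal.ofReal (D x) with hF
  have hFm : Measurable F := hDm.ennreal_ofReal
  have hFi : Measurable (K.indicator F) := hFm.indicator hKm
  have e1 : ENNReal.ofReal (∫ x in K, D x) = ∫⁻ x, K.indicator F x := by
    rw [ofReal_integral_eq_lintegral_ofReal hint (Eventually.of_forall hD0),
      lintegral_indicator hKm]
  have hline : ∀ x : Vec n, ∫⁻ t : ℝ, K.indicator F (ins k t x) ≤
      P.indicator (fun _ => ENNReal.ofReal (4 * η * L)) x := by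
    intro x
    by_cases hx : x ∈ P
    · rw [indicator_of_mem hx]
      rcases line_section hK hKc k x with hS | ⟨a, b, hab, hS⟩
      · have : ∀ t : ℝ, K.indicator F (ins k t x) = 0 := by
          intro t
          have : ins k t x ∉ K := fun ht => by
            have : t ∈ {t : ℝ | ins k t x ∈ K} := ht
            rw [hS] at this
            exact this
          simp [this]
        simp [this]
      · have := line_lintegral_aux hK hKc k x hS hDm hD0 (M := 2 * L) (fun t => hDb _)
        rw [this]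
        apply ENNReal.ofReal_le_ofReal
        have h2 : ∀ t, D (ins k t x) =
            (fun t => T (ins k t x) k) (t + η) - (fun t => T (ins k t x) k) (t + -η) := by
          intro t
          simp only [hD, ins_add_single]
        simp_rw [h2]
        exact shift_diff_line_le (h.line k x).mono (h.line k x).bound hη hab
    · rw [indicator_of_notMem hx]
      have : ∀ t : ℝ, K.indicator F (ins k t x) = 0 := by
        intro t
        have : ins k t x ∉ K := fun ht => hx (hKP t x ht)
        simp [this]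
      simp [this]
  have h3 : ENNReal.ofReal (∫ x in K, D x) ≤
      ENNReal.ofReal (4 * η * L * (volume P).toReal) := by
    rw [e1, lintegral_slice' k hFi]
    refine (lintegral_mono hline).trans ?_
    rw [lintegral_indicator hP, setLIntegral_const,
      ENNReal.ofReal_mul (show 0 ≤ 4 * η * L by positivity), ENNReal.ofReal_toReal hPfin.ne]
  exact (ENNReal.ofReal_le_ofReal_iff (by positivity)).1 h3

/-- Stability of subgradient maps under approximate subgradients. -/
theorem near_opt (hK : IsCompact K) (hKc : Convex ℝ K) (h : IsSubgrad φ T L)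
    (hT' : Measurable T') (hT'b : ∀ x k, |T' x k| ≤ L) (he0 : ∀ x, 0 ≤ e x)
    (hei : IntegrableOn e K)
    (he : ∀ x z, φ x + (z - x) ⬝ᵥ T' x - e x ≤ φ z) (hη : 0 < η) (k : Fin (n + 1))
    {P : Set (Vec n)} (hP : MeasurableSet P)
    (hKP : ∀ t x, ins k t x ∈ K → x ∈ P) (hPfin : volume P < ⊤) :
    ∫ x in K, (T' x k - T x k) ^ 2 ≤
      2 * L * ((∫ x in K, e x) / η + 4 * η * L * (volume P).toReal) := by
  have hL0 : 0 ≤ L := (abs_nonneg _).trans (h.bound 0 k)
  have hKm := hK.measurableSet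
  set D : Vec (n + 1) → ℝ := fun x => T (x + Pi.single k η) k - T (x + Pi.single k (-η)) k with hD
  have hm : ∀ s : ℝ, Measurable fun x : Vec (n + 1) => T (x + Pi.single k s) k := fun s =>
    (measurable_pi_apply k).comp (h.meas.comp (measurable_add_const _))
  have hDm : Measurable D := (hm η).sub (hm (-η))
  have hfin : IsFiniteMeasure (volume.restrict K) := ⟨by
    rw [Measure.restrict_apply_univ]; exact hK.measure_lt_top⟩
  have hDi : IntegrableOn D K := by
    refine Integrable.of_bound (C := 2 * L) hDm.aestronglyMeasurable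
      (Eventually.of_forall fun x => ?_)
    have h1 := abs_le.1 (h.bound (x + Pi.single k η) k)
    have h2 := abs_le.1 (h.bound (x + Pi.single k (-η)) k)
    rw [Real.norm_eq_abs, abs_le]
    simp only [hD]
    constructor <;> linarith
  have hpt : ∀ x, (T' x k - T x k) ^ 2 ≤ 2 * L * (e x / η + D x) := by
    intro x
    have hup : T' x k ≤ T (x + Pi.single k η) k + e x / η := by
      have h1 := he x (x + Pi.single k η)
      have h2 := h.sub (x + Pi.single k η) x
      rw [add_single_sub_dot] at h1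
      rw [sub_add_single_dot] at h2
      have h3 : η * T' x k ≤ η * (T (x + Pi.single k η) k + e x / η) := by
        rw [mul_add, mul_div_cancel₀ _ hη.ne']
        linarith
      exact le_of_mul_le_mul_left h3 hη
    have hlo : T (x + Pi.single k (-η)) k - e x / η ≤ T' x k := by
      have h1 := he x (x + Pi.single k (-η))
      have h2 := h.sub (x + Pi.single k (-η)) x
      rw [add_single_sub_dot] at h1
      rw [sub_add_single_dot] at h2
      have h3 : η * (T (x + Pi.single k (-η)) k - e x / η) ≤ η * T' x k := by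
        rw [mul_sub, mul_div_cancel₀ _ hη.ne']
        nlinarith
      exact le_of_mul_le_mul_left h3 hη
    have hm1 := h.mono_single hη.le k x
    have hm2 := h.mono_single hη.le k (x + Pi.single k (-η))
    have hx2 : x + Pi.single k (-η) + Pi.single k η = x := by
      ext j
      by_cases hj : j = k
      · subst hj
        simp
      · simp [Pi.single_apply, hj]
    rw [hx2] at hm2
    have hA : |T' x k - T x k| ≤ e x / η + D x := by
      simp only [hD]
      rw [abs_le]
      constructor <;> linarith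
    have hA2 : |T' x k - T x k| ≤ 2 * L := by
      have h1 := abs_le.1 (hT'b x k)
      have h2 := abs_le.1 (h.bound x k)
      rw [abs_le]
      constructor <;> linarith
    calc (T' x k - T x k) ^ 2 = |T' x k - T x k| * |T' x k - T x k| := by
          rw [← sq, sq_abs]
      _ ≤ 2 * L * (e x / η + D x) := mul_le_mul hA2 hA (abs_nonneg _) (by linarith)
  have hi2 : IntegrableOn (fun x => 2 * L * (e x / η + D x)) K :=
    ((hei.div_const η).add hDi).const_mul _
  have hi1 : IntegrableOn (fun x => (T' x k - T x k) ^ 2) K := by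
    refine Integrable.of_bound (C := (2 * L) ^ 2)
      ((((measurable_pi_apply k).comp hT').sub ((measurable_pi_apply k).comp h.meas)).pow_const
        2).aestronglyMeasurable (Eventually.of_forall fun x => ?_)
    rw [Real.norm_eq_abs, abs_pow]
    refine pow_le_pow_left₀ (abs_nonneg _) ?_ 2
    have h1 := abs_le.1 (hT'b x k)
    have h2 := abs_le.1 (h.bound x k)
    rw [abs_le]
    constructor <;> linarith
  have h5 := setIntegral_mono_on hi1 hi2 hKm fun x _ => hpt x
  refine h5.trans ?_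
  rw [integral_const_mul, integral_add (hei.div_const η) hDi, integral_div]
  exact mul_le_mul_of_nonneg_left (add_le_add le_rfl
    (integral_shift_le hK hKc h hη.le k hP hKP hPfin)) (by linarith)

end

end Vale.Agent.Lib.P074

end

section

open MeasureTheory Set Filter Topology Function
open scoped ENNReal

namespace Vale.Agent.Lib.P074

/-- The constant of the finite stability theorem. -/
noncomputable def Cfin (n : ℕ) (R L : ℝ) : ℝ :=
  ((n : ℝ) + 1) ^ 3 * ((volume (Metric.closedBall (0 : Vec n) (max R 0))).toReal ^ 2 *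
    (32768 * L ^ 4)) * (36 * ((n : ℝ) + 1) * R ^ 2)

lemma Cfin_nonneg (n : ℕ) (R L : ℝ) : 0 ≤ Cfin n R L := by
  unfold Cfin
  positivity

/-- The uniform stability theorem for finite targets: the exponent one third with a constant
depending only on bounds for the source and the targets. -/
theorem finite_stability {n : ℕ} {K : Set (Vec (n + 1))} (hK : IsCompact K) (hKc : Convex ℝ K)
    (hKi : (interior K).Nonempty) {ιF ιG : Type*} [Fintype ιF] [Nonempty ιF] [Fintype ιG]
    [Nonempty ιG] [DecidableEq ιF] [DecidableEq ιG]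
    {y : ιF → Vec (n + 1)} (hy : Injective y) {z : ιG → Vec (n + 1)} (hz : Injective z)
    {m : ιF → ℝ} (hm : ∀ a, 0 < m a) {m' : ιG → ℝ} (hm' : ∀ b, 0 < m' b)
    (hsum : (volume K).toReal = ∑ a, m a) (hsum' : (volume K).toReal = ∑ b, m' b)
    {π : ιF × ιG → ℝ} (hπ : ∀ p, 0 ≤ π p) (hπf : ∀ a, ∑ b, π (a, b) = m a)
    (hπg : ∀ b, ∑ a, π (a, b) = m' b)
    {R : ℝ} (hR : ∀ x ∈ K, ∀ k, |x k| ≤ R)
    {h : ιF → ℝ} (hex : IsExact K y (fun _ => 1) m h)
    {h' : ιG → ℝ} (hex' : IsExact K z (fun _ => 1) m' h')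
    {L : ℝ} (hyL : ∀ i k, |y i k| ≤ L) (hzL : ∀ i k, |z i k| ≤ L)
    {T T' : Vec (n + 1) → Vec (n + 1)} (hT : Measurable T)
    (hTs : ∀ x, ∃ i, T x = y i ∧ pot y h x = aff y h i x) (hT' : Measurable T')
    (hTs' : ∀ x, ∃ i, T' x = z i ∧ pot z h' x = aff z h' i x) :
    (∫ x in K, (T x - T' x) ⬝ᵥ (T x - T' x)) ^ 3 ≤
      Cfin n R L * ∑ p : ιF × ιG, π p * ((z p.2 - y p.1) ⬝ᵥ (z p.2 - y p.1)) := by
  classical
  let P := {p : ιF × ιG // 0 < π p}
  let f : P → ιF := fun p => p.1.1
  let g : P → ιG := fun p => p.1.2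
  have hS : ∀ F : ιF × ιG → ℝ, (∀ x, π x = 0 → F x = 0) → ∑ x : P, F x.1 = ∑ x, F x := by
    intro F hF
    have h1 : ∑ x : P, F x.1 = ∑ x ∈ (Finset.univ : Finset (ιF × ιG)) with 0 < π x, F x := by
      rw [← Finset.sum_subtype_eq_sum_filter, Finset.subtype_univ]
    rw [h1]
    refine Finset.sum_filter_of_ne fun x _ hx => ?_
    by_contra hcon
    have h2 : π x = 0 := le_antisymm (not_lt.1 hcon) (hπ x)
    exact hx (hF x h2)
  have hfib1 : ∀ a, ∑ p : P with f p = a, π p.1 = m a := by
    intro a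
    rw [← hπf a, Finset.sum_filter]
    have := hS (fun x => if x.1 = a then π x else 0) (fun x hx => by simp [hx])
    simp only [f]
    rw [this, Fintype.sum_prod_type]
    refine (Finset.sum_eq_single a (fun b _ hb => by simp [hb]) (by simp)).trans (by simp)
  have hfib2 : ∀ b, ∑ p : P with g p = b, π p.1 = m' b := by
    intro b
    rw [← hπg b, Finset.sum_filter]
    have := hS (fun x => if x.2 = b then π x else 0) (fun x hx => by simp [hx])
    simp only [g]
    rw [this, Fintype.sum_prod_type_right]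
    refine (Finset.sum_eq_single b (fun b _ hb => by simp [hb]) (by simp)).trans (by simp)
  have hfs : Surjective f := by
    intro a
    by_contra hcon
    push_neg at hcon
    have h1 := hfib1 a
    have h2 : (Finset.univ.filter fun p : P => f p = a) = ∅ := by
      ext p
      simp [hcon p]
    rw [h2] at h1
    have := hm a
    simp at h1
    linarith
  have hgs : Surjective g := by
    intro a
    by_contra hcon
    push_neg at hcon
    have h1 := hfib2 a
    have h2 : (Finset.univ.filter fun p : P => g p = a) = ∅ := by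
      ext p
      simp [hcon p]
    rw [h2] at h1
    have := hm' a
    simp at h1
    linarith
  have hfg : ∀ p q : P, p ≠ q → f p ≠ f q ∨ g p ≠ g q := by
    intro p q hpq
    by_contra hcon
    push_neg at hcon
    exact hpq (Subtype.ext (Prod.ext hcon.1 hcon.2))
  haveI : Nonempty P := by
    obtain ⟨a⟩ := ‹Nonempty ιF›
    obtain ⟨p, _⟩ := hfs a
    exact ⟨p⟩
  obtain ⟨c, hc⟩ := pot_stability hK hKc hKi hy hz hm hm' hsum hsum' hfs hgs hfg
    (π := fun p : P => π p.1) (fun p => p.2) hfib1 hfib2 hR hex hex'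
  have hs1 := isSubgrad_of_selection y h hT hTs hyL
  have hs2 := isSubgrad_of_selection z h' hT' hTs' hzL
  have hgn := gn_full hK hKc hs2 hs1 c hR
  have hcost : ∑ p : P, π p.1 * ((z (g p) - y (f p)) ⬝ᵥ (z (g p) - y (f p))) =
      ∑ p : ιF × ιG, π p * ((z p.2 - y p.1) ⬝ᵥ (z p.2 - y p.1)) :=
    hS (fun x => π x * ((z x.2 - y x.1) ⬝ᵥ (z x.2 - y x.1))) (fun x hx => by simp [hx])
  rw [hcost] at hc
  refine hgn.trans ?_
  unfold Cfin
  have hL0 : 0 ≤ L := (abs_nonneg _).trans (hyL (Classical.arbitrary _) 0)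
  set W := ∑ p : ιF × ιG, π p * ((z p.2 - y p.1) ⬝ᵥ (z p.2 - y p.1))
  set V := (volume (Metric.closedBall (0 : Vec n) (max R 0))).toReal
  calc _ ≤ ((n : ℝ) + 1) ^ 3 * (V ^ 2 * (32768 * L ^ 4) * (36 * ((n : ℝ) + 1) * R ^ 2 * W)) := by
        gcongr
    _ = _ := by ring

end Vale.Agent.Lib.P074

end
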