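import Vale.Agent.Lib.P074.Part3
import Vale.Agent.Lib.P074.Defs

section

open MeasureTheory Set Filter Topology Function
open scoped ENNReal

namespace Vale.Agent.Lib.P074

section finval

variable {α β : Type*} [MeasurableSpace α] [MeasurableSpace β] [MeasurableSingletonClass β]

lemma integral_finval {ν : Measure α} [IsFiniteMeasure ν] {U : α → β} (hU : Measurable U)
    {F : Finset β} (hF : ∀ᵐ x ∂ν, U x ∈ F) (g : β → ℝ) :
    ∫ x, g (U x) ∂ν = ∑ p ∈ F, ν.real (U ⁻¹' {p}) * g p := by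
  have h1 : ∀ᵐ x ∂ν, g (U x) = ∑ p ∈ F, (U ⁻¹' {p}).indicator (fun _ => g p) x := by
    filter_upwards [hF] with x hx
    rw [Finset.sum_eq_single (U x)]
    · simp
    · intro b _ hb
      have : x ∉ U ⁻¹' {b} := fun h => hb h.symm
      simp [this]
    · intro h
      exact absurd hx h
  rw [integral_congr_ae h1, integral_finset_sum]
  · refine Finset.sum_congr rfl fun p _ => ?_
    rw [integral_indicator_const _ (hU (measurableSet_singleton p))]
    simp
  · intro p _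
    exact (integrable_const _).indicator (hU (measurableSet_singleton p))

lemma fibers_sum {ν : Measure α} [IsFiniteMeasure ν] {U : α → β} (hU : Measurable U)
    {F : Finset β} (hF : ∀ᵐ x ∂ν, U x ∈ F) :
    ∑ p ∈ F, ν.real (U ⁻¹' {p}) = ν.real univ := by
  have := integral_finval hU hF (fun _ => (1 : ℝ))
  simp only [integral_const, smul_eq_mul, mul_one] at this
  exact this.symm

end finval

variable {n : ℕ}

/-- A finite model of the target `μ` at the discretization `P`, with its optimal map. -/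
structure Model (K : Set (Vec (n + 1))) (μ : Measure (Vec (n + 1)))
    (P : Vec (n + 1) → Vec (n + 1)) (L : ℝ) where
  F : Finset (Vec (n + 1))
  hne : Nonempty F
  pos : ∀ p ∈ F, 0 < μ (P ⁻¹' {p})
  full : ∀ᵐ y ∂μ, P y ∈ F
  bound : ∀ p ∈ F, ∀ k, |p k| ≤ L
  h : F → ℝ
  exact : IsExact K (Subtype.val : F → Vec (n + 1)) (fun _ => 1)
    (fun i => (volume K).toReal * μ.real (P ⁻¹' {(i : Vec (n + 1))})) h
  T : Vec (n + 1) → Vec (n + 1)
  meas : Measurable T
  sel : ∀ x, ∃ i : F, T x = i ∧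
    haveI := hne
    pot (Subtype.val : F → Vec (n + 1)) h x = aff (Subtype.val : F → Vec (n + 1)) h i x

section exist

variable {K : Set (Vec (n + 1))} {μ : Measure (Vec (n + 1))} {P : Vec (n + 1) → Vec (n + 1)}
  {L : ℝ}

lemma volume_pos_of_interior (hKi : (interior K).Nonempty) : 0 < volume K := by
  have h1 : 0 < volume (interior K) := isOpen_interior.measure_pos _ hKi
  exact lt_of_lt_of_le h1 (measure_mono interior_subset)

lemma toReal_volume_pos (hK : IsCompact K) (hKi : (interior K).Nonempty) :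
    0 < (volume K).toReal :=
  ENNReal.toReal_pos (volume_pos_of_interior hKi).ne' hK.measure_lt_top.ne

open Classical in
/-- Finite models exist. -/
theorem exists_model (hK : IsCompact K) (hKi : (interior K).Nonempty) [IsProbabilityMeasure μ]
    (hP : Measurable P) {F₀ : Finset (Vec (n + 1))} (hF₀ : ∀ᵐ y ∂μ, P y ∈ F₀)
    (hL : ∀ᵐ y ∂μ, ∀ k, |P y k| ≤ L) : Nonempty (Model K μ P L) := by
  set F := F₀.filter fun p => 0 < μ (P ⁻¹' {p}) with hF
  have hpos : ∀ p ∈ F, 0 < μ (P ⁻¹' {p}) := fun p hp => (Finset.mem_filter.1 hp).2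
  have hfull : ∀ᵐ y ∂μ, P y ∈ F := by
    have h1 : ∀ᵐ y ∂μ, ∀ p ∈ F₀, P y = p → 0 < μ (P ⁻¹' {p}) := by
      rw [Finset.eventually_all]
      intro p _
      by_cases hp : 0 < μ (P ⁻¹' {p})
      · exact Eventually.of_forall fun _ _ => hp
      · have h2 : μ (P ⁻¹' {p}) = 0 := le_antisymm (not_lt.1 hp) bot_le
        have h3 : ∀ᵐ y ∂μ, y ∉ P ⁻¹' {p} := measure_eq_zero_iff_ae_notMem.1 h2
        filter_upwards [h3] with y hy hyp
        exact absurd hyp hy
    filter_upwards [h1, hF₀] with y hy hy0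
    exact Finset.mem_filter.2 ⟨hy0, hy _ hy0 rfl⟩
  have hbound : ∀ p ∈ F, ∀ k, |p k| ≤ L := by
    intro p hp k
    by_contra hcon
    have h1 : ∀ᵐ y ∂μ, y ∉ P ⁻¹' {p} := by
      filter_upwards [hL] with y hy hyp
      have : P y = p := hyp
      exact hcon (this ▸ hy k)
    exact (hpos p hp).ne' (measure_eq_zero_iff_ae_notMem.2 h1)
  have hsum : ∑ p ∈ F, μ.real (P ⁻¹' {p}) = 1 := by
    rw [fibers_sum hP hfull]
    simp
  have hne : Nonempty F := by
    by_contra hcon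
    have : F = ∅ := by
      rw [← Finset.not_nonempty_iff_eq_empty]
      intro ⟨p, hp⟩
      exact hcon ⟨⟨p, hp⟩⟩
    rw [this] at hsum
    simp at hsum
  haveI := hne
  have hvK := toReal_volume_pos hK hKi
  set y : F → Vec (n + 1) := Subtype.val with hy
  set M : F → ℝ := fun i => (volume K).toReal * μ.real (P ⁻¹' {(i : Vec (n + 1))}) with hM
  have hMpos : ∀ i, 0 < M i := by
    intro i
    refine mul_pos hvK ?_
    exact ENNReal.toReal_pos (hpos i i.2).ne' (measure_ne_top _ _)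
  have hMsum : ∫ x in K, (fun _ => (1 : ℝ)) x = ∑ i, M i := by
    rw [Finset.sum_coe_sort F (fun p => (volume K).toReal * μ.real (P ⁻¹' {p})),
      ← Finset.mul_sum, hsum]
    simp [Measure.real]
  obtain ⟨D, hD0, hD⟩ := exists_dot_bound hK y
  obtain ⟨m, hm, hmle⟩ := exists_min_mass hMpos
  obtain ⟨h, _, hex, _⟩ := exists_exact hK Subtype.val_injective (dens_one K) hMpos hMsum hD0 hD
    hm hmle
  obtain ⟨T, hT, hTs⟩ := exists_selection y h
  exact ⟨⟨F, hne, hpos, hfull, hbound, h, hex, T, hT, hTs⟩⟩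

end exist

namespace Model

variable {K : Set (Vec (n + 1))} {μ : Measure (Vec (n + 1))} {P : Vec (n + 1) → Vec (n + 1)}
  {L : ℝ}

instance (M : Model K μ P L) : Nonempty M.F := M.hne

lemma T_mem (M : Model K μ P L) (x : Vec (n + 1)) : M.T x ∈ M.F := by
  obtain ⟨i, hi, _⟩ := M.sel x
  rw [hi]
  exact i.2

lemma T_bound (M : Model K μ P L) (x : Vec (n + 1)) (k : Fin (n + 1)) : |M.T x k| ≤ L :=
  M.bound _ (M.T_mem x) k

lemma isSubgrad (M : Model K μ P L) :
    IsSubgrad (pot (Subtype.val : M.F → Vec (n + 1)) M.h) M.T L :=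
  isSubgrad_of_selection _ _ M.meas M.sel fun i k => M.bound i i.2 k

lemma finRestrict (hK : IsCompact K) : IsFiniteMeasure (volume.restrict K) := ⟨by
  rw [Measure.restrict_apply_univ]; exact hK.measure_lt_top⟩

/-- The masses of the fibers of the optimal map. -/
lemma vol_fiber (M : Model K μ P L) (hK : IsCompact K) [IsProbabilityMeasure μ]
    (hP : Measurable P) {p : Vec (n + 1)} (hp : p ∈ M.F) :
    (volume.restrict K).real (M.T ⁻¹' {p}) = (volume K).toReal * μ.real (P ⁻¹' {p}) := by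
  haveI := finRestrict (K := K) hK
  have hle : ∀ p ∈ M.F, (volume.restrict K).real (M.T ⁻¹' {p}) ≤
      (volume K).toReal * μ.real (P ⁻¹' {p}) := by
    intro p hp
    have hex := M.exact ⟨p, hp⟩
    simp only [setIntegral_const, smul_eq_mul, mul_one] at hex
    rw [← hex, measureReal_restrict_apply (M.meas (measurableSet_singleton p))]
    refine measureReal_mono ?_ (ne_of_lt ?_)
    · rintro x ⟨hx1, hx2⟩
      obtain ⟨i, hi, hpot⟩ := M.sel x
      have : i = ⟨p, hp⟩ := Subtype.ext (hi.symm.trans hx1)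
      rw [this] at hpot
      exact (mem_cell_iff _ _).2 ⟨hx2, hpot.le⟩
    · exact (measure_mono (cell_subset _ _ _ _)).trans_lt hK.measure_lt_top
  have h1 : ∑ p ∈ M.F, (volume.restrict K).real (M.T ⁻¹' {p}) = (volume K).toReal := by
    rw [fibers_sum M.meas (Eventually.of_forall M.T_mem)]
    simp [Measure.real]
  have h2 : ∑ p ∈ M.F, (volume K).toReal * μ.real (P ⁻¹' {p}) = (volume K).toReal := by
    rw [← Finset.mul_sum, fibers_sum hP M.full]
    simp
  exact (Finset.sum_eq_sum_iff_of_le hle).1 (h1.trans h2.symm) p hp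

/-- Integrals along the optimal map are integrals along the discretization. -/
lemma integral_T (M : Model K μ P L) (hK : IsCompact K) [IsProbabilityMeasure μ]
    (hP : Measurable P) (g : Vec (n + 1) → ℝ) :
    ∫ x in K, g (M.T x) = (volume K).toReal * ∫ y, g (P y) ∂μ := by
  haveI := finRestrict (K := K) hK
  rw [integral_finval M.meas (Eventually.of_forall M.T_mem) g, integral_finval hP M.full g,
    Finset.mul_sum]
  refine Finset.sum_congr rfl fun p hp => ?_
  rw [M.vol_fiber hK hP hp, mul_assoc]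

end Model

end Vale.Agent.Lib.P074

end

section

open MeasureTheory Set Filter Topology Function
open scoped ENNReal

namespace Vale.Agent.Lib.P074

variable {n : ℕ}

section dot

variable {d : ℕ}

lemma dot_self_nonneg (v : Vec d) : 0 ≤ v ⬝ᵥ v :=
  Finset.sum_nonneg fun k _ => mul_self_nonneg _

lemma dot_diff_bound {u v : Vec d} {L : ℝ} (hu : ∀ k, |u k| ≤ L) (hv : ∀ k, |v k| ≤ L) :
    (u - v) ⬝ᵥ (u - v) ≤ d * (2 * L) ^ 2 := by
  have : ∀ k ∈ (Finset.univ : Finset (Fin d)), (u - v) k * (u - v) k ≤ (2 * L) ^ 2 := by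
    intro k _
    have h1 := abs_le.1 (hu k)
    have h2 := abs_le.1 (hv k)
    have h3 : |(u - v) k| ≤ 2 * L := by
      simp only [Pi.sub_apply]
      rw [abs_le]
      constructor <;> linarith
    rw [← sq, ← sq_abs]
    exact pow_le_pow_left₀ (abs_nonneg _) h3 2
  calc (u - v) ⬝ᵥ (u - v) ≤ ∑ _k : Fin d, (2 * L) ^ 2 := Finset.sum_le_sum this
    _ = _ := by simp

lemma measurable_dot {α : Type*} [MeasurableSpace α] {U V : α → Vec d} (hU : Measurable U)
    (hV : Measurable V) : Measurable fun x => U x ⬝ᵥ V x := by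
  unfold dotProduct
  exact Finset.measurable_sum _ fun k _ =>
    ((measurable_pi_apply k).comp hU).mul ((measurable_pi_apply k).comp hV)

lemma measurable_dot_diff {α : Type*} [MeasurableSpace α] {U V : α → Vec d} (hU : Measurable U)
    (hV : Measurable V) : Measurable fun x => (U x - V x) ⬝ᵥ (U x - V x) :=
  measurable_dot (hU.sub hV) (hU.sub hV)

lemma continuous_dot_self : Continuous fun v : Vec d => v ⬝ᵥ v := by
  unfold dotProduct
  fun_prop

lemma continuous_dot_pair : Continuous fun p : Vec d × Vec d => p.1 ⬝ᵥ p.2 := by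
  unfold dotProduct
  fun_prop

/-- Comparison of the square of the sup norm and the dot product. -/
lemma enorm_sq_le_dot (v : Vec d) : ‖v‖ₑ ^ (2 : ℝ) ≤ ENNReal.ofReal (v ⬝ᵥ v) := by
  have h1 : ‖v‖ ≤ Real.sqrt (v ⬝ᵥ v) := by
    refine (pi_norm_le_iff_of_nonneg (Real.sqrt_nonneg _)).2 fun k => ?_
    apply Real.le_sqrt_of_sq_le
    rw [Real.norm_eq_abs, sq_abs, sq]
    exact Finset.single_le_sum (f := fun k => v k * v k) (fun i _ => mul_self_nonneg _)
      (Finset.mem_univ k)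
  have h2 : ‖v‖ ^ 2 ≤ v ⬝ᵥ v := by
    have := pow_le_pow_left₀ (norm_nonneg v) h1 2
    rwa [Real.sq_sqrt (dot_self_nonneg v)] at this
  rw [← ofReal_norm_eq_enorm, ENNReal.rpow_two, ← ENNReal.ofReal_pow (norm_nonneg _)]
  exact ENNReal.ofReal_le_ofReal h2

end dot

namespace Model

variable {K : Set (Vec (n + 1))} {μ ν : Measure (Vec (n + 1))}
  {P₁ P₂ : Vec (n + 1) → Vec (n + 1)} {L : ℝ}

/-- Finite stability for two models with a general coupling. -/
theorem stability (hK : IsCompact K) (hKc : Convex ℝ K) (hKi : (interior K).Nonempty)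
    [IsProbabilityMeasure μ] [IsProbabilityMeasure ν] (hP₁ : Measurable P₁) (hP₂ : Measurable P₂)
    (M₁ : Model K μ P₁ L) (M₂ : Model K ν P₂ L)
    {γ : Measure (Vec (n + 1) × Vec (n + 1))} [IsFiniteMeasure γ]
    (hγ1 : γ.map Prod.fst = μ) (hγ2 : γ.map Prod.snd = ν)
    {R : ℝ} (hR : ∀ x ∈ K, ∀ k, |x k| ≤ R) :
    (∫ x in K, (M₁.T x - M₂.T x) ⬝ᵥ (M₁.T x - M₂.T x)) ^ 3 ≤
      Cfin n R L * ((volume K).toReal * ∫ p, (P₂ p.2 - P₁ p.1) ⬝ᵥ (P₂ p.2 - P₁ p.1) ∂γ) := by
  classical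
  have hvK := toReal_volume_pos hK hKi
  set vK := (volume K).toReal with hvKdef
  set Ua : Vec (n + 1) × Vec (n + 1) → Vec (n + 1) := fun p => P₁ p.1 with hUa
  set Ub : Vec (n + 1) × Vec (n + 1) → Vec (n + 1) := fun p => P₂ p.2 with hUb
  have hUam : Measurable Ua := hP₁.comp measurable_fst
  have hUbm : Measurable Ub := hP₂.comp measurable_snd
  have hae1 : ∀ᵐ p ∂γ, Ua p ∈ M₁.F := by
    have h1 : ∀ᵐ y ∂(γ.map Prod.fst), P₁ y ∈ M₁.F := by
      rw [hγ1]
      exact M₁.full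
    exact ae_of_ae_map measurable_fst.aemeasurable h1
  have hae2 : ∀ᵐ p ∂γ, Ub p ∈ M₂.F := by
    have h1 : ∀ᵐ y ∂(γ.map Prod.snd), P₂ y ∈ M₂.F := by
      rw [hγ2]
      exact M₂.full
    exact ae_of_ae_map measurable_snd.aemeasurable h1
  have hreal1 : ∀ a : Vec (n + 1), γ.real (Ua ⁻¹' {a}) = μ.real (P₁ ⁻¹' {a}) := by
    intro a
    rw [← hγ1, map_measureReal_apply measurable_fst (hP₁ (measurableSet_singleton a))]
    rfl
  have hreal2 : ∀ b : Vec (n + 1), γ.real (Ub ⁻¹' {b}) = ν.real (P₂ ⁻¹' {b}) := by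
    intro b
    rw [← hγ2, map_measureReal_apply measurable_snd (hP₂ (measurableSet_singleton b))]
    rfl
  set π : M₁.F × M₂.F → ℝ := fun p => vK * γ.real (Ua ⁻¹' {(p.1 : Vec (n + 1))} ∩
    Ub ⁻¹' {(p.2 : Vec (n + 1))}) with hπ
  have hπf : ∀ a : M₁.F, ∑ b : M₂.F, π (a, b) = vK * μ.real (P₁ ⁻¹' {(a : Vec (n + 1))}) := by
    intro a
    simp only [hπ]
    rw [← Finset.mul_sum, ← hreal1]
    congr 1
    have h1 := fibers_sum (ν := γ.restrict (Ua ⁻¹' {(a : Vec (n + 1))})) hUbm (F := M₂.F)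
      (ae_restrict_of_ae hae2)
    rw [measureReal_restrict_apply_univ] at h1
    rw [← h1, ← Finset.sum_coe_sort M₂.F]
    refine Finset.sum_congr rfl fun b _ => ?_
    rw [measureReal_restrict_apply (hUbm (measurableSet_singleton _)), inter_comm]
  have hπg : ∀ b : M₂.F, ∑ a : M₁.F, π (a, b) = vK * ν.real (P₂ ⁻¹' {(b : Vec (n + 1))}) := by
    intro b
    simp only [hπ]
    rw [← Finset.mul_sum, ← hreal2]
    congr 1
    have h1 := fibers_sum (ν := γ.restrict (Ub ⁻¹' {(b : Vec (n + 1))})) hUam (F := M₁.F)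
      (ae_restrict_of_ae hae1)
    rw [measureReal_restrict_apply_univ] at h1
    rw [← h1, ← Finset.sum_coe_sort M₁.F]
    refine Finset.sum_congr rfl fun a _ => ?_
    rw [measureReal_restrict_apply (hUam (measurableSet_singleton _))]
  have hm₁ : ∀ a : M₁.F, 0 < vK * μ.real (P₁ ⁻¹' {(a : Vec (n + 1))}) := fun a =>
    mul_pos hvK (ENNReal.toReal_pos (M₁.pos a a.2).ne' (measure_ne_top _ _))
  have hm₂ : ∀ b : M₂.F, 0 < vK * ν.real (P₂ ⁻¹' {(b : Vec (n + 1))}) := fun b =>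
    mul_pos hvK (ENNReal.toReal_pos (M₂.pos b b.2).ne' (measure_ne_top _ _))
  have hs₁ : vK = ∑ a : M₁.F, vK * μ.real (P₁ ⁻¹' {(a : Vec (n + 1))}) := by
    rw [Finset.sum_coe_sort M₁.F (fun p => vK * μ.real (P₁ ⁻¹' {p})), ← Finset.mul_sum,
      fibers_sum hP₁ M₁.full]
    simp
  have hs₂ : vK = ∑ b : M₂.F, vK * ν.real (P₂ ⁻¹' {(b : Vec (n + 1))}) := by
    rw [Finset.sum_coe_sort M₂.F (fun p => vK * ν.real (P₂ ⁻¹' {p})), ← Finset.mul_sum,
      fibers_sum hP₂ M₂.full]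
    simp
  have hmain := finite_stability hK hKc hKi (y := (Subtype.val : M₁.F → Vec (n + 1)))
    Subtype.val_injective (z := (Subtype.val : M₂.F → Vec (n + 1))) Subtype.val_injective
    hm₁ hm₂ hs₁ hs₂ (π := π) (fun p => mul_nonneg hvK.le measureReal_nonneg) hπf hπg hR
    M₁.exact M₂.exact (L := L) (fun i k => M₁.bound i i.2 k) (fun i k => M₂.bound i i.2 k)
    M₁.meas M₁.sel M₂.meas M₂.sel
  refine hmain.trans (le_of_eq ?_)
  congr 1
  -- the cost
  set U : Vec (n + 1) × Vec (n + 1) → Vec (n + 1) × Vec (n + 1) := fun p => (Ua p, Ub p) with hU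
  have hUm : Measurable U := hUam.prodMk hUbm
  have hUF : ∀ᵐ p ∂γ, U p ∈ M₁.F ×ˢ M₂.F := by
    filter_upwards [hae1, hae2] with p h1 h2
    exact Finset.mem_product.2 ⟨h1, h2⟩
  have hcost := integral_finval hUm hUF (fun q => (q.2 - q.1) ⬝ᵥ (q.2 - q.1))
  have hcost' : ∫ p, (P₂ p.2 - P₁ p.1) ⬝ᵥ (P₂ p.2 - P₁ p.1) ∂γ =
      ∑ q ∈ M₁.F ×ˢ M₂.F, γ.real (U ⁻¹' {q}) * ((q.2 - q.1) ⬝ᵥ (q.2 - q.1)) := hcost
  rw [hcost', Finset.mul_sum, Finset.sum_product, Fintype.sum_prod_type,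
    ← Finset.sum_coe_sort M₁.F]
  refine Finset.sum_congr rfl fun a _ => ?_
  rw [← Finset.sum_coe_sort M₂.F]
  refine Finset.sum_congr rfl fun b _ => ?_
  have : U ⁻¹' {((a : Vec (n + 1)), (b : Vec (n + 1)))} =
      Ua ⁻¹' {(a : Vec (n + 1))} ∩ Ub ⁻¹' {(b : Vec (n + 1))} := by
    ext p
    simp [hU, Prod.ext_iff]
  simp only [hπ]
  rw [this]
  ring

end Model

/-- Pointwise comparison of the cost after discretization. -/
lemma dot_disc_le {u v u' v' : Vec (n + 1)} {δ₁ δ₂ : ℝ} (h₁ : ∀ k, |u' k - u k| ≤ δ₁)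
    (h₂ : ∀ k, |v' k - v k| ≤ δ₂) :
    (v' - u') ⬝ᵥ (v' - u') ≤ 2 * ((v - u) ⬝ᵥ (v - u)) + 2 * (((n : ℝ) + 1) * (δ₁ + δ₂) ^ 2) := by
  have h : ∀ k ∈ (Finset.univ : Finset (Fin (n + 1))),
      (v' - u') k * (v' - u') k ≤ 2 * ((v - u) k * (v - u) k) + 2 * (δ₁ + δ₂) ^ 2 := by
    intro k _
    simp only [Pi.sub_apply]
    have a1 := abs_le.1 (h₁ k)
    have a2 := abs_le.1 (h₂ k)
    have h3 : |(v' k - v k) - (u' k - u k)| ≤ δ₁ + δ₂ := by
      rw [abs_le]
      constructor <;> linarith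
    have h4 : ((v' k - v k) - (u' k - u k)) ^ 2 ≤ (δ₁ + δ₂) ^ 2 := by
      rw [← sq_abs]
      exact pow_le_pow_left₀ (abs_nonneg _) h3 2
    nlinarith [sq_nonneg ((v k - u k) - ((v' k - v k) - (u' k - u k)))]
  calc _ ≤ ∑ k : Fin (n + 1), (2 * ((v - u) k * (v - u) k) + 2 * (δ₁ + δ₂) ^ 2) :=
        Finset.sum_le_sum h
    _ = _ := by
        rw [Finset.sum_add_distrib, ← Finset.mul_sum]
        have e : (v - u) ⬝ᵥ (v - u) = ∑ k, (v - u) k * (v - u) k := rfl
        rw [e]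
        simp only [Finset.sum_const, Finset.card_univ, Fintype.card_fin, nsmul_eq_mul]
        push_cast
        ring

/-- The rounding map on a grid. -/
noncomputable def grid {d : ℕ} (δ : ℝ) (y : Vec d) : Vec d := fun k => δ * (⌊y k / δ⌋ : ℝ)

lemma measurable_grid {d : ℕ} (δ : ℝ) : Measurable (grid (d := d) δ) := by
  refine measurable_pi_iff.2 fun k => ?_
  have h1 : Measurable fun y : Vec d => y k / δ :=
    Measurable.div_const (f := fun y : Vec d => y k) (measurable_pi_apply k) δ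
  exact (measurable_from_top.comp (Int.measurable_floor.comp h1)).const_mul δ

lemma grid_sub_le {d : ℕ} {δ : ℝ} (hδ : 0 < δ) (y : Vec d) (k : Fin d) :
    |grid δ y k - y k| ≤ δ := by
  simp only [grid]
  have h1 := Int.floor_le (y k / δ)
  have h2 := Int.lt_floor_add_one (y k / δ)
  have e : y k = δ * (y k / δ) := by field_simp
  have h3 : δ * (⌊y k / δ⌋ : ℝ) ≤ y k := by
    calc _ ≤ δ * (y k / δ) := mul_le_mul_of_nonneg_left h1 hδ.le
      _ = y k := e.symm
  have h4 : y k ≤ δ * (⌊y k / δ⌋ : ℝ) + δ := by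
    calc y k = δ * (y k / δ) := e
      _ ≤ δ * ((⌊y k / δ⌋ : ℝ) + 1) := mul_le_mul_of_nonneg_left h2.le hδ.le
      _ = _ := by ring
  rw [abs_le]
  constructor <;> linarith

lemma grid_finite {d : ℕ} {δ : ℝ} (hδ : 0 < δ) (R : ℝ) :
    ∃ F₀ : Finset (Vec d), ∀ y : Vec d, (∀ k, |y k| ≤ R) → grid δ y ∈ F₀ := by
  set J : Set (Fin d → ℤ) := Set.pi univ fun _ => Icc ⌊-R / δ⌋ ⌊R / δ⌋ with hJ
  have hJf : J.Finite := Set.Finite.pi fun _ => Set.finite_Icc _ _
  set G : Set (Vec d) := (fun (j : Fin d → ℤ) (k : Fin d) => δ * (j k : ℝ)) '' J with hG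
  have hGf : G.Finite := hJf.image _
  refine ⟨hGf.toFinset, fun y hy => ?_⟩
  rw [Set.Finite.mem_toFinset]
  refine ⟨fun k => ⌊y k / δ⌋, ?_, rfl⟩
  intro k _
  have h1 := abs_le.1 (hy k)
  exact ⟨Int.floor_le_floor (div_le_div_of_nonneg_right h1.1 hδ.le),
    Int.floor_le_floor (div_le_div_of_nonneg_right h1.2 hδ.le)⟩

end Vale.Agent.Lib.P074

end

section

open MeasureTheory Set Filter Topology Function
open scoped ENNReal

namespace Vale.Agent.Lib.P074

variable {n : ℕ}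

/-- The mesh sizes. -/
noncomputable def mesh (j : ℕ) : ℝ := (1 / 8 : ℝ) ^ j

lemma mesh_pos (j : ℕ) : 0 < mesh j := by
  unfold mesh
  positivity

lemma mesh_le_one (j : ℕ) : mesh j ≤ 1 := by
  unfold mesh
  exact pow_le_one₀ (by norm_num) (by norm_num)

lemma mesh_anti {N j : ℕ} (h : N ≤ j) : mesh j ≤ mesh N := by
  unfold mesh
  exact pow_le_pow_of_le_one (by norm_num) (by norm_num) h

lemma tendsto_mesh : Tendsto mesh atTop (𝓝 0) := by
  unfold mesh
  exact tendsto_pow_atTop_nhds_zero_of_lt_one (by norm_num) (by norm_num)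

lemma tendsto_grid {d : ℕ} (y : Vec d) :
    Tendsto (fun j => grid (mesh j) y) atTop (𝓝 y) := by
  rw [tendsto_pi_nhds]
  intro k
  rw [tendsto_iff_dist_tendsto_zero]
  refine squeeze_zero (fun _ => dist_nonneg) (fun j => ?_) tendsto_mesh
  rw [Real.dist_eq]
  exact grid_sub_le (mesh_pos j) y k

lemma tendsto_integral_bdd {α : Type*} [MeasurableSpace α] {ν : Measure α} [IsFiniteMeasure ν]
    {G : ℕ → α → ℝ} {G' : α → ℝ} {C : ℝ} (hm : ∀ j, Measurable (G j))
    (hb : ∀ j, ∀ᵐ x ∂ν, |G j x| ≤ C)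
    (hlim : ∀ᵐ x ∂ν, Tendsto (fun j => G j x) atTop (𝓝 (G' x))) :
    Tendsto (fun j => ∫ x, G j x ∂ν) atTop (𝓝 (∫ x, G' x ∂ν)) :=
  tendsto_integral_of_dominated_convergence (fun _ => C)
    (fun j => (hm j).aestronglyMeasurable) (integrable_const C) (fun j => by simpa using hb j) hlim

section models

variable {K : Set (Vec (n + 1))} {μ ν : Measure (Vec (n + 1))} {L : ℝ}

lemma exists_models (hK : IsCompact K) (hKi : (interior K).Nonempty) [IsProbabilityMeasure μ]
    {Ry : ℝ} (hbox : ∀ᵐ y ∂μ, ∀ k, |y k| ≤ Ry) (j : ℕ) :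
    Nonempty (Model K μ (grid (mesh j)) (Ry + 1)) := by
  obtain ⟨F₀, hF₀⟩ := grid_finite (d := n + 1) (mesh_pos j) Ry
  refine exists_model hK hKi (measurable_grid _) (F₀ := F₀) ?_ ?_
  · filter_upwards [hbox] with y hy using hF₀ y hy
  · filter_upwards [hbox] with y hy k
    have h1 := abs_le.1 (grid_sub_le (mesh_pos j) y k)
    have h2 := abs_le.1 (hy k)
    have h3 := mesh_le_one j
    rw [abs_le]
    constructor <;> linarith

lemma integrable_cost {γ : Measure (Vec (n + 1) × Vec (n + 1))} [IsFiniteMeasure γ] {Ry : ℝ}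
    (hb1 : ∀ᵐ p ∂γ, ∀ k, |p.1 k| ≤ Ry) (hb2 : ∀ᵐ p ∂γ, ∀ k, |p.2 k| ≤ Ry) :
    Integrable (fun p : Vec (n + 1) × Vec (n + 1) => (p.2 - p.1) ⬝ᵥ (p.2 - p.1)) γ := by
  refine Integrable.of_bound (C := ((n + 1 : ℕ) : ℝ) * (2 * Ry) ^ 2)
    (measurable_dot_diff measurable_snd measurable_fst).aestronglyMeasurable ?_
  filter_upwards [hb1, hb2] with p h1 h2
  rw [Real.norm_eq_abs, abs_of_nonneg (dot_self_nonneg _)]
  exact dot_diff_bound h2 h1

/-- Stability of models in terms of the cost of a coupling. -/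
theorem Model.stability' {P₁ P₂ : Vec (n + 1) → Vec (n + 1)}
    (hK : IsCompact K) (hKc : Convex ℝ K) (hKi : (interior K).Nonempty)
    [IsProbabilityMeasure μ] [IsProbabilityMeasure ν] (hP₁ : Measurable P₁) (hP₂ : Measurable P₂)
    (M₁ : Model K μ P₁ L) (M₂ : Model K ν P₂ L)
    {γ : Measure (Vec (n + 1) × Vec (n + 1))} [IsProbabilityMeasure γ]
    (hγ1 : γ.map Prod.fst = μ) (hγ2 : γ.map Prod.snd = ν)
    {R : ℝ} (hR : ∀ x ∈ K, ∀ k, |x k| ≤ R) {δ₁ δ₂ : ℝ} (h₁ : ∀ y k, |P₁ y k - y k| ≤ δ₁)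
    (h₂ : ∀ y k, |P₂ y k - y k| ≤ δ₂)
    (hint : Integrable (fun p : Vec (n + 1) × Vec (n + 1) => (p.2 - p.1) ⬝ᵥ (p.2 - p.1)) γ) :
    (∫ x in K, (M₁.T x - M₂.T x) ⬝ᵥ (M₁.T x - M₂.T x)) ^ 3 ≤
      Cfin n R L * ((volume K).toReal *
        (2 * (∫ p, (p.2 - p.1) ⬝ᵥ (p.2 - p.1) ∂γ) + 2 * (((n : ℝ) + 1) * (δ₁ + δ₂) ^ 2))) := by
  refine (M₁.stability hK hKc hKi hP₁ hP₂ M₂ hγ1 hγ2 hR).trans ?_
  have hvK := toReal_volume_pos hK hKi
  refine mul_le_mul_of_nonneg_left (mul_le_mul_of_nonneg_left ?_ hvK.le) (Cfin_nonneg _ _ _)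
  have hg : Integrable (fun p : Vec (n + 1) × Vec (n + 1) => 2 * ((p.2 - p.1) ⬝ᵥ (p.2 - p.1)) +
      2 * (((n : ℝ) + 1) * (δ₁ + δ₂) ^ 2)) γ :=
    (hint.const_mul 2).add (integrable_const _)
  have h3 := integral_mono_of_nonneg (μ := γ)
    (f := fun p : Vec (n + 1) × Vec (n + 1) => (P₂ p.2 - P₁ p.1) ⬝ᵥ (P₂ p.2 - P₁ p.1))
    (Eventually.of_forall fun p => dot_self_nonneg _) hg
    (Eventually.of_forall fun p => dot_disc_le (h₁ p.1) (h₂ p.2))
  refine h3.trans (le_of_eq ?_)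
  rw [integral_add (hint.const_mul 2) (integrable_const _), integral_const_mul, integral_const]
  simp

/-- The approximating maps converge almost everywhere. -/
theorem exists_limit (hK : IsCompact K) (hKc : Convex ℝ K) (hKi : (interior K).Nonempty)
    [IsProbabilityMeasure μ] {R : ℝ} (hR : ∀ x ∈ K, ∀ k, |x k| ≤ R) {Ry : ℝ}
    (hbox : ∀ᵐ y ∂μ, ∀ k, |y k| ≤ Ry) (M : ∀ j, Model K μ (grid (mesh j)) L) :
    ∃ S : Vec (n + 1) → Vec (n + 1), Measurable S ∧
      ∀ᵐ x ∂(volume.restrict K), Tendsto (fun j => (M j).T x) atTop (𝓝 (S x)) := by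
  haveI := Model.finRestrict (K := K) hK
  have hvK := toReal_volume_pos hK hKi
  set f : ℕ → Vec (n + 1) → Vec (n + 1) := fun j => (M j).T with hf
  -- the diagonal coupling
  set γ : Measure (Vec (n + 1) × Vec (n + 1)) := μ.map fun y => (y, y) with hγ
  have hdiag : Measurable fun y : Vec (n + 1) => (y, y) := measurable_id.prodMk measurable_id
  haveI : IsProbabilityMeasure γ := Measure.isProbabilityMeasure_map hdiag.aemeasurable
  have hγ1 : γ.map Prod.fst = μ := by
    rw [hγ, Measure.map_map measurable_fst hdiag]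
    exact Measure.map_id
  have hγ2 : γ.map Prod.snd = μ := by
    rw [hγ, Measure.map_map measurable_snd hdiag]
    exact Measure.map_id
  have hcost0 : ∫ p, (p.2 - p.1) ⬝ᵥ (p.2 - p.1) ∂γ = 0 := by
    rw [hγ, integral_map hdiag.aemeasurable
      (measurable_dot_diff measurable_snd measurable_fst).aestronglyMeasurable]
    simp
  have hint : Integrable (fun p : Vec (n + 1) × Vec (n + 1) => (p.2 - p.1) ⬝ᵥ (p.2 - p.1)) γ := by
    rw [hγ, integrable_map_measure
      (measurable_dot_diff measurable_snd measurable_fst).aestronglyMeasurable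
      hdiag.aemeasurable]
    have : ((fun p : Vec (n + 1) × Vec (n + 1) => (p.2 - p.1) ⬝ᵥ (p.2 - p.1)) ∘
        fun y : Vec (n + 1) => (y, y)) = fun _ => 0 := by
      ext y
      simp
    rw [this]
    exact integrable_zero _ _ _
  set A := Cfin n R L * ((volume K).toReal * (2 * (((n : ℝ) + 1)))) with hA
  have hA0 : 0 ≤ A := mul_nonneg (Cfin_nonneg _ _ _) (by positivity)
  set c₀ := 4 * A + 1 with hc₀
  have hc₀1 : 1 ≤ c₀ := by linarith
  have hX : ∀ N i j, N ≤ i → N ≤ j →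
      ∫ x in K, (f i x - f j x) ⬝ᵥ (f i x - f j x) ≤ c₀ * (1 / 4 : ℝ) ^ N := by
    intro N i j hi hj
    have h1 := Model.stability' hK hKc hKi (measurable_grid _) (measurable_grid _) (M i) (M j)
      hγ1 hγ2 hR (δ₁ := mesh i) (δ₂ := mesh j) (fun y k => grid_sub_le (mesh_pos i) y k)
      (fun y k => grid_sub_le (mesh_pos j) y k) hint
    rw [hcost0] at h1
    have h2 : (mesh i + mesh j) ^ 2 ≤ 4 * (1 / 64 : ℝ) ^ N := by
      have h3 : mesh i + mesh j ≤ 2 * (1 / 8 : ℝ) ^ N := by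
        have := mesh_anti hi
        have := mesh_anti hj
        unfold mesh at *
        linarith
      have h4 := pow_le_pow_left₀ (add_pos (mesh_pos i) (mesh_pos j)).le h3 2
      refine h4.trans (le_of_eq ?_)
      rw [mul_pow, ← pow_mul, mul_comm N 2, pow_mul]
      norm_num
    have h5 : (∫ x in K, (f i x - f j x) ⬝ᵥ (f i x - f j x)) ^ 3 ≤ (c₀ * (1 / 4 : ℝ) ^ N) ^ 3 := by
      refine h1.trans ?_
      have e : Cfin n R L * ((volume K).toReal * (2 * 0 + 2 * (((n : ℝ) + 1) *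
          (mesh i + mesh j) ^ 2))) = A * (mesh i + mesh j) ^ 2 := by
        rw [hA]
        ring
      rw [e]
      have h6 : A * (mesh i + mesh j) ^ 2 ≤ A * (4 * (1 / 64 : ℝ) ^ N) :=
        mul_le_mul_of_nonneg_left h2 hA0
      refine h6.trans ?_
      have e2 : (c₀ * (1 / 4 : ℝ) ^ N) ^ 3 = c₀ ^ 3 * (1 / 64 : ℝ) ^ N := by
        rw [mul_pow, ← pow_mul, mul_comm N 3, pow_mul]
        norm_num
      rw [e2, ← mul_assoc]
      refine mul_le_mul_of_nonneg_right ?_ (by positivity)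
      have h7 : c₀ ≤ c₀ ^ 3 := by
        calc c₀ = c₀ ^ 1 := (pow_one _).symm
          _ ≤ c₀ ^ 3 := pow_le_pow_right₀ hc₀1 (by norm_num)
      linarith
    exact le_of_pow_le_pow_left₀ (by norm_num) (by positivity) h5
  -- Cauchy in `L²`
  set c₁ := c₀ + 1 with hc₁
  have hc₁0 : 0 < c₁ := by linarith
  set B : ℕ → ℝ≥0∞ := fun N => ENNReal.ofReal (c₁ * (1 / 2 : ℝ) ^ N) with hB
  have hBsum : ∑' i, B i ≠ ∞ := by
    have hs : Summable fun N : ℕ => c₁ * (1 / 2 : ℝ) ^ N :=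
      (summable_geometric_of_lt_one (by norm_num) (by norm_num)).mul_left _
    rw [hB, ← ENNReal.ofReal_tsum_of_nonneg (fun N => by positivity) hs]
    exact ENNReal.ofReal_ne_top
  have hcau : ∀ N i j : ℕ, N ≤ i → N ≤ j → eLpNorm (f i - f j) 2 (volume.restrict K) < B N := by
    intro N i j hi hj
    have hXN := hX N i j hi hj
    rw [eLpNorm_eq_lintegral_rpow_enorm_toReal (by norm_num) (by norm_num)]
    simp only [ENNReal.toReal_ofNat, Pi.sub_apply]
    have hi0 : Integrable (fun x => (f i x - f j x) ⬝ᵥ (f i x - f j x)) (volume.restrict K) := by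
      refine Integrable.of_bound (C := ((n + 1 : ℕ) : ℝ) * (2 * L) ^ 2)
        (measurable_dot_diff (M i).meas (M j).meas).aestronglyMeasurable
        (Eventually.of_forall fun x => ?_)
      rw [Real.norm_eq_abs, abs_of_nonneg (dot_self_nonneg _)]
      exact dot_diff_bound ((M i).T_bound x) ((M j).T_bound x)
    have h1 : ∫⁻ x in K, ‖f i x - f j x‖ₑ ^ (2 : ℝ) ≤
        ENNReal.ofReal (∫ x in K, (f i x - f j x) ⬝ᵥ (f i x - f j x)) := by
      rw [ofReal_integral_eq_lintegral_ofReal hi0 (Eventually.of_forall fun x => dot_self_nonneg _)]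
      exact lintegral_mono fun x => enorm_sq_le_dot _
    have h2 : ENNReal.ofReal (∫ x in K, (f i x - f j x) ⬝ᵥ (f i x - f j x)) ≤
        ENNReal.ofReal (c₀ * (1 / 4 : ℝ) ^ N) := ENNReal.ofReal_le_ofReal hXN
    have h3 : (∫⁻ x in K, ‖f i x - f j x‖ₑ ^ (2 : ℝ)) ^ (1 / 2 : ℝ) ≤
        (ENNReal.ofReal (c₀ * (1 / 4 : ℝ) ^ N)) ^ (1 / 2 : ℝ) :=
      ENNReal.rpow_le_rpow (h1.trans h2) (by norm_num)
    refine lt_of_le_of_lt h3 ?_
    rw [ENNReal.ofReal_rpow_of_nonneg (by positivity) (by norm_num), ← Real.sqrt_eq_rpow]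
    refine (ENNReal.ofReal_lt_ofReal_iff (by positivity)).2 ?_
    rw [Real.sqrt_lt' (by positivity)]
    have e : (c₁ * (1 / 2 : ℝ) ^ N) ^ 2 = c₁ ^ 2 * (1 / 4 : ℝ) ^ N := by
      rw [mul_pow, ← pow_mul, mul_comm N 2, pow_mul]
      norm_num
    rw [e]
    refine mul_lt_mul_of_pos_right ?_ (by positivity)
    nlinarith
  have hae := Lp.ae_tendsto_of_cauchy_eLpNorm (μ := volume.restrict K)
    (fun j => (M j).meas.aestronglyMeasurable) (p := 2) (by norm_num) hBsum hcau
  exact measurable_limit_of_tendsto_metrizable_ae (fun j => (M j).meas.aemeasurable) hae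

/-- The limit pushes the source to the target. -/
theorem map_limit (hK : IsCompact K) [IsProbabilityMeasure μ]
    (M : ∀ j, Model K μ (grid (mesh j)) L) {S : Vec (n + 1) → Vec (n + 1)} (hS : Measurable S)
    (hlim : ∀ᵐ x ∂(volume.restrict K), Tendsto (fun j => (M j).T x) atTop (𝓝 (S x))) :
    (volume.restrict K).map S = volume K • μ := by
  haveI := Model.finRestrict (K := K) hK
  haveI : IsFiniteMeasure (volume K • μ) := Measure.smul_finite _ hK.measure_lt_top.ne
  refine ext_of_forall_integral_eq_of_IsFiniteMeasure fun f => ?_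
  rw [integral_map hS.aemeasurable f.continuous.aestronglyMeasurable, integral_smul_measure,
    smul_eq_mul]
  have hb : ∀ x, |f x| ≤ ‖f‖ := fun x => by
    simpa using f.norm_coe_le_norm x
  have T1 : Tendsto (fun j => ∫ x in K, f ((M j).T x)) atTop (𝓝 (∫ x in K, f (S x))) := by
    refine tendsto_integral_bdd (C := ‖f‖)
      (fun j => f.continuous.measurable.comp (M j).meas)
      (fun j => Eventually.of_forall fun x => hb _) ?_
    filter_upwards [hlim] with x hx
    exact (f.continuous.tendsto _).comp hx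
  have T2 : Tendsto (fun j => (volume K).toReal * ∫ y, f (grid (mesh j) y) ∂μ) atTop
      (𝓝 ((volume K).toReal * ∫ y, f y ∂μ)) := by
    refine Tendsto.const_mul _ (tendsto_integral_bdd (C := ‖f‖)
      (fun j => f.continuous.measurable.comp (measurable_grid _))
      (fun j => Eventually.of_forall fun x => hb _) (Eventually.of_forall fun y => ?_))
    exact (f.continuous.tendsto _).comp (tendsto_grid y)
  have e : ∀ j, ∫ x in K, f ((M j).T x) = (volume K).toReal * ∫ y, f (grid (mesh j) y) ∂μ :=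
    fun j => (M j).integral_T hK (measurable_grid _) f
  simp_rw [e] at T1
  exact tendsto_nhds_unique T1 T2

end models

end Vale.Agent.Lib.P074

end

section

open MeasureTheory Set Filter Topology Function
open scoped ENNReal

namespace Vale.Agent.Lib.P074

variable {n : ℕ}

lemma abs_dot_le_of_bound {d : ℕ} {x u : Vec d} {R L : ℝ} (hx : ∀ k, |x k| ≤ R)
    (hu : ∀ k, |u k| ≤ L) : |x ⬝ᵥ u| ≤ d * (R * L) := by
  have h1 : |x ⬝ᵥ u| ≤ ∑ k, |x k * u k| := Finset.abs_sum_le_sum_abs _ _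
  have h2 : ∀ k ∈ (Finset.univ : Finset (Fin d)), |x k * u k| ≤ R * L := by
    intro k _
    rw [abs_mul]
    exact mul_le_mul (hx k) (hu k) (abs_nonneg _) ((abs_nonneg _).trans (hx k))
  calc _ ≤ _ := h1
    _ ≤ ∑ _k : Fin d, R * L := Finset.sum_le_sum h2
    _ = _ := by simp

/-- Optimal transport maps, in coordinates. -/
def IsOTV (K : Set (Vec (n + 1))) (μ : Measure (Vec (n + 1)))
    (T : Vec (n + 1) → Vec (n + 1)) : Prop :=
  Measurable T ∧ (volume.restrict K).map T = volume K • μ ∧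
    ∀ S : Vec (n + 1) → Vec (n + 1), Measurable S →
      (volume.restrict K).map S = volume K • μ →
      ∫⁻ x in K, ENNReal.ofReal ((x - T x) ⬝ᵥ (x - T x)) ≤
        ∫⁻ x in K, ENNReal.ofReal ((x - S x) ⬝ᵥ (x - S x))

section

variable {K : Set (Vec (n + 1))} {μ ν : Measure (Vec (n + 1))} {L Ry R : ℝ}
  {U : Vec (n + 1) → Vec (n + 1)}

lemma push_ae (hKi : (interior K).Nonempty) (hU : Measurable U)
    (hmap : (volume.restrict K).map U = volume K • μ) {p : Vec (n + 1) → Prop}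
    (hp : ∀ᵐ y ∂μ, p y) : ∀ᵐ x ∂(volume.restrict K), p (U x) := by
  have h1 : ∀ᵐ y ∂((volume.restrict K).map U), p y := by
    rw [hmap, ae_iff, Measure.smul_apply, smul_eq_mul, ae_iff.1 hp, mul_zero]
  exact ae_of_ae_map hU.aemeasurable h1

lemma integrableOn_dot (hK : IsCompact K) (hR : ∀ x ∈ K, ∀ k, |x k| ≤ R) (hU : Measurable U)
    (hb : ∀ᵐ x ∂(volume.restrict K), ∀ k, |U x k| ≤ L) :
    IntegrableOn (fun x => x ⬝ᵥ U x) K := by
  haveI := Model.finRestrict (K := K) hK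
  refine Integrable.of_bound (C := ((n + 1 : ℕ) : ℝ) * (R * L))
    (measurable_dot measurable_id hU).aestronglyMeasurable ?_
  filter_upwards [hb, ae_restrict_mem hK.measurableSet] with x h1 h2
  rw [Real.norm_eq_abs]
  exact abs_dot_le_of_bound (hR x h2) h1

lemma cost_formula (hK : IsCompact K) (hKi : (interior K).Nonempty)
    (hR : ∀ x ∈ K, ∀ k, |x k| ≤ R) (hU : Measurable U)
    (hmap : (volume.restrict K).map U = volume K • μ)
    (hbox : ∀ᵐ y ∂μ, ∀ k, |y k| ≤ Ry) :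
    ∫ x in K, (x - U x) ⬝ᵥ (x - U x) =
      (∫ x in K, x ⬝ᵥ x) - 2 * (∫ x in K, x ⬝ᵥ U x) + (volume K).toReal * ∫ y, y ⬝ᵥ y ∂μ ∧
    ∫⁻ x in K, ENNReal.ofReal ((x - U x) ⬝ᵥ (x - U x)) =
      ENNReal.ofReal (∫ x in K, (x - U x) ⬝ᵥ (x - U x)) := by
  haveI := Model.finRestrict (K := K) hK
  have hb := push_ae hKi hU hmap hbox
  have i₁ : IntegrableOn (fun x : Vec (n + 1) => x ⬝ᵥ x) K :=
    continuous_dot_self.continuousOn.integrableOn_compact hK
  have i₂ := integrableOn_dot hK hR hU hb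
  have hum : Measurable fun x => U x ⬝ᵥ U x := measurable_dot hU hU
  have i₃ : IntegrableOn (fun x => U x ⬝ᵥ U x) K := by
    refine Integrable.of_bound (C := ((n + 1 : ℕ) : ℝ) * (Ry * Ry)) hum.aestronglyMeasurable ?_
    filter_upwards [hb] with x h1
    rw [Real.norm_eq_abs]
    exact abs_dot_le_of_bound h1 h1
  have hpt : ∀ x, (x - U x) ⬝ᵥ (x - U x) = x ⬝ᵥ x - 2 * (x ⬝ᵥ U x) + U x ⬝ᵥ U x := by
    intro x
    simp only [sub_dotProduct, dotProduct_sub, dotProduct_comm (U x) x]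
    ring
  have i₄ : IntegrableOn (fun x => (x - U x) ⬝ᵥ (x - U x)) K := by
    simp_rw [hpt]
    exact (i₁.sub (i₂.const_mul 2)).add i₃
  constructor
  · simp_rw [hpt]
    have e₀ : ∫ x in K, (x ⬝ᵥ x - 2 * (x ⬝ᵥ U x) + U x ⬝ᵥ U x) =
        (∫ x in K, (x ⬝ᵥ x - 2 * (x ⬝ᵥ U x))) + ∫ x in K, U x ⬝ᵥ U x :=
      integral_add (i₁.sub (i₂.const_mul 2)) i₃
    have e₁ : ∫ x in K, (x ⬝ᵥ x - 2 * (x ⬝ᵥ U x)) =
        (∫ x in K, x ⬝ᵥ x) - ∫ x in K, 2 * (x ⬝ᵥ U x) :=
      integral_sub i₁ (i₂.const_mul 2)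
    rw [e₀, e₁, integral_const_mul]
    congr 1
    have e : ∫ x in K, U x ⬝ᵥ U x = ∫ y, y ⬝ᵥ y ∂((volume.restrict K).map U) := by
      rw [integral_map hU.aemeasurable continuous_dot_self.measurable.aestronglyMeasurable]
    rw [e, hmap, integral_smul_measure, smul_eq_mul]
  · exact (ofReal_integral_eq_lintegral_ofReal i₄
      (Eventually.of_forall fun x => dot_self_nonneg _)).symm

lemma ot_inner_le (hK : IsCompact K) (hKi : (interior K).Nonempty)
    (hR : ∀ x ∈ K, ∀ k, |x k| ≤ R) (hbox : ∀ᵐ y ∂μ, ∀ k, |y k| ≤ Ry) {T S : Vec (n + 1) → Vec (n + 1)}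
    (hT : IsOTV K μ T) (hS : Measurable S) (hSmap : (volume.restrict K).map S = volume K • μ) :
    ∫ x in K, x ⬝ᵥ S x ≤ ∫ x in K, x ⬝ᵥ T x := by
  obtain ⟨hTm, hTmap, hmin⟩ := hT
  have h1 := hmin S hS hSmap
  obtain ⟨f1, l1⟩ := cost_formula hK hKi hR hTm hTmap hbox
  obtain ⟨f2, l2⟩ := cost_formula hK hKi hR hS hSmap hbox
  rw [l1, l2] at h1
  have h0 : 0 ≤ ∫ x in K, (x - S x) ⬝ᵥ (x - S x) :=
    setIntegral_nonneg hK.measurableSet fun x _ => dot_self_nonneg _
  have h2 := (ENNReal.ofReal_le_ofReal_iff h0).1 h1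
  rw [f1, f2] at h2
  linarith

namespace Model

variable {P : Vec (n + 1) → Vec (n + 1)}

/-- The function that reads the weights. -/
noncomputable def wt (M : Model K μ P L) (p : Vec (n + 1)) : ℝ :=
  ∑ i : M.F, ({(i : Vec (n + 1))} : Set (Vec (n + 1))).indicator (fun _ => M.h i) p

lemma measurable_wt (M : Model K μ P L) : Measurable M.wt :=
  Finset.measurable_sum _ fun i _ => measurable_const.indicator (measurableSet_singleton _)

lemma wt_coe (M : Model K μ P L) (i : M.F) : M.wt i = M.h i := by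
  unfold wt
  rw [Finset.sum_eq_single i]
  · simp
  · intro j _ hj
    have : (i : Vec (n + 1)) ∉ ({(j : Vec (n + 1))} : Set (Vec (n + 1))) := fun h =>
      hj (Subtype.ext h.symm)
    simp [this]
  · simp

/-- The comparison of a model with the discretization of a competitor. -/
theorem exists_near (M : Model K μ P L) (hK : IsCompact K) (hKc : Convex ℝ K)
    (hKi : (interior K).Nonempty) [IsProbabilityMeasure μ] (hP : Measurable P)
    (hR : ∀ x ∈ K, ∀ k, |x k| ≤ R) {T₁ : Vec (n + 1) → Vec (n + 1)} (hT₁ : Measurable T₁)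
    (hmap : (volume.restrict K).map T₁ = volume K • μ) :
    ∃ T₂ : Vec (n + 1) → Vec (n + 1), Measurable T₂ ∧
      (∀ᵐ x ∂(volume.restrict K), T₂ x = P (T₁ x)) ∧ (∀ x k, |T₂ x k| ≤ L) ∧
      (∫ x in K, x ⬝ᵥ T₂ x) ≤ (∫ x in K, x ⬝ᵥ M.T x) ∧
      ∀ η : ℝ, 0 < η → ∀ k, ∫ x in K, (T₂ x k - M.T x k) ^ 2 ≤
        2 * L * (((∫ x in K, x ⬝ᵥ M.T x) - ∫ x in K, x ⬝ᵥ T₂ x) / η +
          4 * η * L * (volume (Metric.closedBall (0 : Vec n) (max R 0))).toReal) := by
  classical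
  haveI := finRestrict (K := K) hK
  obtain ⟨⟨p₀, hp₀⟩⟩ := M.hne
  set W : Vec (n + 1) → Vec (n + 1) := fun y => if y ∈ M.F then y else p₀ with hW
  have hWm : Measurable W :=
    Measurable.ite M.F.finite_toSet.measurableSet measurable_id measurable_const
  have hWmem : ∀ y, W y ∈ M.F := by
    intro y
    simp only [hW]
    split_ifs with h
    · exact h
    · exact hp₀
  set T₂ : Vec (n + 1) → Vec (n + 1) := fun x => W (P (T₁ x)) with hT₂
  have hT₂m : Measurable T₂ := hWm.comp (hP.comp hT₁)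
  have hT₂mem : ∀ x, T₂ x ∈ M.F := fun x => hWmem _
  have hT₂b : ∀ x k, |T₂ x k| ≤ L := fun x k => M.bound _ (hT₂mem x) k
  have hae : ∀ᵐ x ∂(volume.restrict K), T₂ x = P (T₁ x) := by
    have h1 := push_ae hKi hT₁ hmap M.full
    filter_upwards [h1] with x hx
    simp only [hT₂, hW, hx, if_true]
  have hKm := hK.measurableSet
  suffices hmain : (∫ x in K, x ⬝ᵥ T₂ x) ≤ (∫ x in K, x ⬝ᵥ M.T x) ∧
      ∀ η : ℝ, 0 < η → ∀ k, ∫ x in K, (T₂ x k - M.T x k) ^ 2 ≤
        2 * L * (((∫ x in K, x ⬝ᵥ M.T x) - ∫ x in K, x ⬝ᵥ T₂ x) / η +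
          4 * η * L * (volume (Metric.closedBall (0 : Vec n) (max R 0))).toReal) from
    ⟨T₂, hT₂m, hae, hT₂b, hmain⟩
  set φ := pot (Subtype.val : M.F → Vec (n + 1)) M.h with hφ
  have hφc : Continuous φ := continuous_pot _ _
  have hpot : ∀ x, φ x = x ⬝ᵥ M.T x - M.wt (M.T x) := by
    intro x
    obtain ⟨i, hi, hpi⟩ := M.sel x
    rw [hφ, hpi, hi, wt_coe]
    rfl
  have haff : ∀ x z, z ⬝ᵥ T₂ x - M.wt (T₂ x) ≤ φ z := by
    intro x z
    have h1 := aff_le_pot (Subtype.val : M.F → Vec (n + 1)) M.h ⟨T₂ x, hT₂mem x⟩ z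
    have h2 := M.wt_coe ⟨T₂ x, hT₂mem x⟩
    simp only at h2
    rw [h2]
    exact h1
  set e : Vec (n + 1) → ℝ := fun x => φ x - (x ⬝ᵥ T₂ x - M.wt (T₂ x)) with he
  have he0 : ∀ x, 0 ≤ e x := fun x => sub_nonneg.2 (haff x x)
  have he1 : ∀ x z, φ x + (z - x) ⬝ᵥ T₂ x - e x ≤ φ z := by
    intro x z
    have h1 := haff x z
    simp only [he, sub_dotProduct]
    linarith
  have iφ : IntegrableOn φ K := hφc.continuousOn.integrableOn_compact hK
  have i₁ : IntegrableOn (fun x => x ⬝ᵥ T₂ x) K :=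
    integrableOn_dot hK hR hT₂m (Eventually.of_forall fun x k => hT₂b x k)
  have i₂ : IntegrableOn (fun x => x ⬝ᵥ M.T x) K :=
    integrableOn_dot hK hR M.meas (Eventually.of_forall fun x k => M.T_bound x k)
  -- the weights are bounded
  obtain ⟨Cw, hCw⟩ : ∃ C, ∀ p ∈ M.F, |M.wt p| ≤ C := by
    refine ⟨∑ p ∈ M.F, |M.wt p|, fun p hp => ?_⟩
    exact Finset.single_le_sum (f := fun p => |M.wt p|) (fun _ _ => abs_nonneg _) hp
  have i₃ : IntegrableOn (fun x => M.wt (T₂ x)) K :=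
    Integrable.of_bound (C := Cw) (M.measurable_wt.comp hT₂m).aestronglyMeasurable
      (Eventually.of_forall fun x => by simpa using hCw _ (hT₂mem x))
  have i₄ : IntegrableOn (fun x => M.wt (M.T x)) K :=
    Integrable.of_bound (C := Cw) (M.measurable_wt.comp M.meas).aestronglyMeasurable
      (Eventually.of_forall fun x => by simpa using hCw _ (M.T_mem x))
  have hei : IntegrableOn e K := iφ.sub (i₁.sub i₃)
  -- integrals of the weights agree
  have hwt : ∫ x in K, M.wt (M.T x) = ∫ x in K, M.wt (T₂ x) := by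
    have e0 : ∫ x in K, M.wt (T₂ x) = ∫ x in K, M.wt (P (T₁ x)) :=
      integral_congr_ae (hae.mono fun x hx => by simp only [hx])
    have e1 : ∫ x in K, M.wt (P (T₁ x)) = ∫ y, M.wt (P y) ∂((volume.restrict K).map T₁) :=
      (integral_map hT₁.aemeasurable (M.measurable_wt.comp hP).aestronglyMeasurable).symm
    rw [M.integral_T hK hP, e0, e1, hmap, integral_smul_measure, smul_eq_mul]
  have hint : ∫ x in K, e x = (∫ x in K, x ⬝ᵥ M.T x) - ∫ x in K, x ⬝ᵥ T₂ x := by
    simp only [he]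
    have e₀ : ∫ x in K, (φ x - (x ⬝ᵥ T₂ x - M.wt (T₂ x))) =
        (∫ x in K, φ x) - ∫ x in K, (x ⬝ᵥ T₂ x - M.wt (T₂ x)) := integral_sub iφ (i₁.sub i₃)
    have e₁ : ∫ x in K, (x ⬝ᵥ T₂ x - M.wt (T₂ x)) =
        (∫ x in K, x ⬝ᵥ T₂ x) - ∫ x in K, M.wt (T₂ x) := integral_sub i₁ i₃
    have e₂ : ∫ x in K, φ x = (∫ x in K, x ⬝ᵥ M.T x) - ∫ x in K, M.wt (M.T x) := by
      simp_rw [hpot]
      exact integral_sub i₂ i₄
    rw [e₀, e₁, e₂, hwt]
    ring
  refine ⟨?_, fun η hη k => ?_⟩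
  · have h0 : 0 ≤ ∫ x in K, e x := setIntegral_nonneg hKm fun x _ => he0 x
    rw [hint] at h0
    linarith
  have hkp : ∀ t x, ins k t x ∈ K → x ∈ Metric.closedBall (0 : Vec n) (max R 0) := by
    intro t x hx
    rw [mem_closedBall_zero_iff]
    refine (pi_norm_le_iff_of_nonneg (le_max_right _ _)).2 fun j => ?_
    have := hR _ hx (k.succAbove j)
    simp only [ins_succAbove] at this
    rw [Real.norm_eq_abs]
    exact this.trans (le_max_left _ _)
  have := near_opt hK hKc M.isSubgrad hT₂m hT₂b he0 hei he1 hη k measurableSet_closedBall hkp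
    measure_closedBall_lt_top
  rwa [hint] at this

end Model

/-- Optimal maps are limits of the finite models. -/
theorem ot_eq_limit (hK : IsCompact K) (hKc : Convex ℝ K) (hKi : (interior K).Nonempty)
    [IsProbabilityMeasure μ] (hR : ∀ x ∈ K, ∀ k, |x k| ≤ R)
    (hbox : ∀ᵐ y ∂μ, ∀ k, |y k| ≤ Ry)
    (M : ∀ j, Model K μ (grid (mesh j)) L) {S : Vec (n + 1) → Vec (n + 1)} (hS : Measurable S)
    (hlim : ∀ᵐ x ∂(volume.restrict K), Tendsto (fun j => (M j).T x) atTop (𝓝 (S x)))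
    {T₁ : Vec (n + 1) → Vec (n + 1)} (hT₁ : IsOTV K μ T₁) :
    ∀ᵐ x ∂(volume.restrict K), T₁ x = S x := by
  haveI := Model.finRestrict (K := K) hK
  have hKm := hK.measurableSet
  have hSmap := map_limit hK M hS hlim
  have hle := ot_inner_le hK hKi hR hbox hT₁ hS hSmap
  obtain ⟨hT₁m, hT₁map, -⟩ := hT₁
  choose T₂ hT₂m hT₂ae hT₂b _ hT₂near using fun j =>
    (M j).exists_near hK hKc hKi (measurable_grid _) hR hT₁m hT₁map
  have hae : ∀ᵐ x ∂(volume.restrict K), ∀ j, T₂ j x = grid (mesh j) (T₁ x) :=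
    ae_all_iff.2 hT₂ae
  have hT₂lim : ∀ᵐ x ∂(volume.restrict K), Tendsto (fun j => T₂ j x) atTop (𝓝 (T₁ x)) := by
    filter_upwards [hae] with x hx
    simp_rw [hx]
    exact tendsto_grid _
  set V := (volume (Metric.closedBall (0 : Vec n) (max R 0))).toReal with hV
  have hV0 : 0 ≤ V := ENNReal.toReal_nonneg
  have hbT₁ := push_ae hKi hT₁m hT₁map hbox
  have hbS := push_ae hKi hS hSmap hbox
  -- inner products converge
  have hin : ∀ {G : ℕ → Vec (n + 1) → Vec (n + 1)} {G' : Vec (n + 1) → Vec (n + 1)},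
      (∀ j, Measurable (G j)) → (∀ j x k, |G j x k| ≤ L) →
      (∀ᵐ x ∂(volume.restrict K), Tendsto (fun j => G j x) atTop (𝓝 (G' x))) →
      Tendsto (fun j => ∫ x in K, x ⬝ᵥ G j x) atTop (𝓝 (∫ x in K, x ⬝ᵥ G' x)) := by
    intro G G' hGm hGb hGl
    refine tendsto_integral_bdd (C := ((n + 1 : ℕ) : ℝ) * (R * L))
      (fun j => measurable_dot measurable_id (hGm j)) (fun j => ?_) ?_
    · filter_upwards [ae_restrict_mem hKm] with x hx
      exact abs_dot_le_of_bound (hR x hx) (hGb j x)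
    · filter_upwards [hGl] with x hx
      exact (continuous_dot_pair.tendsto (x, G' x)).comp (tendsto_const_nhds.prodMk_nhds hx)
  have h1 := hin (fun j => (M j).meas) (fun j x k => (M j).T_bound x k) hlim
  have h2 := hin hT₂m hT₂b hT₂lim
  have hcoord : ∀ k, ∫ x in K, (T₁ x k - S x k) ^ 2 = 0 := by
    intro k
    have hL0 : 0 ≤ L := by
      obtain ⟨⟨p, hp⟩⟩ := (M 0).hne
      exact (abs_nonneg _).trans ((M 0).bound p hp 0)
    have hX : ∀ η : ℝ, 0 < η → ∫ x in K, (T₁ x k - S x k) ^ 2 ≤ 2 * L * (4 * η * L * V) := by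
      intro η hη
      have hlhs : Tendsto (fun j => ∫ x in K, (T₂ j x k - (M j).T x k) ^ 2) atTop
          (𝓝 (∫ x in K, (T₁ x k - S x k) ^ 2)) := by
        refine tendsto_integral_bdd (C := (2 * L) ^ 2) (fun j => ?_) (fun j => ?_) ?_
        · exact (((measurable_pi_apply k).comp (hT₂m j)).sub
            ((measurable_pi_apply k).comp (M j).meas)).pow_const 2
        · refine Eventually.of_forall fun x => ?_
          rw [abs_pow]
          refine pow_le_pow_left₀ (abs_nonneg _) ?_ 2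
          have a1 := abs_le.1 (hT₂b j x k)
          have a2 := abs_le.1 ((M j).T_bound x k)
          rw [abs_le]
          constructor <;> linarith
        · filter_upwards [hT₂lim, hlim] with x hx1 hx2
          have b1 := (tendsto_pi_nhds.1 hx1) k
          have b2 := (tendsto_pi_nhds.1 hx2) k
          exact (b1.sub b2).pow 2
      have hrhs : Tendsto (fun j => 2 * L * (((∫ x in K, x ⬝ᵥ (M j).T x) - ∫ x in K, x ⬝ᵥ T₂ j x) / η +
          4 * η * L * V)) atTop
          (𝓝 (2 * L * (((∫ x in K, x ⬝ᵥ S x) - ∫ x in K, x ⬝ᵥ T₁ x) / η + 4 * η * L * V))) :=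
        (((h1.sub h2).div_const η).add_const _).const_mul _
      have hle2 := le_of_tendsto_of_tendsto' hlhs hrhs (fun j => hT₂near j η hη k)
      refine hle2.trans ?_
      refine mul_le_mul_of_nonneg_left ?_ (by positivity)
      have : ((∫ x in K, x ⬝ᵥ S x) - ∫ x in K, x ⬝ᵥ T₁ x) / η ≤ 0 :=
        div_nonpos_of_nonpos_of_nonneg (by linarith) hη.le
      linarith
    have h0 : 0 ≤ ∫ x in K, (T₁ x k - S x k) ^ 2 :=
      setIntegral_nonneg hKm fun x _ => sq_nonneg _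
    refine le_antisymm ?_ h0
    by_contra hcon
    have hpos := not_le.1 hcon
    set X := ∫ x in K, (T₁ x k - S x k) ^ 2 with hXdef
    set c := 8 * L ^ 2 * V with hc
    have hc0 : 0 ≤ c := by positivity
    have := hX (X / (2 * (c + 1))) (by positivity)
    have e : 2 * L * (4 * (X / (2 * (c + 1))) * L * V) = c * (X / (2 * (c + 1))) := by
      rw [hc]
      ring
    rw [e] at this
    have h3 : c * (X / (2 * (c + 1))) ≤ X / 2 := by
      have : c * (X / (2 * (c + 1))) = X / 2 * (c / (c + 1)) := by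
        field_simp
      rw [this]
      have h4 : c / (c + 1) ≤ 1 := by
        rw [div_le_one (by positivity)]
        linarith
      nlinarith
    linarith
  have hae2 : ∀ k, ∀ᵐ x ∂(volume.restrict K), T₁ x k = S x k := by
    intro k
    have hint : Integrable (fun x => (T₁ x k - S x k) ^ 2) (volume.restrict K) := by
      refine Integrable.of_bound (C := (2 * Ry) ^ 2)
        ((((measurable_pi_apply k).comp hT₁m).sub
          ((measurable_pi_apply k).comp hS)).pow_const 2).aestronglyMeasurable ?_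
      filter_upwards [hbT₁, hbS] with x a1 a2
      rw [Real.norm_eq_abs, abs_pow]
      refine pow_le_pow_left₀ (abs_nonneg _) ?_ 2
      have a3 := abs_le.1 (a1 k)
      have a4 := abs_le.1 (a2 k)
      rw [abs_le]
      constructor <;> linarith
    have h5 := (integral_eq_zero_iff_of_nonneg (fun x => sq_nonneg _) hint).1 (hcoord k)
    filter_upwards [h5] with x hx
    have : (T₁ x k - S x k) ^ 2 = 0 := hx
    have := pow_eq_zero_iff (two_ne_zero) |>.1 this
    linarith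
  filter_upwards [ae_all_iff.2 hae2] with x hx
  exact funext hx

/-- Limits of finite models are optimal. -/
theorem limit_isOTV (hK : IsCompact K) (hKc : Convex ℝ K) (hKi : (interior K).Nonempty)
    [IsProbabilityMeasure μ] (hR : ∀ x ∈ K, ∀ k, |x k| ≤ R)
    (hbox : ∀ᵐ y ∂μ, ∀ k, |y k| ≤ Ry)
    (M : ∀ j, Model K μ (grid (mesh j)) L) {S : Vec (n + 1) → Vec (n + 1)} (hS : Measurable S)
    (hlim : ∀ᵐ x ∂(volume.restrict K), Tendsto (fun j => (M j).T x) atTop (𝓝 (S x))) :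
    IsOTV K μ S := by
  haveI := Model.finRestrict (K := K) hK
  have hKm := hK.measurableSet
  have hSmap := map_limit hK M hS hlim
  refine ⟨hS, hSmap, fun U hU hUmap => ?_⟩
  choose T₂ hT₂m hT₂ae hT₂b hT₂le _ using fun j =>
    (M j).exists_near hK hKc hKi (measurable_grid _) hR hU hUmap
  have hae : ∀ᵐ x ∂(volume.restrict K), ∀ j, T₂ j x = grid (mesh j) (U x) :=
    ae_all_iff.2 hT₂ae
  have hT₂lim : ∀ᵐ x ∂(volume.restrict K), Tendsto (fun j => T₂ j x) atTop (𝓝 (U x)) := by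
    filter_upwards [hae] with x hx
    simp_rw [hx]
    exact tendsto_grid _
  have hin : ∀ {G : ℕ → Vec (n + 1) → Vec (n + 1)} {G' : Vec (n + 1) → Vec (n + 1)},
      (∀ j, Measurable (G j)) → (∀ j x k, |G j x k| ≤ L) →
      (∀ᵐ x ∂(volume.restrict K), Tendsto (fun j => G j x) atTop (𝓝 (G' x))) →
      Tendsto (fun j => ∫ x in K, x ⬝ᵥ G j x) atTop (𝓝 (∫ x in K, x ⬝ᵥ G' x)) := by
    intro G G' hGm hGb hGl
    refine tendsto_integral_bdd (C := ((n + 1 : ℕ) : ℝ) * (R * L))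
      (fun j => measurable_dot measurable_id (hGm j)) (fun j => ?_) ?_
    · filter_upwards [ae_restrict_mem hKm] with x hx
      exact abs_dot_le_of_bound (hR x hx) (hGb j x)
    · filter_upwards [hGl] with x hx
      exact (continuous_dot_pair.tendsto (x, G' x)).comp (tendsto_const_nhds.prodMk_nhds hx)
  have h1 := hin (fun j => (M j).meas) (fun j x k => (M j).T_bound x k) hlim
  have h2 := hin hT₂m hT₂b hT₂lim
  have hle := le_of_tendsto_of_tendsto' h2 h1 hT₂le
  obtain ⟨f1, l1⟩ := cost_formula hK hKi hR hS hSmap hbox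
  obtain ⟨f2, l2⟩ := cost_formula hK hKi hR hU hUmap hbox
  rw [l1, l2]
  apply ENNReal.ofReal_le_ofReal
  rw [f1, f2]
  linarith

/-- The stability theorem in coordinates. -/
theorem main_vec (hK : IsCompact K) (hKc : Convex ℝ K) (hKi : (interior K).Nonempty)
    (hR : ∀ x ∈ K, ∀ k, |x k| ≤ R) [IsProbabilityMeasure μ] [IsProbabilityMeasure ν]
    (hμ : ∀ᵐ y ∂μ, ∀ k, |y k| ≤ Ry) (hν : ∀ᵐ y ∂ν, ∀ k, |y k| ≤ Ry)
    {T₁ T₂ : Vec (n + 1) → Vec (n + 1)} (hT₁ : IsOTV K μ T₁) (hT₂ : IsOTV K ν T₂)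
    {γ : Measure (Vec (n + 1) × Vec (n + 1))} [IsProbabilityMeasure γ]
    (hγ1 : γ.map Prod.fst = μ) (hγ2 : γ.map Prod.snd = ν) :
    (∫ x in K, (T₁ x - T₂ x) ⬝ᵥ (T₁ x - T₂ x)) ^ 3 ≤
      Cfin n R (Ry + 1) * ((volume K).toReal * (2 * ∫ p, (p.2 - p.1) ⬝ᵥ (p.2 - p.1) ∂γ)) := by
  haveI := Model.finRestrict (K := K) hK
  have hM : ∀ j, Nonempty (Model K μ (grid (mesh j)) (Ry + 1)) := exists_models hK hKi hμ
  have hN : ∀ j, Nonempty (Model K ν (grid (mesh j)) (Ry + 1)) := exists_models hK hKi hν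
  let M : ∀ j, Model K μ (grid (mesh j)) (Ry + 1) := fun j => Classical.choice (hM j)
  let N : ∀ j, Model K ν (grid (mesh j)) (Ry + 1) := fun j => Classical.choice (hN j)
  obtain ⟨S₁, hS₁, hl₁⟩ := exists_limit hK hKc hKi hR hμ M
  obtain ⟨S₂, hS₂, hl₂⟩ := exists_limit hK hKc hKi hR hν N
  have he₁ := ot_eq_limit hK hKc hKi hR hμ M hS₁ hl₁ hT₁
  have he₂ := ot_eq_limit hK hKc hKi hR hν N hS₂ hl₂ hT₂
  have hb1 : ∀ᵐ p ∂γ, ∀ k, |p.1 k| ≤ Ry := by
    have h1 : ∀ᵐ y ∂(γ.map Prod.fst), ∀ k, |y k| ≤ Ry := by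
      rw [hγ1]
      exact hμ
    exact ae_of_ae_map measurable_fst.aemeasurable h1
  have hb2 : ∀ᵐ p ∂γ, ∀ k, |p.2 k| ≤ Ry := by
    have h1 : ∀ᵐ y ∂(γ.map Prod.snd), ∀ k, |y k| ≤ Ry := by
      rw [hγ2]
      exact hν
    exact ae_of_ae_map measurable_snd.aemeasurable h1
  have hint := integrable_cost hb1 hb2
  have hstep : ∀ j, (∫ x in K, ((M j).T x - (N j).T x) ⬝ᵥ ((M j).T x - (N j).T x)) ^ 3 ≤
      Cfin n R (Ry + 1) * ((volume K).toReal * (2 * (∫ p, (p.2 - p.1) ⬝ᵥ (p.2 - p.1) ∂γ) +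
        2 * (((n : ℝ) + 1) * (mesh j + mesh j) ^ 2))) := fun j =>
    Model.stability' hK hKc hKi (measurable_grid _) (measurable_grid _) (M j) (N j) hγ1 hγ2 hR
      (fun y k => grid_sub_le (mesh_pos j) y k) (fun y k => grid_sub_le (mesh_pos j) y k) hint
  have hlhs : Tendsto (fun j => ∫ x in K, ((M j).T x - (N j).T x) ⬝ᵥ ((M j).T x - (N j).T x)) atTop
      (𝓝 (∫ x in K, (T₁ x - T₂ x) ⬝ᵥ (T₁ x - T₂ x))) := by
    refine tendsto_integral_bdd (C := ((n + 1 : ℕ) : ℝ) * (2 * (Ry + 1)) ^ 2)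
      (fun j => measurable_dot_diff (M j).meas (N j).meas) (fun j => ?_) ?_
    · refine Eventually.of_forall fun x => ?_
      rw [abs_of_nonneg (dot_self_nonneg _)]
      exact dot_diff_bound ((M j).T_bound x) ((N j).T_bound x)
    · filter_upwards [hl₁, hl₂, he₁, he₂] with x a1 a2 a3 a4
      rw [a3, a4]
      exact (continuous_dot_self.tendsto _).comp (a1.sub a2)
  have hrhs : Tendsto (fun j => Cfin n R (Ry + 1) * ((volume K).toReal *
      (2 * (∫ p, (p.2 - p.1) ⬝ᵥ (p.2 - p.1) ∂γ) +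
        2 * (((n : ℝ) + 1) * (mesh j + mesh j) ^ 2)))) atTop
      (𝓝 (Cfin n R (Ry + 1) * ((volume K).toReal *
        (2 * (∫ p, (p.2 - p.1) ⬝ᵥ (p.2 - p.1) ∂γ) +
          2 * (((n : ℝ) + 1) * (0 + 0) ^ 2))))) := by
    refine Tendsto.const_mul _ (Tendsto.const_mul _ (Tendsto.const_add _ (Tendsto.const_mul _
      (Tendsto.const_mul _ ((tendsto_mesh.add tendsto_mesh).pow 2)))))
  have hfinal := le_of_tendsto_of_tendsto' (hlhs.pow 3) hrhs hstep
  refine hfinal.trans (le_of_eq ?_)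
  simp

end

end Vale.Agent.Lib.P074

end

section

open MeasureTheory Set Filter Topology Function
open scoped ENNReal NNReal

namespace Vale.Agent.Lib.P074

section coords

variable {d : ℕ}

/-- Coordinates of a Euclidean vector. -/
def ofE (x : Eu d) : Vec d := WithLp.ofLp x

/-- The Euclidean vector with given coordinates. -/
def toE (y : Vec d) : Eu d := WithLp.toLp 2 y

@[simp] lemma ofE_toE (y : Vec d) : ofE (toE y) = y := rfl

@[simp] lemma toE_ofE (x : Eu d) : toE (ofE x) = x := rfl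

lemma measurable_ofE : Measurable (ofE (d := d)) :=
  (MeasurableEquiv.toLp 2 (Fin d → ℝ)).symm.measurable

lemma measurable_toE : Measurable (toE (d := d)) :=
  (MeasurableEquiv.toLp 2 (Fin d → ℝ)).measurable

lemma mp_ofE : MeasurePreserving (ofE (d := d)) := PiLp.volume_preserving_ofLp (Fin d)

lemma continuous_ofE : Continuous (ofE (d := d)) := by
  unfold ofE
  fun_prop

lemma continuous_toE : Continuous (toE (d := d)) := by
  unfold toE
  fun_prop

lemma enorm_sq_eq_dot (u v : Eu d) :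
    ‖u - v‖ₑ ^ 2 = ENNReal.ofReal ((ofE u - ofE v) ⬝ᵥ (ofE u - ofE v)) := by
  rw [← ofReal_norm_eq_enorm, ← ENNReal.ofReal_pow (norm_nonneg _),
    EuclideanSpace.real_norm_sq_eq]
  congr 1
  refine Finset.sum_congr rfl fun k _ => ?_
  simp [ofE, sq]

/-- The image of a set in coordinates. -/
def imK (K : Set (Eu d)) : Set (Vec d) := ofE '' K

lemma preimage_imK (K : Set (Eu d)) : ofE ⁻¹' imK K = K :=
  preimage_image_eq _ (fun x y h => by
    have := congrArg toE h
    simpa using this)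

lemma isCompact_imK {K : Set (Eu d)} (hK : IsCompact K) : IsCompact (imK K) :=
  hK.image continuous_ofE

lemma convex_imK {K : Set (Eu d)} (hK : Convex ℝ K) : Convex ℝ (imK K) := by
  rintro _ ⟨x, hx, rfl⟩ _ ⟨z, hz, rfl⟩ a b ha hb hab
  refine ⟨a • x + b • z, hK hx hz ha hb hab, ?_⟩
  simp [ofE]

lemma interior_imK {K : Set (Eu d)} (hK : (interior K).Nonempty) :
    (interior (imK K)).Nonempty := by
  obtain ⟨x, hx⟩ := hK
  refine ⟨ofE x, ?_⟩
  have h1 : IsOpen (toE ⁻¹' interior K) := isOpen_interior.preimage continuous_toE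
  have h2 : toE ⁻¹' interior K ⊆ imK K := fun y hy => ⟨toE y, interior_subset hy, rfl⟩
  exact interior_maximal h2 h1 (by simpa using hx)

lemma map_restrict {K : Set (Eu d)} (hK : IsCompact K) :
    (volume.restrict K).map ofE = volume.restrict (imK K) := by
  have h1 := (mp_ofE (d := d)).restrict_preimage (isCompact_imK hK).measurableSet
  rw [preimage_imK] at h1
  exact h1.map_eq

lemma volume_imK {K : Set (Eu d)} (hK : IsCompact K) : volume (imK K) = volume K := by
  have h1 := (mp_ofE (d := d)).measure_preimage (isCompact_imK hK).measurableSet.nullMeasurableSet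
  rw [preimage_imK] at h1
  exact h1.symm

lemma exists_coord_bound {K : Set (Eu d)} (hK : IsCompact K) :
    ∃ R : ℝ, ∀ x ∈ imK K, ∀ k, |x k| ≤ R := by
  obtain ⟨R, hR⟩ := (isCompact_imK hK).exists_bound_of_continuousOn
    (f := fun x : Vec d => x) continuousOn_id
  refine ⟨R, fun x hx k => ?_⟩
  have h1 := norm_le_pi_norm x k
  rw [Real.norm_eq_abs] at h1
  exact h1.trans (hR x hx)

lemma unif_eq {K : Set (Eu d)} : unif K = (volume K)⁻¹ • volume.restrict K := rfl

lemma restrict_eq_smul_unif {K : Set (Eu d)} (h0 : volume K ≠ 0) (ht : volume K ≠ ⊤) :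
    volume.restrict K = volume K • unif K := by
  rw [unif_eq, smul_smul, ENNReal.mul_inv_cancel h0 ht, one_smul]

end coords

variable {n : ℕ}

lemma volume_ne_zero_of_interior {K : Set (Eu (n + 1))} (hKi : (interior K).Nonempty) :
    volume K ≠ 0 := by
  have h1 : 0 < volume (interior K) := isOpen_interior.measure_pos _ hKi
  exact (lt_of_lt_of_le h1 (measure_mono interior_subset)).ne'

lemma lintegral_imK {K : Set (Eu (n + 1))} (hK : IsCompact K) {F : Vec (n + 1) → ℝ≥0∞}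
    (hF : Measurable F) : ∫⁻ y in imK K, F y = ∫⁻ x in K, F (ofE x) := by
  rw [← map_restrict hK, lintegral_map hF measurable_ofE]

/-- Optimal transport maps in coordinates. -/
lemma isOTV_of_isOTMap {K : Set (Eu (n + 1))} (hK : IsCompact K)
    (hKi : (interior K).Nonempty) {μ : Measure (Eu (n + 1))} {T : Eu (n + 1) → Eu (n + 1)}
    (hT : IsOTMap (unif K) μ T) :
    IsOTV (imK K) (μ.map ofE) (fun y => ofE (T (toE y))) := by
  obtain ⟨hTm, hTmap, hmin⟩ := hT
  have h0 := volume_ne_zero_of_interior hKi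
  have ht : volume K ≠ ⊤ := hK.measure_lt_top.ne
  have hrest := restrict_eq_smul_unif h0 ht
  have hmapK : (volume.restrict K).map T = volume K • μ := by
    rw [hrest, Measure.map_smul, hTmap]
  have hT'm : Measurable fun y => ofE (T (toE y)) := measurable_ofE.comp (hTm.comp measurable_toE)
  refine ⟨hT'm, ?_, ?_⟩
  · rw [← map_restrict hK, Measure.map_map hT'm measurable_ofE, volume_imK hK]
    have e : (fun y => ofE (T (toE y))) ∘ ofE = ofE ∘ T := by
      ext x
      simp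
    rw [e, ← Measure.map_map measurable_ofE hTm, hmapK, Measure.map_smul]
  · intro S' hS' hS'map
    set S : Eu (n + 1) → Eu (n + 1) := fun x => toE (S' (ofE x)) with hS
    have hSm : Measurable S := measurable_toE.comp (hS'.comp measurable_ofE)
    have hmapS : (unif K).map S = μ := by
      have e1 : (volume.restrict K).map S = volume K • μ := by
        have e2 : S = (toE ∘ S') ∘ ofE := rfl
        rw [e2, ← Measure.map_map (measurable_toE.comp hS') measurable_ofE, map_restrict hK,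
          ← Measure.map_map measurable_toE hS', hS'map, Measure.map_smul, volume_imK hK,
          Measure.map_map measurable_toE measurable_ofE]
        have e3 : toE ∘ ofE = (id : Eu (n + 1) → Eu (n + 1)) := by
          ext x
          simp
        rw [e3, Measure.map_id]
      rw [unif_eq, Measure.map_smul, e1, smul_smul, ENNReal.inv_mul_cancel h0 ht, one_smul]
    have hm := hmin S hSm hmapS
    rw [unif_eq, lintegral_smul_measure, lintegral_smul_measure] at hm
    have hm2 : ∫⁻ x in K, ‖x - T x‖ₑ ^ 2 ≤ ∫⁻ x in K, ‖x - S x‖ₑ ^ 2 := by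
      have hi0 : (volume K)⁻¹ ≠ 0 := ENNReal.inv_ne_zero.2 ht
      have hit : (volume K)⁻¹ ≠ ⊤ := ENNReal.inv_ne_top.2 h0
      exact (ENNReal.mul_le_mul_iff_right hi0 hit).1 hm
    have e1 : ∫⁻ y in imK K, ENNReal.ofReal ((y - ofE (T (toE y))) ⬝ᵥ (y - ofE (T (toE y)))) =
        ∫⁻ x in K, ‖x - T x‖ₑ ^ 2 := by
      rw [lintegral_imK hK (F := fun y => ENNReal.ofReal ((y - ofE (T (toE y))) ⬝ᵥ
        (y - ofE (T (toE y))))) (measurable_dot_diff measurable_id hT'm).ennreal_ofReal]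
      refine lintegral_congr fun x => ?_
      rw [enorm_sq_eq_dot]
      simp
    have e2 : ∫⁻ y in imK K, ENNReal.ofReal ((y - S' y) ⬝ᵥ (y - S' y)) =
        ∫⁻ x in K, ‖x - S x‖ₑ ^ 2 := by
      rw [lintegral_imK hK (F := fun y => ENNReal.ofReal ((y - S' y) ⬝ᵥ (y - S' y)))
        (measurable_dot_diff measurable_id hS').ennreal_ofReal]
      refine lintegral_congr fun x => ?_
      rw [enorm_sq_eq_dot]
      simp [hS]
    rw [e1, e2]
    exact hm2

/-- Optimal transport maps from coordinates. -/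
lemma isOTMap_of_isOTV {K : Set (Eu (n + 1))} (hK : IsCompact K)
    (hKi : (interior K).Nonempty) {μ : Measure (Eu (n + 1))} {S : Vec (n + 1) → Vec (n + 1)}
    (hS : IsOTV (imK K) (μ.map ofE) S) :
    IsOTMap (unif K) μ (fun x => toE (S (ofE x))) := by
  obtain ⟨hSm, hSmap, hmin⟩ := hS
  have h0 := volume_ne_zero_of_interior hKi
  have ht : volume K ≠ ⊤ := hK.measure_lt_top.ne
  have hrest := restrict_eq_smul_unif h0 ht
  have hTm : Measurable fun x => toE (S (ofE x)) := measurable_toE.comp (hSm.comp measurable_ofE)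
  have hmapS : ∀ {S' : Vec (n + 1) → Vec (n + 1)}, Measurable S' →
      (volume.restrict (imK K)).map S' = volume (imK K) • μ.map ofE →
      (unif K).map (fun x => toE (S' (ofE x))) = μ := by
    intro S' hS' hS'map
    have e1 : (volume.restrict K).map (fun x => toE (S' (ofE x))) = volume K • μ := by
      have e2 : (fun x => toE (S' (ofE x))) = (toE ∘ S') ∘ ofE := rfl
      rw [e2, ← Measure.map_map (measurable_toE.comp hS') measurable_ofE, map_restrict hK,
        ← Measure.map_map measurable_toE hS', hS'map, Measure.map_smul, volume_imK hK,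
        Measure.map_map measurable_toE measurable_ofE]
      have e3 : toE ∘ ofE = (id : Eu (n + 1) → Eu (n + 1)) := by
        ext x
        simp
      rw [e3, Measure.map_id]
    rw [unif_eq, Measure.map_smul, e1, smul_smul, ENNReal.inv_mul_cancel h0 ht, one_smul]
  refine ⟨hTm, hmapS hSm hSmap, fun U hU hUmap => ?_⟩
  have hmapK : (volume.restrict K).map U = volume K • μ := by
    rw [hrest, Measure.map_smul, hUmap]
  have hU'm : Measurable fun y => ofE (U (toE y)) := measurable_ofE.comp (hU.comp measurable_toE)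
  have hU'map : (volume.restrict (imK K)).map (fun y => ofE (U (toE y))) =
      volume (imK K) • μ.map ofE := by
    rw [← map_restrict hK, Measure.map_map hU'm measurable_ofE, volume_imK hK]
    have e : (fun y => ofE (U (toE y))) ∘ ofE = ofE ∘ U := by
      ext x
      simp
    rw [e, ← Measure.map_map measurable_ofE hU, hmapK, Measure.map_smul]
  have hm := hmin _ hU'm hU'map
  have e1 : ∫⁻ y in imK K, ENNReal.ofReal ((y - S y) ⬝ᵥ (y - S y)) =
      ∫⁻ x in K, ‖x - toE (S (ofE x))‖ₑ ^ 2 := by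
    rw [lintegral_imK hK (F := fun y => ENNReal.ofReal ((y - S y) ⬝ᵥ (y - S y)))
      (measurable_dot_diff measurable_id hSm).ennreal_ofReal]
    refine lintegral_congr fun x => ?_
    rw [enorm_sq_eq_dot]
    simp
  have e2 : ∫⁻ y in imK K, ENNReal.ofReal ((y - ofE (U (toE y))) ⬝ᵥ (y - ofE (U (toE y)))) =
      ∫⁻ x in K, ‖x - U x‖ₑ ^ 2 := by
    rw [lintegral_imK hK (F := fun y => ENNReal.ofReal ((y - ofE (U (toE y))) ⬝ᵥ
      (y - ofE (U (toE y))))) (measurable_dot_diff measurable_id hU'm).ennreal_ofReal]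
    refine lintegral_congr fun x => ?_
    rw [enorm_sq_eq_dot]
    simp
  rw [e1, e2] at hm
  rw [unif_eq, lintegral_smul_measure, lintegral_smul_measure]
  exact mul_le_mul_right hm _

/-- Existence of optimal transport maps. -/
theorem exists_isOTMap {K : Set (Eu (n + 1))} (hK : IsCompact K) (hKc : Convex ℝ K)
    (hKi : (interior K).Nonempty) {Y : Set (Eu (n + 1))} (hY : IsCompact Y)
    {μ : Measure (Eu (n + 1))} [IsProbabilityMeasure μ] (hμY : μ Yᶜ = 0) :
    ∃ T : Eu (n + 1) → Eu (n + 1), IsOTMap (unif K) μ T := by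
  obtain ⟨R, hR⟩ := exists_coord_bound hK
  obtain ⟨Ry, hRy⟩ := exists_coord_bound hY
  have hK' := isCompact_imK hK
  have hKc' := convex_imK hKc
  have hKi' := interior_imK hKi
  haveI hμ' : IsProbabilityMeasure (μ.map ofE) :=
    Measure.isProbabilityMeasure_map measurable_ofE.aemeasurable
  have hbox : ∀ᵐ y ∂(μ.map ofE), ∀ k, |y k| ≤ Ry := by
    have hc : MeasurableSet {y : Vec (n + 1) | ∀ k, |y k| ≤ Ry} := by
      have : IsClosed {y : Vec (n + 1) | ∀ k, |y k| ≤ Ry} := by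
        simp only [setOf_forall]
        exact isClosed_iInter fun k => isClosed_le (continuous_apply k).abs continuous_const
      exact this.measurableSet
    rw [ae_map_iff measurable_ofE.aemeasurable hc]
    have h1 : ∀ᵐ x ∂μ, x ∈ Y := by
      rw [ae_iff]
      exact hμY
    filter_upwards [h1] with x hx k
    exact hRy _ ⟨x, hx, rfl⟩ k
  have hM : ∀ j, Nonempty (Model (imK K) (μ.map ofE) (grid (mesh j)) (Ry + 1)) :=
    exists_models hK' hKi' hbox
  let M : ∀ j, Model (imK K) (μ.map ofE) (grid (mesh j)) (Ry + 1) := fun j => Classical.choice (hM j)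
  obtain ⟨S, hS, hl⟩ := exists_limit hK' hKc' hKi' hR hbox M
  exact ⟨_, isOTMap_of_isOTV hK hKi (limit_isOTV hK' hKc' hKi' hR hbox M hS hl)⟩

lemma le_mul_iInf_rpow {ι : Sort*} {a C : ℝ≥0∞} {w : ι → ℝ≥0∞} (hC0 : C ≠ 0) (hCt : C ≠ ⊤)
    (h : ∀ i, a ≤ C * (w i) ^ (1 / 3 : ℝ)) : a ≤ C * (⨅ i, w i) ^ (1 / 3 : ℝ) := by
  set b := C⁻¹ * a with hb
  have hab : a = C * b := by
    rw [hb, ← mul_assoc, ENNReal.mul_inv_cancel hC0 hCt, one_mul]
  have h1 : ∀ i, b ≤ (w i) ^ (1 / 3 : ℝ) := by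
    intro i
    rw [hb]
    calc C⁻¹ * a ≤ C⁻¹ * (C * (w i) ^ (1 / 3 : ℝ)) := mul_le_mul_right (h i) _
      _ = _ := by rw [← mul_assoc, ENNReal.inv_mul_cancel hC0 hCt, one_mul]
  have h2 : ∀ i, b ^ (3 : ℝ) ≤ w i := by
    intro i
    have := ENNReal.rpow_le_rpow (h1 i) (show (0 : ℝ) ≤ 3 by norm_num)
    rwa [← ENNReal.rpow_mul, show (1 / 3 : ℝ) * 3 = 1 by norm_num, ENNReal.rpow_one] at this
  have h3 : b ^ (3 : ℝ) ≤ ⨅ i, w i := le_iInf h2
  have h4 : b ≤ (⨅ i, w i) ^ (1 / 3 : ℝ) := by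
    have := ENNReal.rpow_le_rpow h3 (show (0 : ℝ) ≤ 1 / 3 by norm_num)
    rwa [← ENNReal.rpow_mul, show (3 : ℝ) * (1 / 3) = 1 by norm_num, ENNReal.rpow_one] at this
  rw [hab]
  exact mul_le_mul_right h4 _

/-- The exponent one third is admissible in every positive dimension. -/
theorem admissible_one_third (n : ℕ) : Admissible (n + 1) (1 / 3) := by
  intro K hK hKc hKi Y hY _
  obtain ⟨R, hR⟩ := exists_coord_bound hK
  obtain ⟨Ry, hRy⟩ := exists_coord_bound hY
  have hK' := isCompact_imK hK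
  have hKc' := convex_imK hKc
  have hKi' := interior_imK hKi
  have h0 := volume_ne_zero_of_interior hKi
  have ht : volume K ≠ ⊤ := hK.measure_lt_top.ne
  set vK := (volume K).toReal with hvK
  have hvK' : (volume (imK K)).toReal = vK := by rw [volume_imK hK]
  have hvKpos : 0 < vK := ENNReal.toReal_pos h0 ht
  set C₁ := Cfin n R (Ry + 1) * (vK * 2) with hC₁
  have hC₁0 : 0 ≤ C₁ := mul_nonneg (Cfin_nonneg _ _ _) (by positivity)
  set D := (volume K)⁻¹ with hD
  have hD0 : D ≠ 0 := ENNReal.inv_ne_zero.2 ht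
  have hDt : D ≠ ⊤ := ENNReal.inv_ne_top.2 h0
  set a := ENNReal.ofReal (C₁ + 1) with ha
  have ha0 : a ≠ 0 := by
    rw [ha]
    exact (ENNReal.ofReal_pos.2 (by linarith)).ne'
  have hat : a ≠ ⊤ := ENNReal.ofReal_ne_top
  set C₀ := D ^ (1 / 2 : ℝ) * a ^ (1 / 6 : ℝ) with hC₀
  have hC₀0 : C₀ ≠ 0 := by
    rw [hC₀]
    exact mul_ne_zero (ENNReal.rpow_pos (pos_iff_ne_zero.2 hD0) hDt).ne'
      (ENNReal.rpow_pos (pos_iff_ne_zero.2 ha0) hat).ne'
  have hC₀t : C₀ ≠ ⊤ := by
    rw [hC₀]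
    exact ENNReal.mul_ne_top (ENNReal.rpow_ne_top_of_nonneg (by norm_num) hDt)
      (ENNReal.rpow_ne_top_of_nonneg (by norm_num) hat)
  refine ⟨C₀.toNNReal, ?_⟩
  intro μ ν hμ hν hμY hνY Tμ Tν hTμ hTν
  rw [ENNReal.coe_toNNReal hC₀t]
  unfold W2 L2dist
  refine le_mul_iInf_rpow hC₀0 hC₀t ?_
  rintro ⟨π, hπ1, hπ2⟩
  -- coordinates
  have hbox : ∀ {m : Measure (Eu (n + 1))}, m Yᶜ = 0 → ∀ᵐ y ∂(m.map ofE), ∀ k, |y k| ≤ Ry := by
    intro m hm
    have hc : MeasurableSet {y : Vec (n + 1) | ∀ k, |y k| ≤ Ry} := by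
      have : IsClosed {y : Vec (n + 1) | ∀ k, |y k| ≤ Ry} := by
        simp only [setOf_forall]
        exact isClosed_iInter fun k => isClosed_le (continuous_apply k).abs continuous_const
      exact this.measurableSet
    rw [ae_map_iff measurable_ofE.aemeasurable hc]
    have h1 : ∀ᵐ x ∂m, x ∈ Y := by
      rw [ae_iff]
      exact hm
    filter_upwards [h1] with x hx k
    exact hRy _ ⟨x, hx, rfl⟩ k
  haveI hμ' : IsProbabilityMeasure (μ.map ofE) :=
    Measure.isProbabilityMeasure_map measurable_ofE.aemeasurable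
  haveI hν' : IsProbabilityMeasure (ν.map ofE) :=
    Measure.isProbabilityMeasure_map measurable_ofE.aemeasurable
  have hOμ := isOTV_of_isOTMap hK hKi hTμ
  have hOν := isOTV_of_isOTMap hK hKi hTν
  set T₁ : Vec (n + 1) → Vec (n + 1) := fun y => ofE (Tμ (toE y)) with hT₁
  set T₂ : Vec (n + 1) → Vec (n + 1) := fun y => ofE (Tν (toE y)) with hT₂
  -- the coupling
  have hPm : Measurable (Prod.map (ofE (d := n + 1)) (ofE (d := n + 1))) :=
    measurable_ofE.prodMap measurable_ofE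
  set γ : Measure (Vec (n + 1) × Vec (n + 1)) := π.map (Prod.map ofE ofE) with hγ
  have hγ1 : γ.map Prod.fst = μ.map ofE := by
    rw [hγ, Measure.map_map measurable_fst hPm, ← hπ1, Measure.map_map measurable_ofE measurable_fst]
    rfl
  have hγ2 : γ.map Prod.snd = ν.map ofE := by
    rw [hγ, Measure.map_map measurable_snd hPm, ← hπ2, Measure.map_map measurable_ofE measurable_snd]
    rfl
  haveI : IsProbabilityMeasure γ := by
    constructor
    have h1 : γ univ = (γ.map Prod.fst) univ := by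
      rw [Measure.map_apply measurable_fst MeasurableSet.univ, preimage_univ]
    rw [h1, hγ1]
    exact measure_univ
  have hmain := main_vec hK' hKc' hKi' hR (hbox hμY) (hbox hνY) hOμ hOν hγ1 hγ2
  rw [hvK'] at hmain
  -- back to the lintegrals
  haveI := Model.finRestrict (K := imK K) hK'
  have hb₁ := push_ae hKi' hOμ.1 hOμ.2.1 (hbox hμY)
  have hb₂ := push_ae hKi' hOν.1 hOν.2.1 (hbox hνY)
  have hi₁ : Integrable (fun x => (T₁ x - T₂ x) ⬝ᵥ (T₁ x - T₂ x)) (volume.restrict (imK K)) := by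
    refine Integrable.of_bound (C := ((n + 1 : ℕ) : ℝ) * (2 * Ry) ^ 2)
      (measurable_dot_diff hOμ.1 hOν.1).aestronglyMeasurable ?_
    filter_upwards [hb₁, hb₂] with x a1 a2
    rw [Real.norm_eq_abs, abs_of_nonneg (dot_self_nonneg _)]
    exact dot_diff_bound a1 a2
  set X := ∫⁻ x in K, ‖Tμ x - Tν x‖ₑ ^ 2 with hX
  set Z := ∫⁻ p, ‖p.1 - p.2‖ₑ ^ 2 ∂π with hZ
  have eX : ENNReal.ofReal (∫ x in imK K, (T₁ x - T₂ x) ⬝ᵥ (T₁ x - T₂ x)) = X := by
    rw [ofReal_integral_eq_lintegral_ofReal hi₁ (Eventually.of_forall fun x => dot_self_nonneg _),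
      lintegral_imK hK (measurable_dot_diff hOμ.1 hOν.1).ennreal_ofReal]
    refine lintegral_congr fun x => ?_
    rw [enorm_sq_eq_dot]
    simp [hT₁, hT₂]
  have hb1 : ∀ᵐ p ∂γ, ∀ k, |p.1 k| ≤ Ry := by
    have h1 : ∀ᵐ y ∂(γ.map Prod.fst), ∀ k, |y k| ≤ Ry := by
      rw [hγ1]
      exact hbox hμY
    exact ae_of_ae_map measurable_fst.aemeasurable h1
  have hb2 : ∀ᵐ p ∂γ, ∀ k, |p.2 k| ≤ Ry := by
    have h1 : ∀ᵐ y ∂(γ.map Prod.snd), ∀ k, |y k| ≤ Ry := by
      rw [hγ2]
      exact hbox hνY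
    exact ae_of_ae_map measurable_snd.aemeasurable h1
  have hi₂ := integrable_cost hb1 hb2
  have eZ : ENNReal.ofReal (∫ p, (p.2 - p.1) ⬝ᵥ (p.2 - p.1) ∂γ) = Z := by
    rw [ofReal_integral_eq_lintegral_ofReal hi₂ (Eventually.of_forall fun x => dot_self_nonneg _),
      hγ, lintegral_map (measurable_dot_diff measurable_snd measurable_fst).ennreal_ofReal hPm]
    refine lintegral_congr fun p => ?_
    rw [enorm_sub_rev p.1 p.2, enorm_sq_eq_dot]
    rfl
  have hXr : 0 ≤ ∫ x in imK K, (T₁ x - T₂ x) ⬝ᵥ (T₁ x - T₂ x) :=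
    setIntegral_nonneg hK'.measurableSet fun x _ => dot_self_nonneg _
  have hZr : 0 ≤ ∫ p, (p.2 - p.1) ⬝ᵥ (p.2 - p.1) ∂γ :=
    integral_nonneg fun x => dot_self_nonneg _
  have hX3 : X ^ 3 ≤ a * Z := by
    rw [← eX, ← eZ, ← ENNReal.ofReal_pow hXr, ha, ← ENNReal.ofReal_mul (by linarith)]
    refine ENNReal.ofReal_le_ofReal (hmain.trans ?_)
    have : Cfin n R (Ry + 1) * (vK * (2 * ∫ p, (p.2 - p.1) ⬝ᵥ (p.2 - p.1) ∂γ)) =
        C₁ * ∫ p, (p.2 - p.1) ⬝ᵥ (p.2 - p.1) ∂γ := by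
      rw [hC₁]
      ring
    rw [this]
    exact mul_le_mul_of_nonneg_right (by linarith) hZr
  -- exponents
  have hX1 : X ≤ a ^ (1 / 3 : ℝ) * Z ^ (1 / 3 : ℝ) := by
    have h1 := ENNReal.rpow_le_rpow hX3 (show (0 : ℝ) ≤ 1 / 3 by norm_num)
    rw [← ENNReal.rpow_natCast, ← ENNReal.rpow_mul, ENNReal.mul_rpow_of_nonneg _ _ (by norm_num)] at h1
    norm_num at h1
    exact h1
  rw [unif_eq, lintegral_smul_measure]
  have h2 : (D • X) ^ (1 / 2 : ℝ) ≤ (D * (a ^ (1 / 3 : ℝ) * Z ^ (1 / 3 : ℝ))) ^ (1 / 2 : ℝ) :=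
    ENNReal.rpow_le_rpow (mul_le_mul_right hX1 _) (by norm_num)
  refine h2.trans (le_of_eq ?_)
  rw [ENNReal.mul_rpow_of_nonneg _ _ (by norm_num), ENNReal.mul_rpow_of_nonneg _ _ (by norm_num),
    hC₀, ← ENNReal.rpow_mul, ← ENNReal.rpow_mul, ← ENNReal.rpow_mul, mul_assoc]
  norm_num

end Vale.Agent.Lib.P074

end
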